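import Vale.Agent.P195S.Model

/-!
# P195: the terms lie in `add T`, finiteness
-/

noncomputable section

namespace P195S

open CategoryTheory P195A P195A.RS P195E P195E.FOb P195D

variable (k : Type) [Field k] [CharZero k]

omit [CharZero k] in
theorem KAdd_T (u : Fin 5) : InAdd (fun u : Fin 5 => TY k (some u)) (TY k (some u)) :=
  inAdd_self (T := fun u : Fin 5 => TY k (some u)) u

omit [CharZero k] in
theorem K_add (n i : ℕ) : InAdd (fun u : Fin 5 => TY k (some u)) (PPo k n i) := by
  have h0 : InAdd (fun u : Fin 5 => TY k (some u)) (O k 0 0) := KAdd_T k 0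
  have h1 : InAdd (fun u : Fin 5 => TY k (some u)) (O k 0 1) := KAdd_T k 1
  have h2 : InAdd (fun u : Fin 5 => TY k (some u)) (FF k 0 0) := KAdd_T k 2
  have h3 : InAdd (fun u : Fin 5 => TY k (some u)) (KK k 0 0) := KAdd_T k 3
  have h4 : InAdd (fun u : Fin 5 => TY k (some u)) (O k 0 2) := KAdd_T k 4
  match i with
  | 0 => exact inAdd_cop _ h4
  | 1 => exact inAdd_bsum _ (inAdd_cop _ h2) (inAdd_cop _ h3)
  | 2 => exact inAdd_bsum _ (inAdd_cop _ h1) (inAdd_cop _ h1)
  | 3 => exact inAdd_cop _ h0
  | _ + 4 => exact inAdd_zero (T := fun u : Fin 5 => TY k (some u)) zer_isZero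

omit [CharZero k] in
theorem K_zero (n i : ℕ) : Limits.IsZero (PPo k n (i + 4)) := zer_isZero

omit [CharZero k] in
theorem Q_add (i : ℕ) : InAdd (TY k) (QQo k i) := by
  match i with
  | 0 => exact inAdd_self (T := TY k) none
  | 1 => exact inAdd_self (T := TY k) (some 3)
  | 2 => exact inAdd_self (T := TY k) (some 2)
  | 3 => exact inAdd_self (T := TY k) none
  | _ + 4 => exact inAdd_zero (T := TY k) zer_isZero

omit [CharZero k] in
theorem Q_zero (i : ℕ) : Limits.IsZero (QQo k (i + 4)) := zer_isZero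

omit [CharZero k] in
theorem Q_corner : Nonempty (QQo k 0 ≅ TY k none) := ⟨Iso.refl _⟩

omit [CharZero k] in
theorem KAdd_filt (v : Option (Fin 5)) (w d : ℤ) : Module.Finite k ((TY k v).filt w d) := by
  match v with
  | none => exact O_filt_finite _ _ w d
  | some 0 => exact O_filt_finite _ _ w d
  | some 1 => exact O_filt_finite _ _ w d
  | some 2 => exact FF_filt_finite _ _ w d
  | some 3 => exact KK_filt_finite _ _ w d
  | some 4 => exact O_filt_finite _ _ w d

omit [CharZero k] in
theorem KAdd_fin (v : Option (Fin 5)) {F : FOb k} (hF : ∀ w d, Module.Finite k (F.filt w d)) :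
    Module.Finite k (TY k v ⟶ F) := by
  match v with
  | none => exact O_hom_finite _ _ hF
  | some 0 => exact O_hom_finite _ _ hF
  | some 1 => exact O_hom_finite _ _ hF
  | some 2 => exact FF_hom_finite _ _ hF
  | some 3 => exact KK_hom_finite _ _ hF
  | some 4 => exact O_hom_finite _ _ hF

omit [CharZero k] in
theorem T_fin (v v' : Option (Fin 5)) : Module.Finite k (TY k v ⟶ TY k v') :=
  KAdd_fin k v (KAdd_filt k v')

omit [CharZero k] in
theorem T_fin2 (u : Fin 5) (v : Option (Fin 5)) :
    Module.Finite k (TY k (some u) ⟶ Phi.obj (TY k v)) :=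
  KAdd_fin k (some u) (fun w d => Phi_filt_finite (KAdd_filt k v) w d)

omit [CharZero k] in
theorem T_end (f : TY k none ⟶ TY k none) : ∃ a : k, f = a • 𝟙 (TY k none) := O_end _ _ f

omit [CharZero k] in
theorem T_one : 𝟙 (TY k none) ≠ 0 := by
  intro h
  have h1 := congrArg (fun f : TY k none ⟶ TY k none => act f.1 (fun _ : Unit => (1 : Wo k))) h
  have h2 := act_id (E := TY k none) (fun _ : Unit => (1 : Wo k))
  have h3 := act_zero_hom (E := TY k none) (F := TY k none) (fun _ : Unit => (1 : Wo k))
  have h4 := (h2.symm.trans h1).trans h3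
  have h5 := congrFun h4 ()
  exact one_ne_zero (α := Wo k) h5

end P195S

end
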