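import Vale.Agent.P195S.KDD

/-!
# P195: `c_n` is a map of complexes
-/

noncomputable section

namespace P195S

open CategoryTheory P195A P195A.RS P195E P195E.FOb P195D

section gen

variable {k : Type} [Field k]

/-- squares of morphisms given by linear maps -/
theorem sq_of {E F G H : FOb k} (φf : (E.I → Wo k) →ₗ[Wo k] (F.I → Wo k))
    (hf : ∀ a b u, u ∈ E.filt a b → φf u ∈ F.filt a b)
    (φc : (F.I → Wo k) →ₗ[Wo k] (H.I → Wo k))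
    (hc : ∀ a b u, u ∈ F.filt a b → φc u ∈ H.filt (a - 1) (b - 1))
    (φc' : (E.I → Wo k) →ₗ[Wo k] (G.I → Wo k))
    (hc' : ∀ a b u, u ∈ E.filt a b → φc' u ∈ G.filt (a - 1) (b - 1))
    (φg : (G.I → Wo k) →ₗ[Wo k] (H.I → Wo k))
    (hg : ∀ a b u, u ∈ G.filt a b → φg u ∈ H.filt a b)
    (h : ∀ u, φc (φf u) = φg (φc' u)) :
    mkHom φf hf ≫ mkHom (F := Phi.obj H) φc hc =
      mkHom (F := Phi.obj G) φc' hc' ≫ Phi.map (mkHom φg hg) := by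
  apply hom_ext_act
  intro u
  rw [act_comp, act_comp, Phi_map_val]
  have e1 : act (mkHom φf hf).1 u = φf u := act_mkHom _ _ _
  have e2 : act (mkHom (F := Phi.obj H) φc hc).1 (φf u) = φc (φf u) :=
    act_mkHom (F := Phi.obj H) _ _ _
  have e3 : act (mkHom (F := Phi.obj G) φc' hc').1 u = φc' u := act_mkHom (F := Phi.obj G) _ _ _
  have e4 : act (mkHom φg hg).1 (φc' u) = φg (φc' u) := act_mkHom _ _ _
  rw [e1, e2, e3, h]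
  exact e4.symm

theorem HH_cst {m m' : ℤ} {v : Vy (Wo k)} (hv : v ∈ HH k (Wo k) m) (h : m = m') :
    v ∈ HH k (Wo k) m' := h ▸ hv

theorem HH_qq {m : ℤ} (a : Fin 2) {v : Vy (Wo k)} (hv : v ∈ HH k (Wo k) m) :
    qq k a v ∈ HH k (Wo k) (m - 1) := by
  fin_cases a
  · exact HH_q0 hv
  · exact HH_q1 hv

theorem HH_dv {m : ℤ} {q : Fin 2 → Vy (Wo k)} (hq : ∀ a, q a ∈ HH k (Wo k) m) :
    dv k q ∈ HH k (Wo k) (m - 1) :=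
  Submodule.add_mem _ (HH_q0 (hq 0)) (HH_q1 (hq 1))

end gen

variable (k : Type) [Field k] [CharZero k]

theorem M3_HH {n : ℕ} {r : Vy (Wo k)} (hr : r ∈ HH k (Wo k) ((n + 1 : ℕ) : ℤ)) :
    M3 k n r ∈ HH k (Wo k) (n : ℤ) :=
  HH_cst (Submodule.smul_mem _ _ (HH_g0 (S := primal k) hr)) (by push_cast; ring)

theorem M0_HH {n : ℕ} {r : Vy (Wo k)} (hr : r ∈ HH k (Wo k) ((n + 1 : ℕ) : ℤ)) :
    M0 k n r ∈ HH k (Wo k) (n : ℤ) :=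
  HH_cst (Submodule.smul_mem _ _ (HH_g0 (S := primal k) hr)) (by push_cast; ring)

theorem L1_HH {n : ℤ} {q : QV k} (h1 : ∀ a, q.1 a ∈ HH k (Wo k) (n - 1))
    (h2 : ∀ a, q.2 a ∈ HH k (Wo k) (n + 1)) : L1 k q ∈ HH k (Wo k) n :=
  Submodule.add_mem _ (HH_cst (HH_al (HH_chi1 h1 h2)) (by ring))
    (HH_cst (HH_be (HH_chi2 h1 h2)) (by ring))

theorem HH_tt {m : ℤ} {q : Fin 2 → Vy (Wo k)} (hq : ∀ a, q a ∈ HH k (Wo k) m) :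
    (primal k).tt q ∈ HH k (Wo k) m :=
  Submodule.sub_mem _ (HH_lf _ (hq 0)) (HH_lf _ (hq 1))

theorem M2_HH {n : ℕ} {q : QV k} (h1 : ∀ a, q.1 a ∈ HH k (Wo k) (((n + 1 : ℕ) : ℤ) - 1))
    (h2 : ∀ a, q.2 a ∈ HH k (Wo k) (((n + 1 : ℕ) : ℤ) + 1)) (a : Fin 2) :
    (M2 k n q).1 a ∈ HH k (Wo k) ((n : ℤ) - 1) ∧ (M2 k n q).2 a ∈ HH k (Wo k) ((n : ℤ) + 1) :=
  ⟨HH_cst (Submodule.smul_mem _ _ (HH_g0 (S := primal k) (h1 a))) (by push_cast; ring),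
    Submodule.sub_mem _
      (HH_cst (Submodule.smul_mem _ _ (HH_g0 (S := primal k) (h2 a))) (by push_cast; ring))
      (HH_cst (HH_qq a (HH_chi2 h1 h2)) (by push_cast; ring))⟩

theorem M1_HH {n : ℕ} {q : QV k} (h1 : ∀ a, q.1 a ∈ HH k (Wo k) (((n + 1 : ℕ) : ℤ) - 1))
    (h2 : ∀ a, q.2 a ∈ HH k (Wo k) (((n + 1 : ℕ) : ℤ) + 1)) (a : Fin 2) :
    (M1 k n q).1 a ∈ HH k (Wo k) ((n : ℤ) - 1) ∧ (M1 k n q).2 a ∈ HH k (Wo k) ((n : ℤ) + 1) :=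
  ⟨Submodule.add_mem _
      (HH_cst (Submodule.smul_mem _ _ (HH_g0 (S := primal k) (h1 a))) (by push_cast; ring))
      (HH_lf _ (Submodule.sub_mem _ (HH_cst (HH_dv h1) (by push_cast; ring))
        (HH_cst (HH_be (HH_tt k h1)) (by push_cast; ring)))),
    Submodule.add_mem _
      (HH_cst (Submodule.smul_mem _ _ (HH_g0 (S := primal k) (h2 a))) (by push_cast; ring))
      (HH_lf _ (HH_cst (HH_al (HH_tt k h1)) (by push_cast; ring)))⟩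

/-- degrees 3, 2 -/
theorem cl2_wl3 (n : ℕ) (u : (OS k ((n + 1 : ℕ) : ℤ) 0 0).I → Wo k) :
    cl2 k n (wl3 k (n + 1) u) = wl3 k n (cl3 k n u) := by
  have hr := exS_HH k (m := ((n + 1 : ℕ) : ℤ)) (a := 0) (b := 0) u
  have hr' : exS k ((n + 1 : ℕ) : ℤ) 0 0 u ∈ HH k (Wo k) ((n : ℤ) + 1) :=
    HH_cst hr (by push_cast; ring)
  have e5 : exS k n 0 0 (cl3 k n u) = M3 k n (exS k ((n + 1 : ℕ) : ℤ) 0 0 u) :=
    exS_reS k (M3_HH k hr)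
  have e6 : M2 k n (L3 k (exS k ((n + 1 : ℕ) : ℤ) 0 0 u)) =
      L3 k (M3 k n (exS k ((n + 1 : ℕ) : ℤ) 0 0 u)) :=
    Prod.ext (dl3a_g0 n _ hr') (dl3b_g0 n _ hr')
  have e7 : exP2 k ((n + 1 : ℕ) : ℤ) (wl3 k (n + 1) u) = L3 k (exS k ((n + 1 : ℕ) : ℤ) 0 0 u) :=
    exP2_reP2 k (fun a => (L3_HH k hr a).1) (fun a => (L3_HH k hr a).2)
  show reP2 k n (M2 k n (exP2 k ((n + 1 : ℕ) : ℤ) (wl3 k (n + 1) u))) =
    reP2 k n (L3 k (exS k n 0 0 (cl3 k n u)))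
  rw [e7, e6, e5]

/-- degrees 2, 1 -/
theorem cl1_wl2 (n : ℕ) (u : (P2 k ((n + 1 : ℕ) : ℤ)).I → Wo k) :
    cl1 k n (wl2 k (n + 1) u) = wl2 k n (cl2 k n u) := by
  have h1 := fun a => (exP2_HH k (n := ((n + 1 : ℕ) : ℤ)) u a).1
  have h2 := fun a => (exP2_HH k (n := ((n + 1 : ℕ) : ℤ)) u a).2
  have h1' : ∀ a, (exP2 k ((n + 1 : ℕ) : ℤ) u).1 a ∈ HH k (Wo k) (n : ℤ) :=
    fun a => HH_cst (h1 a) (by push_cast; ring)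
  have h2' : ∀ a, (exP2 k ((n + 1 : ℕ) : ℤ) u).2 a ∈ HH k (Wo k) ((n : ℤ) + 2) :=
    fun a => HH_cst (h2 a) (by push_cast; ring)
  have e5 : exP2 k n (cl2 k n u) = M2 k n (exP2 k ((n + 1 : ℕ) : ℤ) u) :=
    exP2_reP2 k (fun a => (M2_HH k h1 h2 a).1) (fun a => (M2_HH k h1 h2 a).2)
  have e6 : M1 k n (L2 k (n + 1) (exP2 k ((n + 1 : ℕ) : ℤ) u)) =
      L2 k n (M2 k n (exP2 k ((n + 1 : ℕ) : ℤ) u)) :=
    Prod.ext (dl2a_cc2 h1' h2').symm (dl2b_cc2 h1' h2').symm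
  have e7 : exP1 k ((n + 1 : ℕ) : ℤ) (wl2 k (n + 1) u) =
      L2 k (n + 1) (exP2 k ((n + 1 : ℕ) : ℤ) u) :=
    exP1_reP1 k (fun a => (L2_HH k h1 h2 a).1) (fun a => (L2_HH k h1 h2 a).2)
  show reP1 k n (M1 k n (exP1 k ((n + 1 : ℕ) : ℤ) (wl2 k (n + 1) u))) =
    reP1 k n (L2 k n (exP2 k n (cl2 k n u)))
  rw [e7, e6, e5]

/-- degrees 1, 0 -/
theorem cl0_wl1 (n : ℕ) (u : (P1 k ((n + 1 : ℕ) : ℤ)).I → Wo k) :
    cl0 k n (wl1 k (n + 1) u) = wl1 k n (cl1 k n u) := by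
  have h1 := fun a => (exP1_HH k (n := ((n + 1 : ℕ) : ℤ)) u a).1
  have h2 := fun a => (exP1_HH k (n := ((n + 1 : ℕ) : ℤ)) u a).2
  have h1' : ∀ a, (exP1 k ((n + 1 : ℕ) : ℤ) u).1 a ∈ HH k (Wo k) (n : ℤ) :=
    fun a => HH_cst (h1 a) (by push_cast; ring)
  have h2' : ∀ a, (exP1 k ((n + 1 : ℕ) : ℤ) u).2 a ∈ HH k (Wo k) ((n : ℤ) + 2) :=
    fun a => HH_cst (h2 a) (by push_cast; ring)
  have e5 : exP1 k n (cl1 k n u) = M1 k n (exP1 k ((n + 1 : ℕ) : ℤ) u) :=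
    exP1_reP1 k (fun a => (M1_HH k h1 h2 a).1) (fun a => (M1_HH k h1 h2 a).2)
  have e6 : M0 k n (L1 k (exP1 k ((n + 1 : ℕ) : ℤ) u)) =
      L1 k (M1 k n (exP1 k ((n + 1 : ℕ) : ℤ) u)) :=
    (dl1_cc1 h1' h2').symm
  have e7 : exS k ((n + 1 : ℕ) : ℤ) 0 2 (wl1 k (n + 1) u) = L1 k (exP1 k ((n + 1 : ℕ) : ℤ) u) :=
    exS_reS k (L1_HH k h1 h2)
  show reS k n 0 2 (M0 k n (exS k ((n + 1 : ℕ) : ℤ) 0 2 (wl1 k (n + 1) u))) =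
    reS k n 0 2 (L1 k (exP1 k n (cl1 k n u)))
  rw [e7, e6, e5]

theorem m3_e2 (n : ℕ) : m3 k (n + 1) ≫ e2 k n = e3 k n ≫ Phi.map (m3 k n) :=
  sq_of _ _ _ _ _ _ _ _ (cl2_wl3 k n)

theorem m2_e1 (n : ℕ) : m2 k (n + 1) ≫ e1 k n = e2 k n ≫ Phi.map (m2 k n) :=
  sq_of _ _ _ _ _ _ _ _ (cl1_wl2 k n)

theorem m1_e0 (n : ℕ) : m1 k (n + 1) ≫ e0 k n = e1 k n ≫ Phi.map (m1 k n) :=
  sq_of _ _ _ _ _ _ _ _ (cl0_wl1 k n)

theorem K_dc (n i : ℕ) :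
    dPP k (n + 1) i ≫ cPP k n i = cPP k n (i + 1) ≫ Phi.map (dPP k n i) := by
  match i with
  | 0 => exact m1_e0 k n
  | 1 => exact m2_e1 k n
  | 2 => exact m3_e2 k n
  | i + 3 => exact (Limits.zero_comp).trans (Limits.zero_comp).symm

end P195S

end
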