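import Vale.Agent.P195S.PPLB

/-!
# P195: `Hom(T v, PP n)` is exact
-/

noncomputable section

namespace P195S

open CategoryTheory P195A P195A.RS P195E P195E.FOb P195D

variable (k : Type) [Field k] [CharZero k]

theorem K_p1 (v : Option (Fin 5)) (n i : ℕ) (x : TY k v ⟶ PPo k n (i + 1))
    (hx : x ≫ dPP k n i = 0) : ∃ y, y ≫ dPP k n (i + 1) = x := by
  match v, x, hx with
  | none, x, hx => exact (LB_PP k n).ex_O (a := -1) (b := 2) (by norm_num) i x hx
  | some 0, x, hx => exact (LB_PP k n).ex_O (a := 0) (b := 0) (by norm_num) i x hx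
  | some 1, x, hx => exact (LB_PP k n).ex_O (a := 0) (b := 1) (by norm_num) i x hx
  | some 2, x, hx =>
    have hs : SurjX (OS k n 0 0) 0 0 := surjX_cop (surjX_O (Or.inr le_rfl))
    exact (LB_PP k n).ex_FF (a := 0) (b := 0) (by norm_num) hs i x hx
  | some 3, x, hx =>
    have hs : SurjP (OS k n 0 0) 0 0 := surjP_cop (surjP_O (Or.inr le_rfl))
    exact (LB_PP k n).ex_KK (a := 0) (b := 0) (by norm_num) hs i x hx
  | some 4, x, hx => exact (LB_PP k n).ex_O (a := 0) (b := 2) (by norm_num) i x hx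

end P195S

end
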