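import Vale.Agent.P195S.PPLB

/-!
# P195: `Hom(T u, Φ PP n)` is exact
-/

noncomputable section

namespace P195S

open CategoryTheory P195A P195A.RS P195E P195E.FOb P195D

variable (k : Type) [Field k] [CharZero k]

theorem K_p2 (u : Fin 5) (n i : ℕ) (x : TY k (some u) ⟶ Phi.obj (PPo k n (i + 1)))
    (hx : x ≫ Phi.map (dPP k n i) = 0) : ∃ y, y ≫ Phi.map (dPP k n (i + 1)) = x := by
  match u, x, hx with
  | 0, x, hx => exact (LB_PP k n).tw.ex_O (a := 0) (b := 0) (by norm_num) i x hx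
  | 1, x, hx => exact (LB_PP k n).tw.ex_O (a := 0) (b := 1) (by norm_num) i x hx
  | 2, x, hx =>
    have hs : SurjX (Phi.obj (OS k n 0 0)) 0 0 :=
      surjX_Phi (surjX_cop (surjX_O (Or.inl (by norm_num))))
    exact (LB_PP k n).tw.ex_FF (a := 0) (b := 0) (by norm_num) hs i x hx
  | 3, x, hx =>
    have hs : SurjP (Phi.obj (OS k n 0 0)) 0 0 :=
      surjP_Phi (surjP_cop (surjP_O (Or.inl (by norm_num))))
    exact (LB_PP k n).tw.ex_KK (a := 0) (b := 0) (by norm_num) hs i x hx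
  | 4, x, hx => exact (LB_PP k n).tw.ex_O (a := 0) (b := 2) (by norm_num) i x hx

end P195S

end
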