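import Vale.Agent.P195S.PPLB

/-!
# P195: `c_n` on `H_0` of `Hom(T u, -)`
-/

noncomputable section

namespace P195S

open CategoryTheory P195A P195A.RS P195E P195E.FOb P195D

variable (k : Type) [Field k] [CharZero k]

theorem ev_g0_HH {m : ℤ} {v : Vy (Wo k)} (hv : v ∈ HH k (Wo k) m) :
    (primal k).ev ((primal k).g0 v) = (m : k) • (primal k).ev v := by
  rw [g0_apply, map_add, ev_X0, ev_X1, ← ev_y0, ← ev_y1, ← map_add, HH_euler hv, map_smul]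

theorem exS_cl0 (n : ℕ) (u : (OS k ((n + 1 : ℕ) : ℤ) 0 2).I → Wo k) :
    exS k n 0 2 (cl0 k n u) = M0 k n (exS k ((n + 1 : ℕ) : ℤ) 0 2 u) := by
  have h := HH_g0 (S := primal k) (exS_HH k u)
  rw [show (((n + 1 : ℕ) : ℤ)) - 1 = n by push_cast; ring] at h
  exact exS_reS k (Submodule.smul_mem _ _ h)

theorem augS_e0 (n : ℕ) (u : (OS k ((n + 1 : ℕ) : ℤ) 0 2).I → Wo k) :
    (augS k n).tph.h (act (F := Phi.obj (OS k n 0 2)) (e0 k n).1 u) =
      (((n : k) + 1) * ((n : k) + 1)) • (augS k (n + 1)).h u := by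
  rw [act_e0]
  show (augS k n).h (cl0 k n u) = _
  rw [augS_apply, exS_cl0, augS_apply]
  show (primal k).A ((primal k).ev (((n : k) + 1) • (primal k).g0 _)) = _
  rw [map_smul, map_smul, ev_g0_HH k (exS_HH k u), map_smul, smul_smul]
  congr 2
  push_cast
  rfl

theorem lam_ne (n : ℕ) : (((n : k) + 1) * ((n : k) + 1)) ≠ 0 := by
  have h : (n : k) + 1 ≠ 0 := Nat.cast_add_one_ne_zero n
  exact mul_ne_zero h h

/-- image of the augmentation -/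
theorem imLe_PP (n : ℕ) {a b : ℤ} (ha : a ≤ 1) (hb : b ≤ 2) (hab : a + b ≤ 2) :
    ImLe (augS k (n + 1)) (augS k n).tph a b := by
  intro u' hu'
  have hu1 : u' ∈ (OS k n 0 2).filt (a - 1) (b - 1) := hu'
  have h1 := ev_mem ((mem_OS k).1 hu1)
  obtain ⟨z, hz, h2⟩ := h0_surj (S := primal k) (n + 1) (w := -a) (d := 2 - b) (by omega)
    (by omega) (by omega) (c := (primal k).ev (exS k n 0 2 u')) (d' := 2 - (b - 1)) (by
      rwa [show (0 : ℤ) - (a - 1) + n = -a + ((n + 1 : ℕ) : ℤ) by push_cast; ring] at h1)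
  have hz' := exS_reS k (a := 0) (b := 2) (VV_HH hz)
  refine ⟨reS k ((n + 1 : ℕ) : ℤ) 0 2 z, ?_, ?_⟩
  · refine (mem_OS k).2 ?_
    rw [hz']
    exact VV_cast hz (by ring) (by ring)
  · have e : (augS k (n + 1)).h (reS k ((n + 1 : ℕ) : ℤ) 0 2 z) =
        (primal k).A ((primal k).ev z) := by
      rw [augS_apply, hz']
    exact e.trans h2

omit [CharZero k] in
theorem surjX_P1 (n : ℤ) : SurjX (P1 k n) 0 0 :=
  surjX_bsum (surjX_cop (surjX_FF (Or.inl (by norm_num))))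
    (surjX_cop (surjX_KK (Or.inl (by norm_num)) (Or.inl (by norm_num))))

omit [CharZero k] in
theorem surjP_P1 (n : ℤ) : SurjP (P1 k n) 0 0 :=
  surjP_bsum (surjP_cop (surjP_FF (Or.inl (by norm_num)) (Or.inl (by norm_num))))
    (surjP_cop (surjP_KK (Or.inl (by norm_num))))

omit [CharZero k] in
theorem surjX_P2 (n : ℤ) {a b : ℤ} (h : 1 ≠ a + b) : SurjX (P2 k n) a b :=
  surjX_bsum (surjX_cop (surjX_O (Or.inl (by omega)))) (surjX_cop (surjX_O (Or.inl (by omega))))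

omit [CharZero k] in
theorem surjP_P2 (n : ℤ) {a b : ℤ} (h : 1 ≠ b) : SurjP (P2 k n) a b :=
  surjP_bsum (surjP_cop (surjP_O (Or.inl h))) (surjP_cop (surjP_O (Or.inl h)))

theorem K_p3 (u : Fin 5) (n : ℕ) (x : TY k (some u) ⟶ PPo k (n + 1) 0)
    (z : TY k (some u) ⟶ Phi.obj (PPo k n 1))
    (h : x ≫ cPP k n 0 = z ≫ Phi.map (dPP k n 0)) : ∃ t, x = t ≫ dPP k (n + 1) 0 := by
  match u, x, z, h with
  | 0, x, z, h =>
    exact (LB_PP k (n + 1)).inj_O (LB_PP k n).tw (lam_ne k n) (augS_e0 k n)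
      (a := 0) (b := 0) (by norm_num) x z h
  | 1, x, z, h =>
    exact (LB_PP k (n + 1)).inj_O (LB_PP k n).tw (lam_ne k n) (augS_e0 k n)
      (a := 0) (b := 1) (by norm_num) x z h
  | 2, x, z, h =>
    exact (LB_PP k (n + 1)).inj_FF (LB_PP k n).tw (lam_ne k n) (augS_e0 k n)
      (a := 0) (b := 0) (by norm_num) (surjX_P2 k ((n + 1 : ℕ) : ℤ) (by norm_num)) x z h
  | 3, x, z, h =>
    exact (LB_PP k (n + 1)).inj_KK (LB_PP k n).tw (lam_ne k n) (augS_e0 k n)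
      (a := 0) (b := 0) (by norm_num) (surjP_P2 k ((n + 1 : ℕ) : ℤ) (by norm_num)) x z h
  | 4, x, z, h =>
    exact (LB_PP k (n + 1)).inj_O (LB_PP k n).tw (lam_ne k n) (augS_e0 k n)
      (a := 0) (b := 2) (by norm_num) x z h

theorem p4_O (n : ℕ) {b : ℤ} (hb : b ≤ 2) (x : O k 0 b ⟶ Phi.obj (OS k n 0 2)) :
    ∃ (y : O k 0 b ⟶ OS k ((n + 1 : ℕ) : ℤ) 0 2) (t : O k 0 b ⟶ Phi.obj (P1 k n)),
      x = y ≫ e0 k n + t ≫ Phi.map (m1 k n) :=
  surj0_O (lam_ne k n) (augS_e0 k n) (imLe_PP k n (by norm_num) hb (by omega))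
    ((LB_PP k n).tw.e0 0 b (by norm_num)) x

theorem p4_FF (n : ℕ) (x : FF k 0 0 ⟶ Phi.obj (OS k n 0 2)) :
    ∃ (y : FF k 0 0 ⟶ OS k ((n + 1 : ℕ) : ℤ) 0 2) (t : FF k 0 0 ⟶ Phi.obj (P1 k n)),
      x = y ≫ e0 k n + t ≫ Phi.map (m1 k n) :=
  surj0_FF (f := m1 k (n + 1)) (e' := Phi.map (m2 k n)) (lam_ne k n) (augS_e0 k n)
    (PP_hd k (n + 1))
    (imLe_PP k n (by norm_num) (by norm_num) (by norm_num))
    (imLe_PP k n (by norm_num) (by norm_num) (by norm_num))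
    (PP_e0 k (n + 1) _ _ (by norm_num)) (surjX_P1 k ((n + 1 : ℕ) : ℤ))
    ((LB_PP k n).tw.dd 0)
    ((LB_PP k n).tw.e0 _ _ (by norm_num)) ((LB_PP k n).tw.e0 _ _ (by norm_num))
    ((LB_PP k n).tw.e1 _ _ (by norm_num)) (surjX_Phi (surjX_P2 k n (by norm_num))) x

theorem p4_KK (n : ℕ) (x : KK k 0 0 ⟶ Phi.obj (OS k n 0 2)) :
    ∃ (y : KK k 0 0 ⟶ OS k ((n + 1 : ℕ) : ℤ) 0 2) (t : KK k 0 0 ⟶ Phi.obj (P1 k n)),
      x = y ≫ e0 k n + t ≫ Phi.map (m1 k n) :=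
  surj0_KK (f := m1 k (n + 1)) (e' := Phi.map (m2 k n)) (lam_ne k n) (augS_e0 k n)
    (PP_hd k (n + 1))
    (imLe_PP k n (by norm_num) (by norm_num) (by norm_num))
    (imLe_PP k n (by norm_num) (by norm_num) (by norm_num))
    (PP_e0 k (n + 1) _ _ (by norm_num)) (surjP_P1 k ((n + 1 : ℕ) : ℤ))
    ((LB_PP k n).tw.dd 0)
    ((LB_PP k n).tw.e0 _ _ (by norm_num)) ((LB_PP k n).tw.e0 _ _ (by norm_num))
    ((LB_PP k n).tw.e1 _ _ (by norm_num)) (surjP_Phi (surjP_P2 k n (by norm_num))) x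

theorem K_p4 (u : Fin 5) (n : ℕ) (x : TY k (some u) ⟶ Phi.obj (PPo k n 0)) :
    ∃ (y : TY k (some u) ⟶ PPo k (n + 1) 0) (t : TY k (some u) ⟶ Phi.obj (PPo k n 1)),
      x = y ≫ cPP k n 0 + t ≫ Phi.map (dPP k n 0) := by
  match u, x with
  | 0, x => exact p4_O k n (by norm_num) x
  | 1, x => exact p4_O k n (by norm_num) x
  | 2, x => exact p4_FF k n x
  | 3, x => exact p4_KK k n x
  | 4, x => exact p4_O k n (by norm_num) x

end P195S

end
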