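import Vale.Agent.P195S.KTgt

/-!
# P195: `Hom(PP n, T v)` is exact
-/

noncomputable section

namespace P195S

open CategoryTheory P195A P195A.RS P195E P195E.FOb P195D Du

variable (k : Type) [Field k] [CharZero k]

theorem K_p5 (v : Option (Fin 5)) (n : ℕ) (x : PPo k n 0 ⟶ TY k v) (h : dPP k n 0 ≫ x = 0) :
    x = 0 :=
  p5_gen n ((tgt_TY k v).ex n) x h

theorem K_p5' (v : Option (Fin 5)) (n i : ℕ) (x : PPo k n (i + 1) ⟶ TY k v) (hi : i + 1 < 3)
    (h : dPP k n (i + 1) ≫ x = 0) : ∃ y, dPP k n i ≫ y = x := by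
  match i, x, hi, h with
  | 0, x, _, h => exact p51_gen n ((tgt_TY k v).ex n) x h
  | 1, x, _, h => exact p52_gen n ((tgt_TY k v).ex n) x h
  | i + 2, x, hi, h => exact absurd hi (by omega)

end P195S

end
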