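import Vale.Agent.P195S.KTgt

/-!
# P195: `c_n` on `H^3` of `Hom(-, T v)`: surjective
-/

noncomputable section

namespace P195S

open CategoryTheory P195A P195A.RS P195E P195E.FOb P195D Du

variable (k : Type) [Field k] [CharZero k]

theorem K_p8 (v : Option (Fin 5)) (n : ℕ) (x : PPo k (n + 1) 3 ⟶ Phi.obj (TY k v)) :
    ∃ (y : PPo k n 3 ⟶ TY k v) (t : PPo k (n + 1) 2 ⟶ Phi.obj (TY k v)),
      x = cPP k n 3 ≫ Phi.map y + dPP k (n + 1) 2 ≫ t :=
  p8_gen n (tgt_TY k v).genP (tgt_TY k v).surj x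

end P195S

end
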