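import Vale.Agent.P195S.Model
import Vale.Agent.P195E.QQCat

/-!
# P195: `Hom(T v, QQ)`
-/

noncomputable section

namespace P195S

open CategoryTheory P195A P195A.RS P195E P195E.FOb P195D

variable (k : Type) [Field k] [CharZero k]

theorem isX_TY (u : Fin 5) : IsX (TY k (some u)) := by
  fin_cases u
  · exact IsX.o 0 (by norm_num) (by norm_num)
  · exact IsX.o 1 (by norm_num) (by norm_num)
  · exact IsX.f
  · exact IsX.q
  · exact IsX.o 2 (by norm_num) (by norm_num)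

theorem isY_TY (v : Option (Fin 5)) : IsY (TY k v) := by
  cases v with
  | none => exact IsY.l
  | some u => exact IsY.x _ (isX_TY k u)

theorem n3_eq : n3 k = qA k := by
  apply hom_ext_act
  intro u
  exact (act_mkHom _ _ _).trans (qA_act u).symm

theorem n2_eq : n2 k = qB k := by
  apply hom_ext_act
  intro u
  exact (act_mkHom _ _ _).trans (qB_act u).symm

theorem n1_eq : n1 k = qC k := by
  apply hom_ext_act
  intro u
  refine (act_mkHom _ _ _).trans ((?_ : _ = _).trans (qC_act u).symm)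
  funext i
  show u (1 : Fin 2) * po k 0 - u (0 : Fin 2) * po k 1 = -(u (0 : Fin 2) * po k 1 - u (1 : Fin 2) * po k 0)
  rw [neg_sub]

theorem Q_q1 (v : Option (Fin 5)) (i : ℕ) (x : TY k v ⟶ QQo k (i + 1)) (h : x ≫ dQQ k i = 0) :
    ∃ y, y ≫ dQQ k (i + 1) = x := by
  match i, x, h with
  | 0, x, h =>
    change x ≫ n1 k = 0 at h
    rw [n1_eq] at h
    show ∃ y : TY k v ⟶ FF k 0 0, y ≫ n2 k = x
    rw [n2_eq]
    exact QQ_exK (isY_TY k v) x h
  | 1, x, h =>
    change x ≫ n2 k = 0 at h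
    rw [n2_eq] at h
    show ∃ y : TY k v ⟶ LL k, y ≫ n3 k = x
    rw [n3_eq]
    exact QQ_exF (isY_TY k v) x h
  | 2, x, h =>
    change x ≫ n3 k = 0 at h
    rw [n3_eq] at h
    refine ⟨0, ?_⟩
    rw [QQ_inj (isY_TY k v) x h]
    exact Limits.zero_comp
  | _ + 3, x, _ => exact ⟨0, zer_isZero.eq_of_tgt _ _⟩

theorem Q_q2 (u : Fin 5) (x : TY k (some u) ⟶ QQo k 0) : ∃ y, x = y ≫ dQQ k 0 := by
  show ∃ y : TY k (some u) ⟶ KK k 0 0, x = y ≫ n1 k
  rw [n1_eq]
  exact QQ_q2 (isX_TY k u) x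

theorem Q_q3 (y : TY k none ⟶ QQo k 1) : y ≫ dQQ k 0 = 0 := by
  change LL k ⟶ KK k 0 0 at y
  rw [L_K y]
  exact Limits.zero_comp

end P195S

end
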