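import Vale.Agent.P195S.Q1

/-!
# P195: `Hom(T u, Φ QQ)` is exact
-/

noncomputable section

namespace P195S

open CategoryTheory P195A P195A.RS P195E P195E.FOb P195D

variable (k : Type) [Field k] [CharZero k]

theorem Q_q4 (u : Fin 5) (i : ℕ) (x : TY k (some u) ⟶ Phi.obj (QQo k (i + 1)))
    (h : x ≫ Phi.map (dQQ k i) = 0) : ∃ y, y ≫ Phi.map (dQQ k (i + 1)) = x := by
  match i, x, h with
  | 0, x, h =>
    change x ≫ Phi.map (n1 k) = 0 at h
    rw [n1_eq] at h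
    show ∃ y : TY k (some u) ⟶ Phi.obj (FF k 0 0), y ≫ Phi.map (n2 k) = x
    rw [n2_eq]
    exact QQ_exKT (isX_TY k u) x h
  | 1, x, h =>
    change x ≫ Phi.map (n2 k) = 0 at h
    rw [n2_eq] at h
    show ∃ y : TY k (some u) ⟶ Phi.obj (LL k), y ≫ Phi.map (n3 k) = x
    rw [n3_eq]
    exact QQ_exFT (isX_TY k u) x h
  | 2, x, h =>
    change x ≫ Phi.map (n3 k) = 0 at h
    rw [n3_eq] at h
    refine ⟨0, ?_⟩
    rw [QQ_injT (isX_TY k u) x h]
    exact Limits.zero_comp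
  | _ + 3, x, _ =>
    refine ⟨0, ?_⟩
    apply hom_ext
    funext i l
    exact l.elim

end P195S

end
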