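import Vale.Agent.P195S.KDC

/-!
# P195: `QQ` is a complex, `c_(-1)` is a map of complexes
-/

noncomputable section

namespace P195S

open CategoryTheory P195A P195A.RS P195E P195E.FOb P195D

section gen

variable {k : Type} [Field k]

theorem cmp_of {E F G : FOb k} (φf : (E.I → Wo k) →ₗ[Wo k] (F.I → Wo k))
    (hf : ∀ a b u, u ∈ E.filt a b → φf u ∈ F.filt a b)
    (φg : (F.I → Wo k) →ₗ[Wo k] (G.I → Wo k))
    (hg : ∀ a b u, u ∈ F.filt a b → φg u ∈ G.filt a b)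
    (h : ∀ u, φg (φf u) = 0) : mkHom φf hf ≫ mkHom φg hg = 0 := by
  apply hom_ext_act
  intro u
  rw [act_comp, act_zero_hom]
  have e1 : act (mkHom φf hf).1 u = φf u := act_mkHom _ _ _
  have e2 : act (mkHom φg hg).1 (φf u) = φg (φf u) := act_mkHom _ _ _
  rw [e1, e2, h]

theorem neg_aux (x y p q : Wo k) : x * p - y * q = -y * q - -x * p := by
  have h1 : -y * q = -(y * q) := neg_mul y q
  have h2 : -x * p = -(x * p) := neg_mul x p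
  rw [h1, h2, sub_neg_eq_add]
  exact (neg_add_eq_sub (y * q) (x * p)).symm

theorem N2_N3 (r : Wo k) : N2 k (N3 k r) = 0 := by
  funext a
  show (r * xo k 0 * xo k 1 - r * xo k 1 * xo k 0) * po k a = 0
  rw [mul_assoc, mul_assoc, xo_comm 1 0, sub_self, zero_mul]

theorem N1_N2 (g : Fin 2 → Wo k) : N1 k (N2 k g) = 0 := by
  show (g 0 * xo k 1 - g 1 * xo k 0) * po k 1 * po k 0 -
    (g 0 * xo k 1 - g 1 * xo k 0) * po k 0 * po k 1 = 0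
  rw [mul_assoc, mul_assoc, po_comm 1 0, sub_self]

end gen

variable (k : Type) [Field k] [CharZero k]

omit [CharZero k] in
theorem n3_n2 : n3 k ≫ n2 k = 0 :=
  cmp_of _ _ _ _ (fun u => N2_N3 (exL k (-1) 2 u))

omit [CharZero k] in
theorem n2_n1 : n2 k ≫ n1 k = 0 :=
  cmp_of _ _ _ _ (fun u => by
    show reL k (-1) 2 (N1 k (N2 k (show Fin 2 → Wo k from u))) = 0
    rw [N1_N2, map_zero])

theorem Q_dd (i : ℕ) : dQQ k (i + 1) ≫ dQQ k i = 0 := by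
  match i with
  | 0 => exact n2_n1 k
  | 1 => exact n3_n2 k
  | 2 => exact Limits.zero_comp
  | i + 3 => exact Limits.zero_comp

theorem exS_zero {a b : ℤ} (u : (OS k ((0 : ℕ) : ℤ) a b).I → Wo k) :
    exS k ((0 : ℕ) : ℤ) a b u ∈ HH k (Wo k) 0 := exS_HH k u

theorem P2_zero (u : (P2 k ((0 : ℕ) : ℤ)).I → Wo k) : (exP2 k ((0 : ℕ) : ℤ) u).1 = 0 := by
  funext a
  exact HH_neg (m := ((0 : ℕ) : ℤ) - 1) (by norm_num) (exP2_HH k u a).1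

theorem P1_zero (u : (P1 k ((0 : ℕ) : ℤ)).I → Wo k) : (exP1 k ((0 : ℕ) : ℤ) u).1 = 0 := by
  funext a
  exact HH_neg (m := ((0 : ℕ) : ℤ) - 1) (by norm_num) (exP1_HH k u a).1

theorem P2_one (u : (P2 k ((0 : ℕ) : ℤ)).I → Wo k) (a : Fin 2) :
    (exP2 k ((0 : ℕ) : ℤ) u).2 a ∈ HH k (Wo k) 1 := HH_cst (exP2_HH k u a).2 (by norm_num)

theorem P1_one (u : (P1 k ((0 : ℕ) : ℤ)).I → Wo k) (a : Fin 2) :
    (exP1 k ((0 : ℕ) : ℤ) u).2 a ∈ HH k (Wo k) 1 := HH_cst (exP1_HH k u a).2 (by norm_num)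

/-- degrees 3, 2 -/
theorem bl2_wl3 (u : (OS k ((0 : ℕ) : ℤ) 0 0).I → Wo k) :
    bl2 k (wl3 k 0 u) = ql3 k (bl3 k u) := by
  have hr := exS_HH k (m := ((0 : ℕ) : ℤ)) (a := 0) (b := 0) u
  have hr' := exS_zero k u
  have e7 : exP2 k ((0 : ℕ) : ℤ) (wl3 k 0 u) = L3 k (exS k ((0 : ℕ) : ℤ) 0 0 u) :=
    exP2_reP2 k (fun a => (L3_HH k hr a).1) (fun a => (L3_HH k hr a).2)
  have h0 := g0_dl3b_one (S := primal k) hr'
  have h1 := g0_dl3b_zero (S := primal k) hr'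
  show B2 k (exP2 k ((0 : ℕ) : ℤ) (wl3 k 0 u)) = N3 k ((exS k ((0 : ℕ) : ℤ) 0 0 u) (0, 0))
  rw [e7]
  funext a
  fin_cases a
  · show -((primal k).g0 ((primal k).dl3b (exS k ((0 : ℕ) : ℤ) 0 0 u) 1) (0, 0)) =
      (exS k ((0 : ℕ) : ℤ) 0 0 u) (0, 0) * xo k 0
    exact DFunLike.congr_fun h0 (0, 0)
  · show ((primal k).g0 ((primal k).dl3b (exS k ((0 : ℕ) : ℤ) 0 0 u) 0) (0, 0)) =
      (exS k ((0 : ℕ) : ℤ) 0 0 u) (0, 0) * xo k 1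
    exact DFunLike.congr_fun h1 (0, 0)

/-- degrees 2, 1 -/
theorem bl1_wl2 (u : (P2 k ((0 : ℕ) : ℤ)).I → Wo k) :
    bl1 k (wl2 k 0 u) = ql2 k (bl2 k u) := by
  have h1 := fun a => (exP2_HH k (n := ((0 : ℕ) : ℤ)) u a).1
  have h2 := fun a => (exP2_HH k (n := ((0 : ℕ) : ℤ)) u a).2
  have e7 : exP1 k ((0 : ℕ) : ℤ) (wl2 k 0 u) = L2 k 0 (exP2 k ((0 : ℕ) : ℤ) u) :=
    exP1_reP1 k (fun a => (L2_HH k h1 h2 a).1) (fun a => (L2_HH k h1 h2 a).2)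
  show B1 k (exP1 k ((0 : ℕ) : ℤ) (wl2 k 0 u)) = N2 k (B2 k (exP2 k ((0 : ℕ) : ℤ) u))
  rw [e7]
  funext a
  show -((primal k).g0 ((primal k).dl2b 0 (exP2 k ((0 : ℕ) : ℤ) u).1
    (exP2 k ((0 : ℕ) : ℤ) u).2 a) (0, 0)) = _
  rw [P2_zero]
  exact DFunLike.congr_fun (g0_dl2b_zero (S := primal k) (P2_one k u) a) (0, 0)

/-- degrees 1, 0 -/
theorem bl0_wl1 (u : (P1 k ((0 : ℕ) : ℤ)).I → Wo k) :
    bl0 k (wl1 k 0 u) = ql1 k (bl1 k u) := by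
  have h1 := fun a => (exP1_HH k (n := ((0 : ℕ) : ℤ)) u a).1
  have h2 := fun a => (exP1_HH k (n := ((0 : ℕ) : ℤ)) u a).2
  have e7 : exS k ((0 : ℕ) : ℤ) 0 2 (wl1 k 0 u) = L1 k (exP1 k ((0 : ℕ) : ℤ) u) :=
    exS_reS k (L1_HH k h1 h2)
  have e8 : L1 k (exP1 k ((0 : ℕ) : ℤ) u) = (primal k).dl1 0 (exP1 k ((0 : ℕ) : ℤ) u).2 := by
    show (primal k).dl1 (exP1 k ((0 : ℕ) : ℤ) u).1 (exP1 k ((0 : ℕ) : ℤ) u).2 = _
    rw [P1_zero]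
  rw [dl1_zero (S := primal k) (P1_one k u)] at e8
  show reL k (-1) 2 ((exS k ((0 : ℕ) : ℤ) 0 2 (wl1 k 0 u)) (0, 0)) =
    reL k (-1) 2 (N1 k (B1 k (exP1 k ((0 : ℕ) : ℤ) u)))
  rw [e7, e8]
  congr 1
  show (primal k).g0 ((exP1 k ((0 : ℕ) : ℤ) u).2 0) (0, 0) * po k 1 -
      (primal k).g0 ((exP1 k ((0 : ℕ) : ℤ) u).2 1) (0, 0) * po k 0 =
    -((primal k).g0 ((exP1 k ((0 : ℕ) : ℤ) u).2 1) (0, 0)) * po k 0 -
      -((primal k).g0 ((exP1 k ((0 : ℕ) : ℤ) u).2 0) (0, 0)) * po k 1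
  exact neg_aux _ _ _ _

theorem m3_f2 : m3 k 0 ≫ f2 k = f3 k ≫ Phi.map (n3 k) :=
  sq_of _ _ _ _ _ _ _ _ (bl2_wl3 k)

theorem m2_f1 : m2 k 0 ≫ f1 k = f2 k ≫ Phi.map (n2 k) :=
  sq_of _ _ _ _ _ _ _ _ (bl1_wl2 k)

theorem m1_f0 : m1 k 0 ≫ f0 k = f1 k ≫ Phi.map (n1 k) :=
  sq_of _ _ _ _ _ _ _ _ (bl0_wl1 k)

theorem Q_dc (i : ℕ) : dPP k 0 i ≫ cQQ k i = cQQ k (i + 1) ≫ Phi.map (dQQ k i) := by
  match i with
  | 0 => exact m1_f0 k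
  | 1 => exact m2_f1 k
  | 2 => exact m3_f2 k
  | i + 3 => exact (Limits.zero_comp).trans (Limits.zero_comp).symm

end P195S

end
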