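import Vale.Agent.P195S.KP3
import Vale.Agent.P195S.QDD
import Vale.Agent.P195E.QQCat

/-!
# P195: `c_(-1)` on `H_0` of `Hom(T u, -)`
-/

noncomputable section

namespace P195S

open CategoryTheory P195A P195A.RS P195E P195E.FOb P195D

variable (k : Type) [Field k] [CharZero k]

omit [CharZero k] in
theorem n3_eq_qA : n3 k = qA k := by
  apply hom_ext_act
  intro u
  have h1 : act (n3 k).1 u = ql3 k u := act_mkHom _ _ u
  have h2 : act (qA k).1 u = qa k (u ()) := qA_act u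
  rw [h1, h2]
  rfl

omit [CharZero k] in
theorem n2_eq_qB : n2 k = qB k := by
  apply hom_ext_act
  intro u
  have h1 : act (n2 k).1 u = ql2 k u := act_mkHom _ _ u
  have h2 : act (qB k).1 u = qb k u := qB_act u
  rw [h1, h2]
  rfl

omit [CharZero k] in
theorem n1_eq_qC : n1 k = qC k := by
  apply hom_ext_act
  intro u
  have h1 : act (n1 k).1 u = ql1 k u := act_mkHom _ _ u
  have h2 : act (qC k).1 u = fun _ => -qc k u := qC_act u
  rw [h1, h2]
  funext i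
  exact (neg_sub _ _).symm

theorem QQ_hd (u : (KK k 0 0).I → Wo k) : (augL k).h (act (n1 k).1 u) = 0 := by
  have h1 : act (n1 k).1 u = ql1 k u := act_mkHom _ _ u
  rw [h1]
  show (u (1 : Fin 2) * po k 0 - u (0 : Fin 2) * po k 1 : Wo k) 1 = 0
  rw [LinearMap.sub_apply]
  have h2 : ∀ (S : Wo k) (a : Fin 2), (S * po k a) 1 = 0 := fun S a => (primal k).AD a S
  rw [h2, h2, sub_zero]

/-- the complex `QQ` is exact at line bundles -/
theorem LB_QQ : LB (QQo k) (dQQ k) (augL k) 0 where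
  dd := Q_dd k
  z := Q_zero k
  hd := QQ_hd k
  e3 a b _ := by
    show InjAt (n3 k) a b
    rw [n3_eq_qA]
    exact QQ_inj3 a b
  e2 a b _ := by
    show ExAt (n3 k) (n2 k) a b
    rw [n3_eq_qA, n2_eq_qB]
    exact QQ_ex2 a b
  e1 a b ha := by
    show ExAt (n2 k) (n1 k) a b
    rw [n2_eq_qB, n1_eq_qC]
    exact QQ_ex1 ha b
  e0 a b _ := by
    show ExAug (n1 k) (augL k) a b
    rw [n1_eq_qC]
    exact QQ_ex0 a b

omit [CharZero k] in
theorem HH_zero_single {v : Vy (Wo k)} (hv : v ∈ HH k (Wo k) 0) :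
    v = Finsupp.single (0, 0) (v (0, 0)) := by
  refine Finsupp.ext fun p => ?_
  by_cases hp : p = (0, 0)
  · rw [hp, Finsupp.single_eq_same]
  · rw [Finsupp.single_eq_of_ne hp]
    have h : (Finsupp.lapply p : Vy (Wo k) →ₗ[k] Wo k) v ∈ (⊥ : Submodule k (Wo k)) := by
      refine HH_map _ (fun i j u hij => ?_) hv
      have hi : i = 0 := by omega
      have hj : j = 0 := by omega
      subst hi hj
      rw [Submodule.mem_bot, Finsupp.lapply_apply, Finsupp.single_eq_of_ne hp]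
    exact (Submodule.mem_bot k).1 h

theorem act_f0 (u : (OS k (0 : ℕ) 0 2).I → Wo k) :
    act (F := Phi.obj (O k (-1) 2)) (f0 k).1 u = bl0 k u := by
  unfold f0
  apply act_mkHom

theorem augL_f0 (u : (OS k (0 : ℕ) 0 2).I → Wo k) :
    (augL k).tph.h (act (F := Phi.obj (O k (-1) 2)) (f0 k).1 u) =
      (1 : k) • (augS k 0).h u := by
  have h2 : bl0 k u () = exS k (0 : ℕ) 0 2 u (0, 0) := rfl
  have h3 : (primal k).ev (exS k (0 : ℕ) 0 2 u) = exS k (0 : ℕ) 0 2 u (0, 0) := by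
    have h5 : exS k (0 : ℕ) 0 2 u ∈ HH k (Wo k) 0 := exS_HH k u
    conv_lhs => rw [HH_zero_single k h5, ev_single, pow_zero, pow_zero,
      Module.End.one_apply, Module.End.one_apply]
  have h4 : (augL k).tph.h (bl0 k u) = (bl0 k u ()) 1 := rfl
  rw [act_f0, one_smul, augS_apply, h3, h4, h2]
  rfl

/-- image of the augmentation -/
theorem imLe_QQ {a b : ℤ} (ha : a ≤ 1) (hb : b ≤ 2) (hab : a + b ≤ 2) :
    ImLe (augS k 0) (augL k).tph a b := by
  intro u' hu'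
  have hu1 : u' ∈ (O k (-1) 2).filt (a - 1) (b - 1) := hu'
  have h1 := O_mem_iff.1 hu1
  obtain ⟨z, hz, h2⟩ := h0_surj (S := primal k) 0 (w := -a) (d := 2 - b) (by omega)
    (by omega) (by omega) (c := u' ()) (d' := 2 - (b - 1)) (by
      rwa [show (-1 : ℤ) - (a - 1) = -a + ((0 : ℕ) : ℤ) by push_cast; ring] at h1)
  have hz' := exS_reS k (a := 0) (b := 2) (VV_HH hz)
  refine ⟨reS k ((0 : ℕ) : ℤ) 0 2 z, ?_, ?_⟩
  · refine (mem_OS k).2 ?_
    rw [hz']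
    exact VV_cast hz (by ring) (by ring)
  · have e : (augS k 0).h (reS k ((0 : ℕ) : ℤ) 0 2 z) = (primal k).A ((primal k).ev z) := by
      rw [augS_apply, hz']
    exact e.trans h2

theorem Q_q5 (u : Fin 5) (x : TY k (some u) ⟶ PPo k 0 0)
    (z : TY k (some u) ⟶ Phi.obj (QQo k 1))
    (h : x ≫ cQQ k 0 = z ≫ Phi.map (dQQ k 0)) : ∃ t, x = t ≫ dPP k 0 0 := by
  match u, x, z, h with
  | 0, x, z, h =>
    exact (LB_PP k 0).inj_O (LB_QQ k).tw one_ne_zero (augL_f0 k)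
      (a := 0) (b := 0) (by norm_num) x z h
  | 1, x, z, h =>
    exact (LB_PP k 0).inj_O (LB_QQ k).tw one_ne_zero (augL_f0 k)
      (a := 0) (b := 1) (by norm_num) x z h
  | 2, x, z, h =>
    exact (LB_PP k 0).inj_FF (LB_QQ k).tw one_ne_zero (augL_f0 k)
      (a := 0) (b := 0) (by norm_num) (surjX_P2 k ((0 : ℕ) : ℤ) (by norm_num)) x z h
  | 3, x, z, h =>
    exact (LB_PP k 0).inj_KK (LB_QQ k).tw one_ne_zero (augL_f0 k)
      (a := 0) (b := 0) (by norm_num) (surjP_P2 k ((0 : ℕ) : ℤ) (by norm_num)) x z h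
  | 4, x, z, h =>
    exact (LB_PP k 0).inj_O (LB_QQ k).tw one_ne_zero (augL_f0 k)
      (a := 0) (b := 2) (by norm_num) x z h

theorem q6_O {b : ℤ} (hb : b ≤ 2) (x : O k 0 b ⟶ Phi.obj (O k (-1) 2)) :
    ∃ (y : O k 0 b ⟶ OS k (0 : ℕ) 0 2) (t : O k 0 b ⟶ Phi.obj (KK k 0 0)),
      x = y ≫ f0 k + t ≫ Phi.map (n1 k) :=
  surj0_O one_ne_zero (augL_f0 k) (imLe_QQ k (by norm_num) hb (by omega))
    ((LB_QQ k).tw.e0 0 b (by norm_num)) x

theorem q6_FF (x : FOb.FF k 0 0 ⟶ Phi.obj (O k (-1) 2)) :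
    ∃ (y : FOb.FF k 0 0 ⟶ OS k (0 : ℕ) 0 2) (t : FOb.FF k 0 0 ⟶ Phi.obj (KK k 0 0)),
      x = y ≫ f0 k + t ≫ Phi.map (n1 k) :=
  surj0_FF (f := m1 k 0) (e' := Phi.map (n2 k)) one_ne_zero (augL_f0 k)
    (PP_hd k 0)
    (imLe_QQ k (by norm_num) (by norm_num) (by norm_num))
    (imLe_QQ k (by norm_num) (by norm_num) (by norm_num))
    (PP_e0 k 0 _ _ (by norm_num)) (surjX_P1 k ((0 : ℕ) : ℤ))
    ((LB_QQ k).tw.dd 0)
    ((LB_QQ k).tw.e0 _ _ (by norm_num)) ((LB_QQ k).tw.e0 _ _ (by norm_num))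
    ((LB_QQ k).tw.e1 _ _ (by norm_num)) (surjX_Phi (surjX_FF (Or.inl (by norm_num)))) x

theorem q6_KK (x : KK k 0 0 ⟶ Phi.obj (O k (-1) 2)) :
    ∃ (y : KK k 0 0 ⟶ OS k (0 : ℕ) 0 2) (t : KK k 0 0 ⟶ Phi.obj (KK k 0 0)),
      x = y ≫ f0 k + t ≫ Phi.map (n1 k) :=
  surj0_KK (f := m1 k 0) (e' := Phi.map (n2 k)) one_ne_zero (augL_f0 k)
    (PP_hd k 0)
    (imLe_QQ k (by norm_num) (by norm_num) (by norm_num))
    (imLe_QQ k (by norm_num) (by norm_num) (by norm_num))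
    (PP_e0 k 0 _ _ (by norm_num)) (surjP_P1 k ((0 : ℕ) : ℤ))
    ((LB_QQ k).tw.dd 0)
    ((LB_QQ k).tw.e0 _ _ (by norm_num)) ((LB_QQ k).tw.e0 _ _ (by norm_num))
    ((LB_QQ k).tw.e1 _ _ (by norm_num))
    (surjP_Phi (surjP_FF (Or.inl (by norm_num)) (Or.inl (by norm_num)))) x

theorem Q_q6 (u : Fin 5) (x : TY k (some u) ⟶ Phi.obj (QQo k 0)) :
    ∃ (y : TY k (some u) ⟶ PPo k 0 0) (t : TY k (some u) ⟶ Phi.obj (QQo k 1)),
      x = y ≫ cQQ k 0 + t ≫ Phi.map (dQQ k 0) := by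
  match u, x with
  | 0, x => exact q6_O k (by norm_num) x
  | 1, x => exact q6_O k (by norm_num) x
  | 2, x => exact q6_FF k x
  | 3, x => exact q6_KK k x
  | 4, x => exact q6_O k (by norm_num) x

end P195S

end
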