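import Vale.Agent.P195S.Q1

/-!
# P195: `Hom(QQ, T v)`
-/

noncomputable section

namespace P195S

open CategoryTheory P195A P195A.RS P195E P195E.FOb P195D

variable (k : Type) [Field k] [CharZero k]

theorem Q_q7 (v : Option (Fin 5)) (x : QQo k 0 ⟶ TY k v) (h : dQQ k 0 ≫ x = 0) : x = 0 := by
  change n1 k ≫ x = 0 at h
  rw [n1_eq] at h
  exact QQ_q7 (isY_TY k v) x h

theorem Q_q7' (v : Option (Fin 5)) (i : ℕ) (x : QQo k (i + 1) ⟶ TY k v) (hi : i + 1 < 3)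
    (h : dQQ k (i + 1) ≫ x = 0) : ∃ y, dQQ k i ≫ y = x := by
  match i, x, hi, h with
  | 0, x, _, h =>
    change n2 k ≫ x = 0 at h
    rw [n2_eq] at h
    show ∃ y : LL k ⟶ TY k v, n1 k ≫ y = x
    rw [n1_eq]
    exact QQt1 (isY_TY k v) x h
  | 1, x, _, h =>
    change n3 k ≫ x = 0 at h
    rw [n3_eq] at h
    show ∃ y : KK k 0 0 ⟶ TY k v, n2 k ≫ y = x
    rw [n2_eq]
    exact QQt2 (isY_TY k v) x h
  | _ + 2, _, hi, _ => exact absurd hi (by omega)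

theorem Q_q8 (u : Fin 5) (x : QQo k 3 ⟶ TY k (some u)) : ∃ t, x = dQQ k 2 ≫ t := by
  show ∃ t : FOb.FF k 0 0 ⟶ TY k (some u), x = n3 k ≫ t
  rw [n3_eq]
  exact QQ_q8 (isX_TY k u) x

end P195S

end
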