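import Vale.Agent.P195E.QQMor
import Vale.Agent.P195A.FactL

/-!
# P195: degree 3 of `c_(-1)`: the two facts on filtrations

`st3_q10`: every element of `filt (-1) (-1)` is the sum of an element of `filt (-1) 2` and of
left multiples `x_i ∂_a z` with `z ∈ filt (-1) 0`.
`st3_q9`: an element of `filt (-1) 2` of the form `x_0 p + x_1 q` is of the form `x_0 s + x_1 t` with
`s, t ∈ filt 0 1`.
-/

namespace P195E

open CategoryTheory P195A

variable {k : Type} [Field k]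

namespace FOb

private theorem st3_id0 (u : Wo k) :
    xo k 0 * u = xo k 0 * (po k 1 * (xo k 1 * u)) - xo k 1 * (po k 1 * (xo k 0 * u)) := by
  have h1 : po k 1 * (xo k 1 * u) = xo k 1 * (po k 1 * u) + u := by
    rw [← mul_assoc, po_mul_xo, if_pos rfl, add_mul, one_mul, mul_assoc]
  have h2 : po k 1 * (xo k 0 * u) = xo k 0 * (po k 1 * u) := by
    rw [← mul_assoc, po_mul_xo, if_neg (by decide), add_zero, mul_assoc]
  rw [h1, h2, mul_add, ← mul_assoc (xo k 0) (xo k 1), ← mul_assoc (xo k 1) (xo k 0),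
    xo_comm 0 1, add_sub_cancel_left]

private theorem st3_id1 (u : Wo k) :
    xo k 1 * u = xo k 1 * (po k 0 * (xo k 0 * u)) - xo k 0 * (po k 0 * (xo k 1 * u)) := by
  have h1 : po k 0 * (xo k 0 * u) = xo k 0 * (po k 0 * u) + u := by
    rw [← mul_assoc, po_mul_xo, if_pos rfl, add_mul, one_mul, mul_assoc]
  have h2 : po k 0 * (xo k 1 * u) = xo k 1 * (po k 0 * u) := by
    rw [← mul_assoc, po_mul_xo, if_neg (by decide), add_zero, mul_assoc]
  rw [h1, h2, mul_add, ← mul_assoc (xo k 0) (xo k 1), ← mul_assoc (xo k 1) (xo k 0),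
    xo_comm 0 1, add_sub_cancel_left]

private theorem st3_sup (z : Fin 2 → Fin 2 → Wo k) (u : Fin 2 → Wo k) :
    xo k 0 * (po k 0 * z 0 0 + po k 1 * z 0 1 + u 0) +
      xo k 1 * (po k 0 * z 1 0 + po k 1 * z 1 1 + u 1) =
    xo k 0 * (po k 0 * (z 0 0 - xo k 1 * u 1) + po k 1 * (z 0 1 + xo k 1 * u 0)) +
      xo k 1 * (po k 0 * (z 1 0 + xo k 0 * u 1) + po k 1 * (z 1 1 - xo k 0 * u 0)) := by
  have h0 := st3_id0 (u 0)
  have h1 := st3_id1 (u 1)
  simp only [mul_add, mul_sub]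
  conv_lhs => rw [h0, h1]
  abel

/-- splitting by left multiples of `x_0, x_1` in weights `≥ 1`, no remainder -/
private theorem st3_x {w : ℤ} (hw : 0 ≤ w) (n : ℕ) {T : Wo k} (hT : T ∈ Dg k (w + 1) ((n : ℤ) - 1)) :
    ∃ a : Fin 2 → Wo k, (∀ i, a i ∈ Dg k w ((n : ℤ) - 1)) ∧ T = xo k 0 * a 0 + xo k 1 * a 1 := by
  induction n generalizing T with
  | zero =>
    have h0 : Dg k (w + 1) (((0 : ℕ) : ℤ) - 1) = ⊥ := Dg_eq_bot (Or.inl (by norm_num))
    rw [h0, Submodule.mem_bot] at hT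
    exact ⟨0, fun _ => Submodule.zero_mem _, by rw [hT]; simp⟩
  | succ n ih =>
    obtain ⟨a, c, hc, ha, hTe⟩ := surj_x (by push_cast; omega) hT
    obtain ⟨b, hb, hce⟩ := ih (T := c) (Dg_cast hc rfl (by push_cast; ring))
    refine ⟨fun i => a i + b i, fun i => Submodule.add_mem _ (ha i)
      (Dg_mono (by push_cast; omega) (hb i)), ?_⟩
    rw [hTe, hce, mul_add, mul_add]
    abel

private theorem st3_xw {w d : ℤ} (hw : 0 ≤ w) {T : Wo k} (hT : T ∈ Dg k (w + 1) d) :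
    ∃ a : Fin 2 → Wo k, (∀ i, a i ∈ Dg k w d) ∧ T = xo k 0 * a 0 + xo k 1 * a 1 := by
  by_cases hd : d < 0
  · have h0 : Dg k (w + 1) d = ⊥ := Dg_eq_bot (Or.inl hd)
    rw [h0, Submodule.mem_bot] at hT
    exact ⟨0, fun _ => Submodule.zero_mem _, by rw [hT]; simp⟩
  · obtain ⟨n, hn⟩ : ∃ n : ℕ, (n : ℤ) - 1 = d := ⟨(d + 1).toNat, by omega⟩
    subst hn
    exact st3_x hw n hT

/-- splitting in weight `0`, remainder a constant -/
private theorem st3_0 (n : ℕ) {T : Wo k} (hT : T ∈ Dg k 0 (n : ℤ)) :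
    ∃ a : Fin 2 → Wo k, ∃ c ∈ Dg k 0 0, (∀ i, a i ∈ Dg k (-1) (n : ℤ)) ∧
      T = xo k 0 * a 0 + xo k 1 * a 1 + c := by
  induction n generalizing T with
  | zero => exact ⟨0, T, Dg_cast hT rfl (by norm_num), fun _ => Submodule.zero_mem _, by simp⟩
  | succ n ih =>
    obtain ⟨a, c, hc, ha, hTe⟩ := surj_x (k := k) (w := -1) (d := ((n + 1 : ℕ) : ℤ))
      (by push_cast; omega) (Dg_cast hT (by norm_num) rfl)
    obtain ⟨b, c', hc', hb, hce⟩ := ih (T := c) (Dg_cast hc (by norm_num) (by push_cast; ring))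
    refine ⟨fun i => a i + b i, c', hc', fun i => Submodule.add_mem _ (ha i)
      (Dg_mono (by push_cast; omega) (hb i)), ?_⟩
    rw [hTe, hce, mul_add, mul_add]
    abel

/-- the splitting of `Dg (w+1) (d+1)`, `w ≥ -1`, `d ≥ 0` -/
private theorem st3_split {w d : ℤ} (hd : 0 ≤ d) (hw : 0 ≤ w ∨ (w = -1 ∧ d = 2)) {T : Wo k}
    (hT : T ∈ Dg k (w + 1) (d + 1)) :
    ∃ c ∈ Dg k (w + 1) (d - 2), ∃ z : Fin 2 → Fin 2 → Wo k, (∀ i a, z i a ∈ Dg k (w + 1) d) ∧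
      T = c + (xo k 0 * (po k 0 * z 0 0 + po k 1 * z 0 1) +
        xo k 1 * (po k 0 * z 1 0 + po k 1 * z 1 1)) := by
  obtain ⟨a, c, hc, ha, hTe⟩ := surj_x (k := k) (w := w) (d := d + 1) (by omega) hT
  rw [add_sub_cancel_right] at hc
  have h1 : ∀ i, ∃ z : Fin 2 → Wo k, ∃ e ∈ Dg k w d, (∀ j, z j ∈ Dg k (w + 1) d) ∧
      a i = po k 0 * z 0 + po k 1 * z 1 + e := by
    intro i
    obtain ⟨z, e, he, hz, h⟩ := surj_p (k := k) (w := w + 1) (d := d) (by omega)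
      (T := a i) (Dg_cast (ha i) (by ring) rfl)
    exact ⟨z, e, Dg_cast he (by ring) rfl, hz, h⟩
  choose z e he hz hae using h1
  have h2 : ∃ b : Fin 2 → Wo k, ∃ c' ∈ Dg k (w + 1) (d - 2), (∀ i, b i ∈ Dg k w d) ∧
      c = xo k 0 * b 0 + xo k 1 * b 1 + c' := by
    rcases hw with hw | ⟨hw, hd2⟩
    · obtain ⟨b, hb, h⟩ := st3_xw hw hc
      exact ⟨b, 0, Submodule.zero_mem _, hb, by rw [add_zero]; exact h⟩
    · subst hw
      subst hd2
      obtain ⟨b, c', hc', hb, h⟩ := st3_0 (k := k) 2 (T := c) (Dg_cast hc (by norm_num) (by norm_num))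
      exact ⟨b, c', Dg_cast hc' (by norm_num) (by norm_num),
        fun i => Dg_cast (hb i) rfl (by norm_num), h⟩
  obtain ⟨b, c', hc', hb, hce⟩ := h2
  have hu : ∀ i, b i + e i ∈ Dg k w d := fun i => Submodule.add_mem _ (hb i) (he i)
  have hxu : ∀ i j, xo k i * (b j + e j) ∈ Dg k (w + 1) d := fun i j => xo_mul_mem_Dg i (hu j)
  refine ⟨c', hc', ![![z 0 0 - xo k 1 * (b 1 + e 1), z 0 1 + xo k 1 * (b 0 + e 0)],
    ![z 1 0 + xo k 0 * (b 1 + e 1), z 1 1 - xo k 0 * (b 0 + e 0)]], ?_, ?_⟩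
  · intro i a
    fin_cases i <;> fin_cases a
    · exact Submodule.sub_mem _ (hz 0 0) (hxu 1 1)
    · exact Submodule.add_mem _ (hz 0 1) (hxu 1 0)
    · exact Submodule.add_mem _ (hz 1 0) (hxu 0 1)
    · exact Submodule.sub_mem _ (hz 1 1) (hxu 0 0)
  · have h3 := st3_sup z (fun i => b i + e i)
    simp only [Matrix.cons_val_zero, Matrix.cons_val_one]
    rw [← h3, hTe, hae 0, hae 1, hce]
    simp only [mul_add]
    abel

/-- admissible generator degrees -/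
theorem st3_q10_gen {I J : Type} [Fintype I] [DecidableEq I] [Fintype J]
    {dw dd : J → ℤ} {g : J → I → Wo k}
    (hj : ∀ j, 0 ≤ dd j ∧ (0 ≤ dw j ∨ (dw j = -1 ∧ dd j = 2)))
    {m : I → Wo k} (hm : m ∈ (gen k I J dw dd g).filt (-1) (-1)) :
    ∃ y ∈ (gen k I J dw dd g).filt (-1) 2, ∃ z : Fin 2 → Fin 2 → I → Wo k,
      (∀ i a, z i a ∈ (gen k I J dw dd g).filt (-1) 0) ∧
      ∀ l, m l = y l + (xo k 0 * (po k 0 * z 0 0 l + po k 1 * z 0 1 l) +
        xo k 1 * (po k 0 * z 1 0 l + po k 1 * z 1 1 l)) := by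
  obtain ⟨c, hc, rfl⟩ := hm
  have h1 : ∀ j, ∃ e ∈ Dg k (dw j + 1) (dd j - 2), ∃ z : Fin 2 → Fin 2 → Wo k,
      (∀ i a, z i a ∈ Dg k (dw j + 1) (dd j)) ∧
      c j = e + (xo k 0 * (po k 0 * z 0 0 + po k 1 * z 0 1) +
        xo k 1 * (po k 0 * z 1 0 + po k 1 * z 1 1)) := fun j =>
    st3_split (hj j).1 (hj j).2 (Dg_cast (hc j) (by ring) (by ring))
  choose e he z hz hce using h1
  refine ⟨fun i => ∑ j, e j * g j i, ⟨e, fun j => Dg_cast (he j) (by ring) (by ring), rfl⟩,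
    fun s a i => ∑ j, z j s a * g j i, fun s a => ⟨fun j => z j s a, fun j =>
      Dg_cast (hz j s a) (by ring) (by ring), rfl⟩, ?_⟩
  intro l
  simp only [Finset.mul_sum, ← Finset.sum_add_distrib]
  refine Finset.sum_congr rfl fun j _ => ?_
  rw [hce j]
  simp only [add_mul, mul_add, mul_assoc]

/-- generators in weights `≥ 0` -/
theorem st3_q9_gen {I J : Type} [Fintype I] [DecidableEq I] [Fintype J]
    {dw dd : J → ℤ} {g : J → I → Wo k} (hj : ∀ j, 0 ≤ dw j)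
    {m : I → Wo k} (hm : m ∈ (gen k I J dw dd g).filt (-1) 2) :
    ∃ s ∈ (gen k I J dw dd g).filt 0 1, ∃ t ∈ (gen k I J dw dd g).filt 0 1,
      ∀ l, m l = xo k 0 * s l + xo k 1 * t l := by
  obtain ⟨c, hc, rfl⟩ := hm
  have h1 : ∀ j, ∃ a : Fin 2 → Wo k, (∀ i, a i ∈ Dg k (dw j) (dd j - 2)) ∧
      c j = xo k 0 * a 0 + xo k 1 * a 1 := fun j =>
    st3_xw (hj j) (Dg_cast (hc j) (by ring) (by ring))
  choose a ha hce using h1
  have h2 : ∀ s : Fin 2, (fun i => ∑ j, a j s * g j i) ∈ (gen k I J dw dd g).filt 0 1 := fun s =>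
    ⟨fun j => a j s, fun j => Dg_cast (Dg_mono (by omega : dd j - 2 ≤ dd j - 1) (ha j s))
      (by ring) rfl, rfl⟩
  refine ⟨_, h2 0, _, h2 1, fun l => ?_⟩
  simp only [Finset.mul_sum, ← Finset.sum_add_distrib]
  refine Finset.sum_congr rfl fun j _ => ?_
  rw [hce j]
  simp only [add_mul, mul_assoc]

theorem st3_q9_LL {m : Unit → Wo k} (hm : m ∈ (LL k).filt (-1) 2) {p q : Wo k}
    (h : m () = xo k 0 * p + xo k 1 * q) : m = 0 := by
  have h1 := O_mem_iff.1 hm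
  obtain ⟨c, hc⟩ := mem_Dg_zero (k := k) (Dg_cast h1 (by norm_num) (by norm_num))
  have h2 : evz (m ()) = 0 := by
    rw [h, map_add, evz_xo, evz_xo, add_zero]
  have h3 : c = 0 := by
    have h4 := LinearMap.congr_fun h2 1
    rw [evz_apply, hc] at h4
    simpa using h4
  funext i
  rw [hc, h3, zero_smul]
  rfl

theorem st3_q9_FF {m : Fin 2 → Wo k} (hm : m ∈ (FF k 0 0).filt (-1) 2) :
    ∃ s ∈ (FF k 0 0).filt 0 1, ∃ t ∈ (FF k 0 0).filt 0 1,
      ∀ l, m l = xo k 0 * s l + xo k 1 * t l := by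
  obtain ⟨A, B, C, hA, hB, hC, h0, h1⟩ := FF_mem_iff.1 hm
  have hA0 : A = 0 := by
    rw [Dg_eq_bot (Or.inl (by norm_num)), Submodule.mem_bot] at hA
    exact hA
  have hB0 : B = 0 := by
    rw [Dg_eq_bot (Or.inl (by norm_num)), Submodule.mem_bot] at hB
    exact hB
  obtain ⟨c, hc⟩ := mem_Dg_zero (k := k) (Dg_cast hC (by norm_num) (by norm_num))
  have hone : (c • 1 : Wo k) ∈ Dg k (0 - 0) (0 + 1 - 1) :=
    Dg_cast (Submodule.smul_mem _ c one_mem_Dg) (by norm_num) (by norm_num)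
  refine ⟨![c • 1, 0], FF_mem_iff.2 ⟨c • 1, 0, 0, hone, Submodule.zero_mem _,
    Submodule.zero_mem _, by simp, by simp⟩, ![0, c • 1], FF_mem_iff.2 ⟨0, c • 1, 0,
    Submodule.zero_mem _, hone, Submodule.zero_mem _, by simp, by simp⟩, ?_⟩
  intro l
  fin_cases l
  · show m 0 = xo k 0 * (c • 1) + xo k 1 * 0
    rw [h0, hA0, hc]
    simp
  · show m 1 = xo k 0 * 0 + xo k 1 * (c • 1)
    rw [h1, hB0, hc]
    simp

end FOb

end P195E
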