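import Vale.Agent.P195S.Model
import Vale.Agent.P195S.St3

/-!
# P195: `c_(-1)` on `H^3` of `Hom(-, T v)`
-/

noncomputable section

namespace P195S

open CategoryTheory P195A P195A.RS P195E P195E.FOb P195D

variable (k : Type) [Field k] [CharZero k]

/-- the index of `PP(0)_3` -/
private def st3_i : (OS k ((0 : ℕ) : ℤ) 0 0).I := ((⟨(0, 0), by norm_num⟩ : Ix ((0 : ℕ) : ℤ)), ())

omit [CharZero k] in
private theorem st3_i_eq (i : (OS k ((0 : ℕ) : ℤ) 0 0).I) : i = st3_i k := by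
  obtain ⟨⟨⟨p, q⟩, h⟩, u⟩ := i
  push_cast at h
  have hp : p = 0 := by omega
  have hq : q = 0 := by omega
  subst hp
  subst hq
  rfl

omit [CharZero k] in
private theorem st3_ex : exS k ((0 : ℕ) : ℤ) 0 0 (Pi.single (st3_i k) 1) =
    Finsupp.single (0, 0) 1 := by
  show ex ((0 : ℕ) : ℤ) (fun i => (Pi.single (st3_i k) 1 : (OS k ((0 : ℕ) : ℤ) 0 0).I → Wo k) (i, ()))
    = _
  unfold ex
  rw [LinearMap.sum_apply]
  refine (Finset.sum_eq_single (⟨(0, 0), by norm_num⟩ : Ix ((0 : ℕ) : ℤ)) ?_ ?_).trans ?_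
  · intro b _ hb
    exfalso
    apply hb
    have h := st3_i_eq k (b, ())
    exact congrArg Prod.fst h
  · intro h
    exact absurd (Finset.mem_univ (α := Ix ((0 : ℕ) : ℤ)) _) h
  · show Finsupp.single (0, 0)
      ((Pi.single (st3_i k) 1 : (OS k ((0 : ℕ) : ℤ) 0 0).I → Wo k) (st3_i k)) = _
    rw [Pi.single_eq_same]

/-- the exponents `(0,1)`, `(1,0)` -/
private def st3_e (s : Fin 2) : Ix (((0 : ℕ) : ℤ) + 1) :=
  (![⟨(0, 1), by norm_num⟩, ⟨(1, 0), by norm_num⟩] : Fin 2 → Ix (((0 : ℕ) : ℤ) + 1)) s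

/-- the indices of `PP(0)_2` -/
private def st3_j (s : Fin 2) (a : Fin 2) : (P2 k ((0 : ℕ) : ℤ)).I :=
  Sum.inr ((st3_e s, a), ())

omit [CharZero k] in
private theorem st3_sum {M : Type} [AddCommMonoid M] (f : (P2 k ((0 : ℕ) : ℤ)).I → M) :
    ∑ j, f j = ∑ s, ∑ a, f (st3_j k s a) := by
  have e1 : ∑ j, f j = ∑ j : (Ix (((0 : ℕ) : ℤ) - 1) × Fin 2) × Unit, f (Sum.inl j) +
      ∑ j : (Ix (((0 : ℕ) : ℤ) + 1) × Fin 2) × Unit, f (Sum.inr j) := Fintype.sum_sum_type f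
  rw [e1]
  have e2 : ∑ j : (Ix (((0 : ℕ) : ℤ) - 1) × Fin 2) × Unit, f (Sum.inl j) = 0 := by
    refine Finset.sum_eq_zero fun x _ => ?_
    exfalso
    have h := x.1.1.2
    push_cast at h
    omega
  rw [e2, zero_add]
  have e3 : ∑ j : (Ix (((0 : ℕ) : ℤ) + 1) × Fin 2) × Unit, f (Sum.inr j) =
      ∑ x : Ix (((0 : ℕ) : ℤ) + 1) × Fin 2, f (Sum.inr (x, ())) :=
    (Fintype.sum_prod_type _).trans (Finset.sum_congr rfl fun x _ => Fintype.sum_unique _)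
  have e4 : ∑ x : Ix (((0 : ℕ) : ℤ) + 1) × Fin 2, f (Sum.inr (x, ())) =
      ∑ i : Ix (((0 : ℕ) : ℤ) + 1), ∑ a : Fin 2, f (Sum.inr ((i, a), ())) :=
    Fintype.sum_prod_type _
  rw [e3, e4, Fin.sum_univ_two]
  refine (Fintype.sum_eq_add (st3_e 0) (st3_e 1) ?_ ?_)
  · intro h
    have h1 := congrArg (fun x : Ix (((0 : ℕ) : ℤ) + 1) => x.1.1) h
    exact absurd h1 (by decide)
  · intro x hx
    exfalso
    obtain ⟨⟨p, q⟩, h⟩ := x
    push_cast at h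
    have h2 : (p = 0 ∧ q = 1) ∨ (p = 1 ∧ q = 0) := by omega
    rcases h2 with ⟨rfl, rfl⟩ | ⟨rfl, rfl⟩
    · exact hx.1 rfl
    · exact hx.2 rfl

omit [CharZero k] in
private theorem st3_al [CharZero k] : (primal k).al (Finsupp.single (0, 0) 1) =
    Finsupp.single (0, 1) (xo k 0) - Finsupp.single (1, 0) (xo k 1) := by
  rw [al_apply, y0_single, y1_single, lf_single, lf_single]
  simp

private theorem st3_row (s a : Fin 2) :
    (m3 k 0).1 (st3_i k) (st3_j k s a) = (![-(xo k 0 * po k a), xo k 1 * po k a] : Fin 2 → Wo k) s := by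
  show wl3 k 0 (Pi.single (st3_i k) 1) (st3_j k s a) = _
  unfold wl3
  rw [LinearMap.comp_apply, LinearMap.comp_apply, st3_ex]
  show (lf ((primal k).D a) (-(primal k).al (Finsupp.single (0, 0) 1))) (st3_e s).1 = _
  rw [st3_al, map_neg, map_sub, lf_single, lf_single]
  fin_cases s
  · show (-(Finsupp.single (0, 1) (xo k 0 * po k a) - Finsupp.single (1, 0) (xo k 1 * po k a)) : Vy (Wo k)) (0, 1) = _
    simp
  · show (-(Finsupp.single (0, 1) (xo k 0 * po k a) - Finsupp.single (1, 0) (xo k 1 * po k a)) : Vy (Wo k)) (1, 0) = _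
    simp

/-- composition with `del_3` of `PP(0)` -/
private theorem st3_comp {E : FOb k} (z : P2 k ((0 : ℕ) : ℤ) ⟶ E) (l : E.I) :
    (m3 k 0 ≫ z).1 (st3_i k) l =
      xo k 0 * (-(po k 0 * z.1 (st3_j k 0 0) l + po k 1 * z.1 (st3_j k 0 1) l)) +
      xo k 1 * (po k 0 * z.1 (st3_j k 1 0) l + po k 1 * z.1 (st3_j k 1 1) l) := by
  show ∑ j, (m3 k 0).1 (st3_i k) j * z.1 j l = _
  rw [st3_sum, Fin.sum_univ_two, Fin.sum_univ_two, Fin.sum_univ_two]
  rw [st3_row, st3_row, st3_row, st3_row]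
  simp only [Matrix.cons_val_zero, Matrix.cons_val_one]
  have h : ∀ z₀ z₁ z₂ z₃ : Wo k, -(xo k 0 * po k 0) * z₀ + -(xo k 0 * po k 1) * z₁ +
      (xo k 1 * po k 0 * z₂ + xo k 1 * po k 1 * z₃) =
      xo k 0 * -(po k 0 * z₀ + po k 1 * z₁) + xo k 1 * (po k 0 * z₂ + po k 1 * z₃) := by
    intro z₀ z₁ z₂ z₃
    rw [wo_mul_neg, wo_neg_mul, wo_neg_mul, mul_add, mul_add, mul_assoc, mul_assoc, mul_assoc,
      mul_assoc, neg_add]
  exact h _ _ _ _

omit [CharZero k] in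
/-- the six objects: filtration in degree `(-1,-1)` -/
private theorem st3_all (v : Option (Fin 5)) {m : (TY k v).I → Wo k}
    (hm : m ∈ (TY k v).filt (-1) (-1)) :
    ∃ y ∈ (TY k v).filt (-1) 2, ∃ z : Fin 2 → Fin 2 → (TY k v).I → Wo k,
      (∀ i a, z i a ∈ (TY k v).filt (-1) 0) ∧
      ∀ l, m l = y l + (xo k 0 * (po k 0 * z 0 0 l + po k 1 * z 0 1 l) +
        xo k 1 * (po k 0 * z 1 0 l + po k 1 * z 1 1 l)) := by
  rcases v with _ | v
  · exact st3_q10_gen (k := k) (I := Unit) (J := Unit) (dw := fun _ => -1) (dd := fun _ => 2)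
      (fun _ => by norm_num) hm
  · fin_cases v
    · exact st3_q10_gen (k := k) (I := Unit) (J := Unit) (dw := fun _ => 0) (dd := fun _ => 0)
        (fun _ => by norm_num) hm
    · exact st3_q10_gen (k := k) (I := Unit) (J := Unit) (dw := fun _ => 0) (dd := fun _ => 1)
        (fun _ => by norm_num) hm
    · refine st3_q10_gen (k := k) (I := Fin 2) (J := Fin 3) ?_ hm
      intro j
      fin_cases j <;> simp
    · refine st3_q10_gen (k := k) (I := Fin 2) (J := Fin 3) ?_ hm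
      intro j
      fin_cases j <;> simp
    · exact st3_q10_gen (k := k) (I := Unit) (J := Unit) (dw := fun _ => 0) (dd := fun _ => 2)
        (fun _ => by norm_num) hm

omit [CharZero k] in
/-- the six objects: degree `(-1,2)` -/
private theorem st3_all9 (v : Option (Fin 5)) {m : (TY k v).I → Wo k}
    (hm : m ∈ (TY k v).filt (-1) 2) (p q : (TY k v).I → Wo k)
    (h : ∀ l, m l = xo k 0 * p l + xo k 1 * q l) :
    ∃ s ∈ (TY k v).filt 0 1, ∃ t ∈ (TY k v).filt 0 1, ∀ l, m l = xo k 0 * s l + xo k 1 * t l := by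
  rcases v with _ | v
  · have h0 : m = 0 := st3_q9_LL hm (h ())
    refine ⟨0, Submodule.zero_mem _, 0, Submodule.zero_mem _, fun l => ?_⟩
    rw [h0]
    show (0 : Wo k) = xo k 0 * 0 + xo k 1 * 0
    simp
  · fin_cases v
    · exact st3_q9_gen (k := k) (I := Unit) (J := Unit) (dw := fun _ => 0) (dd := fun _ => 0)
        (fun _ => le_refl _) hm
    · exact st3_q9_gen (k := k) (I := Unit) (J := Unit) (dw := fun _ => 0) (dd := fun _ => 1)
        (fun _ => le_refl _) hm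
    · exact st3_q9_FF hm
    · refine st3_q9_gen (k := k) (I := Fin 2) (J := Fin 3) ?_ hm
      intro j
      fin_cases j <;> simp
    · exact st3_q9_gen (k := k) (I := Unit) (J := Unit) (dw := fun _ => 0) (dd := fun _ => 2)
        (fun _ => le_refl _) hm

private theorem st3_f3 (j : Unit) : (f3 k).1 (st3_i k) j = 1 := by
  have h : (f3 k).1 (st3_i k) j = (exS k ((0 : ℕ) : ℤ) 0 0 (Pi.single (st3_i k) 1)) (0, 0) := rfl
  rw [h, st3_ex, Finsupp.single_eq_same]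

private theorem st3_fcomp {E : FOb k} (x : O k (-1) 2 ⟶ E) (l : E.I) :
    (f3 k ≫ Phi.map x).1 (st3_i k) l = x.1 () l := by
  show ∑ j : Unit, (f3 k).1 (st3_i k) j * x.1 j l = _
  rw [Fintype.sum_unique]
  show (f3 k).1 (st3_i k) () * x.1 () l = _
  rw [st3_f3, one_mul]

omit [CharZero k] in
private theorem st3_n3 (j : Fin 2) : (n3 k).1 () j = xo k j := by
  have h : (n3 k).1 () j = (1 : Wo k) * xo k j := by
    show (Pi.single () 1 : Unit → Wo k) () * xo k j = _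
    rw [Pi.single_eq_same]
  rw [h, one_mul]

omit [CharZero k] in
private theorem st3_ncomp {E : FOb k} (x : FOb.FF k 0 0 ⟶ E) (l : E.I) :
    (n3 k ≫ x).1 () l = xo k 0 * x.1 (0 : Fin 2) l + xo k 1 * x.1 (1 : Fin 2) l := by
  show ∑ j : Fin 2, (n3 k).1 () j * x.1 j l = _
  rw [Fin.sum_univ_two, st3_n3, st3_n3]

private theorem st3_q9' {E : FOb k}
    (hE : ∀ (m p q : E.I → Wo k), m ∈ E.filt (-1) 2 → (∀ l, m l = xo k 0 * p l + xo k 1 * q l) →
      ∃ s ∈ E.filt 0 1, ∃ t ∈ E.filt 0 1, ∀ l, m l = xo k 0 * s l + xo k 1 * t l)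
    (x : O k (-1) 2 ⟶ E) (z : P2 k ((0 : ℕ) : ℤ) ⟶ Phi.obj E)
    (h : f3 k ≫ Phi.map x = m3 k 0 ≫ z) : ∃ t, x = n3 k ≫ t := by
  obtain ⟨s, hs, t, ht, hst⟩ := hE (x.1 ())
    (fun l => -(po k 0 * z.1 (st3_j k 0 0) l + po k 1 * z.1 (st3_j k 0 1) l))
    (fun l => po k 0 * z.1 (st3_j k 1 0) l + po k 1 * z.1 (st3_j k 1 1) l) (O_hom_mem x) (by
      intro l
      have h1 : (f3 k ≫ Phi.map x).1 (st3_i k) l = (m3 k 0 ≫ z).1 (st3_i k) l := by rw [h]
      exact ((st3_fcomp k x l).symm.trans h1).trans (st3_comp k z l))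
  have e : (fun l => xo k 0 * s l + xo k 1 * t l) = x.1 () := by
    funext l
    exact (hst l).symm
  have hw : (fun l => xo k 0 * s l + xo k 1 * t l) ∈ E.filt (0 - 1) (0 + 2) := by
    rw [e]
    exact O_hom_mem x
  refine ⟨ofF s t hs ht hw, ?_⟩
  apply O_hom_ext
  funext l
  exact (hst l).trans (st3_ncomp k (ofF s t hs ht hw) l).symm

theorem Q_q9 (v : Option (Fin 5)) (x : QQo k 3 ⟶ TY k v)
    (z : PPo k 0 2 ⟶ Phi.obj (TY k v))
    (h : cQQ k 3 ≫ Phi.map x = dPP k 0 2 ≫ z) : ∃ t, x = dQQ k 2 ≫ t :=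
  st3_q9' k (fun _ p q hm h => st3_all9 k v hm p q h) x z h

/-- morphisms out of `PP(0)_2` -/
private def st3_t {E : FOb k} (Z : Ix (((0 : ℕ) : ℤ) + 1) × Fin 2 → E.I → Wo k)
    (hZ : ∀ s, Z s ∈ E.filt 0 1) : P2 k ((0 : ℕ) : ℤ) ⟶ E :=
  ⟨fun j => Sum.elim (fun _ => 0) (fun s => Z s.1) j, fun a b u hu => by
    have h2 : ∀ s, u (Sum.inr (s, ())) ∈ Dg k (0 - a) (1 - b) := fun s => O_mem_iff.1 (hu.2 s)
    have e : act (E := P2 k ((0 : ℕ) : ℤ)) (F := E)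
        (fun j => Sum.elim (fun _ => 0) (fun s => Z s.1) j) u =
        ∑ s : Ix (((0 : ℕ) : ℤ) + 1) × Fin 2, fun l => u (Sum.inr (s, ())) * Z s l := by
      funext l
      rw [Finset.sum_apply]
      have e1 : act (E := P2 k ((0 : ℕ) : ℤ)) (F := E)
          (fun j => Sum.elim (fun _ => 0) (fun s => Z s.1) j) u l =
          ∑ j : (Ix (((0 : ℕ) : ℤ) - 1) × Fin 2) × Unit, u (Sum.inl j) * 0 +
          ∑ j : (Ix (((0 : ℕ) : ℤ) + 1) × Fin 2) × Unit, u (Sum.inr j) * Z j.1 l :=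
        Fintype.sum_sum_type _
      have e2 : ∑ j : (Ix (((0 : ℕ) : ℤ) - 1) × Fin 2) × Unit, u (Sum.inl j) * 0 = 0 :=
        Finset.sum_eq_zero fun x _ => mul_zero _
      have e3 : ∑ j : (Ix (((0 : ℕ) : ℤ) + 1) × Fin 2) × Unit, u (Sum.inr j) * Z j.1 l =
          ∑ s : Ix (((0 : ℕ) : ℤ) + 1) × Fin 2, u (Sum.inr (s, ())) * Z s l :=
        (Fintype.sum_prod_type _).trans (Finset.sum_congr rfl fun x _ => Fintype.sum_unique _)
      rw [e1, e2, zero_add, e3]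
    rw [e]
    refine Submodule.sum_mem _ fun s _ => ?_
    have h3 := E.closed (0 - a) (1 - b) 0 1 (u (Sum.inr (s, ()))) _ (h2 s) (hZ s)
    rw [show (0 : ℤ) - (0 - a) = a by ring, show (1 : ℤ) - (1 - b) = b by ring] at h3
    exact h3⟩

omit [CharZero k] in
private theorem st3_mem1 : (Pi.single (st3_i k) 1 : (OS k ((0 : ℕ) : ℤ) 0 0).I → Wo k) ∈
    (OS k ((0 : ℕ) : ℤ) 0 0).filt 0 0 := by
  intro s
  apply O_mem_iff.2
  have h := st3_i_eq k (s, ())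
  show (Pi.single (st3_i k) 1 : (OS k ((0 : ℕ) : ℤ) 0 0).I → Wo k) (s, ()) ∈ _
  rw [h, Pi.single_eq_same]
  exact Dg_cast one_mem_Dg (by norm_num) (by norm_num)

omit [CharZero k] in
private theorem st3_hx {E : FOb k} (x : OS k ((0 : ℕ) : ℤ) 0 0 ⟶ Phi.obj E) :
    x.1 (st3_i k) ∈ E.filt (-1) (-1) := by
  have h1 := act_mem x (st3_mem1 k)
  rw [act_single x (st3_i k)] at h1
  exact h1

private theorem st3_q10' {E : FOb k}
    (hE : ∀ m ∈ E.filt (-1) (-1),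
      ∃ y ∈ E.filt (-1) 2, ∃ z : Fin 2 → Fin 2 → E.I → Wo k,
      (∀ i a, z i a ∈ E.filt (-1) 0) ∧
      ∀ l, m l = y l + (xo k 0 * (po k 0 * z 0 0 l + po k 1 * z 0 1 l) +
        xo k 1 * (po k 0 * z 1 0 l + po k 1 * z 1 1 l)))
    (x : OS k ((0 : ℕ) : ℤ) 0 0 ⟶ Phi.obj E) :
    ∃ (y : O k (-1) 2 ⟶ E) (t : P2 k ((0 : ℕ) : ℤ) ⟶ Phi.obj E),
      x = f3 k ≫ Phi.map y + m3 k 0 ≫ t := by
  obtain ⟨y, hy, z, hz, hm⟩ := hE _ (st3_hx k x)
  have hZ : ∀ s : Ix (((0 : ℕ) : ℤ) + 1) × Fin 2,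
      (if s.1 = st3_e 0 then -z 0 s.2 else z 1 s.2) ∈ (Phi.obj E).filt 0 1 := by
    intro s
    show (if s.1 = st3_e 0 then -z 0 s.2 else z 1 s.2) ∈ E.filt (-1) 0
    by_cases hs : s.1 = st3_e 0
    · rw [if_pos hs]
      exact Submodule.neg_mem _ (hz 0 s.2)
    · rw [if_neg hs]
      exact hz 1 s.2
  refine ⟨ofO y hy, st3_t k (E := Phi.obj E) _ hZ, ?_⟩
  apply hom_ext'
  intro i l
  rw [st3_i_eq k i]
  have e1 : ∀ a, (st3_t k (E := Phi.obj E) _ hZ).1 (st3_j k 0 a) l = -z 0 a l := by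
    intro a
    show (if (st3_e 0 : Ix (((0 : ℕ) : ℤ) + 1)) = st3_e 0 then -z 0 a else z 1 a) l = _
    rw [if_pos rfl]
    rfl
  have e2 : ∀ a, (st3_t k (E := Phi.obj E) _ hZ).1 (st3_j k 1 a) l = z 1 a l := by
    intro a
    show (if (st3_e 1 : Ix (((0 : ℕ) : ℤ) + 1)) = st3_e 0 then -z 0 a else z 1 a) l = _
    rw [if_neg]
    intro h
    have h1 := congrArg (fun x : Ix (((0 : ℕ) : ℤ) + 1) => x.1.1) h
    exact absurd h1 (by decide)
  have h1 : (f3 k ≫ Phi.map (ofO y hy)).1 (st3_i k) l = y l := st3_fcomp k (ofO y hy) l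
  have h2 := st3_comp k (st3_t k (E := Phi.obj E) _ hZ) l
  rw [e1, e1, e2, e2] at h2
  have h3 : (f3 k ≫ Phi.map (ofO y hy) + m3 k 0 ≫ st3_t k (E := Phi.obj E) _ hZ).1 (st3_i k) l =
      y l + (xo k 0 * (-(po k 0 * -z 0 0 l + po k 1 * -z 0 1 l)) +
      xo k 1 * (po k 0 * z 1 0 l + po k 1 * z 1 1 l)) := by
    rw [← h1, ← h2]
    rfl
  have h4 : ∀ a b : Wo k, -(po k 0 * -a + po k 1 * -b) = po k 0 * a + po k 1 * b := by
    intro a b
    rw [wo_mul_neg, wo_mul_neg, ← neg_add, neg_neg]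
  rw [h4] at h3
  exact (hm l).trans h3.symm

theorem Q_q10 (v : Option (Fin 5)) (x : PPo k 0 3 ⟶ Phi.obj (TY k v)) :
    ∃ (y : QQo k 3 ⟶ TY k v) (t : PPo k 0 2 ⟶ Phi.obj (TY k v)),
      x = cQQ k 3 ≫ Phi.map y + dPP k 0 2 ≫ t :=
  st3_q10' k (fun _ hm => st3_all k v hm) x

end P195S

end
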