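import Vale.Agent.P195S.KDD
import Vale.Agent.P195S.KDC
import Vale.Agent.P195S.KAdd
import Vale.Agent.P195S.KP1
import Vale.Agent.P195S.KP2
import Vale.Agent.P195S.KP3
import Vale.Agent.P195S.KP5
import Vale.Agent.P195S.KP6
import Vale.Agent.P195S.KP7
import Vale.Agent.P195S.KP8
import Vale.Agent.P195S.QDD
import Vale.Agent.P195S.Q1
import Vale.Agent.P195S.Q4
import Vale.Agent.P195S.Q5
import Vale.Agent.P195S.Q7
import Vale.Agent.P195S.Q9

/-!
# P195: the Auslander-Reiten conjecture is false over every field of characteristic zero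
-/

noncomputable section

namespace P195S

open CategoryTheory P195A P195A.RS P195E P195E.FOb P195D

variable (k : Type) [Field k] [CharZero k]

theorem KC_good : (KC k).Good (TY k) where
  dd := K_dd k
  dc := K_dc k
  add := K_add k
  zero := K_zero k
  p1 v n i x h := K_p1 k v n i x h
  p2 u n i x h := K_p2 k u n i x h
  p3 u n x z h := K_p3 k u n x z h
  p4 u n x := K_p4 k u n x
  p5 v n x h := K_p5 k v n x h
  p5' v n i x hi h := K_p5' k v n i x hi h
  p6 v n x h := K_p6 k v n x h
  p6' v n i x hi h := K_p6' k v n i x hi h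
  p7 v n x z h := K_p7 k v n x z h
  p8 v n x := K_p8 k v n x

theorem SC_good : (SC k).Good (TY k) where
  dd := Q_dd k
  dc := Q_dc k
  add := Q_add k
  zero := Q_zero k
  corner := Q_corner k
  q1 v i x h := Q_q1 k v i x h
  q2 u x := Q_q2 k u x
  q3 y := Q_q3 k y
  q4 u i x h := Q_q4 k u i x h
  q5 u x z h := Q_q5 k u x z h
  q6 u x := Q_q6 k u x
  q7 v x h := Q_q7 k v x h
  q7' v i x hi h := Q_q7' k v i x hi h
  q8 u x := Q_q8 k u x
  q9 v x z h := Q_q9 k v x z h
  q10 v x := Q_q10 k v x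

theorem ar_false : ∃ (R : Type) (_ : Ring R) (_ : Algebra k R) (M : ModuleCat.{0} R),
    Module.Finite k R ∧ Module.Finite R M ∧
      (∀ i, 1 ≤ i → Vale.Agent.P195.ExtVanish M i) ∧ ¬ Module.Projective R M :=
  ar_of_cols (TY k) (T_fin k) (T_fin2 k) (T_end k) (T_one k) (KC k) (KC_good k) (SC k) (SC_good k)

end P195S

end
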