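import Vale.Agent.P195S.Raw
import Vale.Agent.P195D.TwoCols

/-!
# P195: the objects and morphisms of `PP(n)`, `QQ`
-/

noncomputable section

namespace P195S

open CategoryTheory P195A P195A.RS P195E P195E.FOb P195D

/-- exponents `(i, j)` with `i + j = m` -/
def Ix (m : ℤ) : Type := {p : ℕ × ℕ // (p.1 : ℤ) + p.2 = m}

instance (m : ℤ) : DecidableEq (Ix m) := inferInstanceAs (DecidableEq {p : ℕ × ℕ // _})

instance (m : ℤ) : Fintype (Ix m) :=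
  Fintype.subtype (((Finset.range (m.toNat + 1)) ×ˢ (Finset.range (m.toNat + 1))).filter
    (fun p : ℕ × ℕ => (p.1 : ℤ) + p.2 = m)) (by
      intro p
      rw [Finset.mem_filter, Finset.mem_product, Finset.mem_range, Finset.mem_range]
      constructor
      · intro h
        exact h.2
      · intro h
        exact ⟨⟨by omega, by omega⟩, h⟩)

section conv

variable {k : Type} [Field k]

/-- extension by zero -/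
def ex (m : ℤ) : (Ix m → Wo k) →ₗ[Wo k] Vy (Wo k) :=
  ∑ i : Ix m, (Finsupp.lsingle i.1) ∘ₗ LinearMap.proj i

/-- restriction -/
def re (m : ℤ) : Vy (Wo k) →ₗ[Wo k] (Ix m → Wo k) := LinearMap.pi fun i => Finsupp.lapply i.1

/-- functions on `Ix m × Unit` -/
def exO (m : ℤ) : (Ix m × Unit → Wo k) →ₗ[Wo k] Vy (Wo k) :=
  ex m ∘ₗ LinearMap.funLeft (Wo k) (Wo k) (fun i => (i, ()))

def reO (m : ℤ) : Vy (Wo k) →ₗ[Wo k] (Ix m × Unit → Wo k) :=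
  LinearMap.funLeft (Wo k) (Wo k) (fun i => i.1) ∘ₗ re m

/-- functions on `Ix m × Fin 2` -/
def exP (m : ℤ) : (Ix m × Fin 2 → Wo k) →ₗ[Wo k] (Fin 2 → Vy (Wo k)) :=
  LinearMap.pi fun a => ex m ∘ₗ LinearMap.funLeft (Wo k) (Wo k) (fun i => (i, a))

def reP (m : ℤ) : (Fin 2 → Vy (Wo k)) →ₗ[Wo k] (Ix m × Fin 2 → Wo k) :=
  LinearMap.pi fun i => LinearMap.proj i.1 ∘ₗ re m ∘ₗ LinearMap.proj i.2

/-- functions on `(Ix m × Fin 2) × Unit` -/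
def exU (m : ℤ) : ((Ix m × Fin 2) × Unit → Wo k) →ₗ[Wo k] (Fin 2 → Vy (Wo k)) :=
  exP m ∘ₗ LinearMap.funLeft (Wo k) (Wo k) (fun i => (i, ()))

def reU (m : ℤ) : (Fin 2 → Vy (Wo k)) →ₗ[Wo k] ((Ix m × Fin 2) × Unit → Wo k) :=
  LinearMap.funLeft (Wo k) (Wo k) (fun i => i.1) ∘ₗ reP m

/-- functions on a disjoint union -/
def sumL (I J : Type) : (I ⊕ J → Wo k) →ₗ[Wo k] (I → Wo k) × (J → Wo k) :=
  LinearMap.prod (LinearMap.funLeft (Wo k) (Wo k) Sum.inl) (LinearMap.funLeft (Wo k) (Wo k) Sum.inr)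

def sumR (I J : Type) : ((I → Wo k) × (J → Wo k)) →ₗ[Wo k] (I ⊕ J → Wo k) where
  toFun u := Sum.elim u.1 u.2
  map_add' u v := by
    funext i
    cases i <;> rfl
  map_smul' c u := by
    funext i
    cases i <;> rfl

/-! ### objects -/

variable (k)

/-- `O(a,b) ⊗ Sym^m` -/
def OS (m a b : ℤ) : FOb k := cop (Ix m) (O k a b)

/-- `O_1 ⊗ Q` -/
def P2 (n : ℤ) : FOb k :=
  bsum (cop (Ix (n - 1) × Fin 2) (O k 0 1)) (cop (Ix (n + 1) × Fin 2) (O k 0 1))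

/-- `F ⊗ Sym^(n-1) ⊕ K ⊗ Sym^(n+1)` -/
def P1 (n : ℤ) : FOb k := bsum (cop (Ix (n - 1)) (FF k 0 0)) (cop (Ix (n + 1)) (KK k 0 0))

/-- the terms of `PP(n)` -/
def PPo (n : ℕ) : ℕ → FOb k
  | 0 => OS k n 0 2
  | 1 => P1 k n
  | 2 => P2 k n
  | 3 => OS k n 0 0
  | _ => zer k

/-- the terms of `QQ` -/
def QQo : ℕ → FOb k
  | 0 => O k (-1) 2
  | 1 => KK k 0 0
  | 2 => FF k 0 0
  | 3 => O k (-1) 2
  | _ => zer k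

/-- the objects `L`, and `O_0, O_1, F, K, O_2` -/
def TY : Option (Fin 5) → FOb k
  | none => O k (-1) 2
  | some i => ![O k 0 0, O k 0 1, FF k 0 0, KK k 0 0, O k 0 2] i

/-! ### coordinates of the terms -/

/-- `P2` as pairs of pairs -/
def exP2 (n : ℤ) : ((P2 k n).I → Wo k) →ₗ[Wo k] QV k :=
  (LinearMap.prodMap (exU (n - 1)) (exU (n + 1))) ∘ₗ
    sumL ((Ix (n - 1) × Fin 2) × Unit) ((Ix (n + 1) × Fin 2) × Unit)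

def reP2 (n : ℤ) : QV k →ₗ[Wo k] ((P2 k n).I → Wo k) :=
  sumR ((Ix (n - 1) × Fin 2) × Unit) ((Ix (n + 1) × Fin 2) × Unit) ∘ₗ
    (LinearMap.prodMap (reU (n - 1)) (reU (n + 1)))

def exP1 (n : ℤ) : ((P1 k n).I → Wo k) →ₗ[Wo k] QV k :=
  (LinearMap.prodMap (exP (n - 1)) (exP (n + 1))) ∘ₗ
    sumL (Ix (n - 1) × Fin 2) (Ix (n + 1) × Fin 2)

def reP1 (n : ℤ) : QV k →ₗ[Wo k] ((P1 k n).I → Wo k) :=
  sumR (Ix (n - 1) × Fin 2) (Ix (n + 1) × Fin 2) ∘ₗ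
    (LinearMap.prodMap (reP (n - 1)) (reP (n + 1)))

/-- `OS` as elements of `Vy` -/
def exS (m a b : ℤ) : ((OS k m a b).I → Wo k) →ₗ[Wo k] Vy (Wo k) := exO m

def reS (m a b : ℤ) : Vy (Wo k) →ₗ[Wo k] ((OS k m a b).I → Wo k) := reO m

/-- `O` -/
def exL (a b : ℤ) : ((O k a b).I → Wo k) →ₗ[Wo k] Wo k := LinearMap.proj ()

def reL (a b : ℤ) : Wo k →ₗ[Wo k] ((O k a b).I → Wo k) := LinearMap.pi fun _ => LinearMap.id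

end conv

section mor

variable (k : Type) [Field k] [CharZero k]

/-- linear maps underlying the differentials of `PP(n)` -/
def wl3 (n : ℕ) : ((OS k n 0 0).I → Wo k) →ₗ[Wo k] ((P2 k n).I → Wo k) :=
  reP2 k n ∘ₗ L3 k ∘ₗ exS k n 0 0

def wl2 (n : ℕ) : ((P2 k n).I → Wo k) →ₗ[Wo k] ((P1 k n).I → Wo k) :=
  reP1 k n ∘ₗ L2 k n ∘ₗ exP2 k n

def wl1 (n : ℕ) : ((P1 k n).I → Wo k) →ₗ[Wo k] ((OS k n 0 2).I → Wo k) :=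
  reS k n 0 2 ∘ₗ L1 k ∘ₗ exP1 k n

/-- linear maps underlying `c : PP(n+1) → Φ PP(n)` -/
def cl3 (n : ℕ) : ((OS k ((n + 1 : ℕ) : ℤ) 0 0).I → Wo k) →ₗ[Wo k] ((OS k n 0 0).I → Wo k) :=
  reS k n 0 0 ∘ₗ M3 k n ∘ₗ exS k ((n + 1 : ℕ) : ℤ) 0 0

def cl2 (n : ℕ) : ((P2 k ((n + 1 : ℕ) : ℤ)).I → Wo k) →ₗ[Wo k] ((P2 k n).I → Wo k) :=
  reP2 k n ∘ₗ M2 k n ∘ₗ exP2 k ((n + 1 : ℕ) : ℤ)

def cl1 (n : ℕ) : ((P1 k ((n + 1 : ℕ) : ℤ)).I → Wo k) →ₗ[Wo k] ((P1 k n).I → Wo k) :=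
  reP1 k n ∘ₗ M1 k n ∘ₗ exP1 k ((n + 1 : ℕ) : ℤ)

def cl0 (n : ℕ) : ((OS k ((n + 1 : ℕ) : ℤ) 0 2).I → Wo k) →ₗ[Wo k] ((OS k n 0 2).I → Wo k) :=
  reS k n 0 2 ∘ₗ M0 k n ∘ₗ exS k ((n + 1 : ℕ) : ℤ) 0 2

/-- linear maps underlying the differentials of `QQ` -/
def ql3 : ((O k (-1) 2).I → Wo k) →ₗ[Wo k] ((FF k 0 0).I → Wo k) := N3 (k := k) ∘ₗ exL k (-1) 2

def ql2 : ((FF k 0 0).I → Wo k) →ₗ[Wo k] ((KK k 0 0).I → Wo k) := N2 (k := k)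

def ql1 : ((KK k 0 0).I → Wo k) →ₗ[Wo k] ((O k (-1) 2).I → Wo k) := reL k (-1) 2 ∘ₗ N1 (k := k)

/-- linear maps underlying `c : PP(0) → Φ QQ` -/
def bl3 : ((OS k (0 : ℕ) 0 0).I → Wo k) →ₗ[Wo k] ((O k (-1) 2).I → Wo k) :=
  reL k (-1) 2 ∘ₗ Finsupp.lapply (0, 0) ∘ₗ exS k (0 : ℕ) 0 0

def bl2 : ((P2 k (0 : ℕ)).I → Wo k) →ₗ[Wo k] ((FF k 0 0).I → Wo k) :=
  B2 (k := k) ∘ₗ exP2 k (0 : ℕ)

def bl1 : ((P1 k (0 : ℕ)).I → Wo k) →ₗ[Wo k] ((KK k 0 0).I → Wo k) :=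
  B1 (k := k) ∘ₗ exP1 k (0 : ℕ)

def bl0 : ((OS k (0 : ℕ) 0 2).I → Wo k) →ₗ[Wo k] ((O k (-1) 2).I → Wo k) :=
  reL k (-1) 2 ∘ₗ Finsupp.lapply (0, 0) ∘ₗ exS k (0 : ℕ) 0 2

end mor

end P195S

end
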