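import Vale.Agent.P195S.Model
import Vale.Agent.P195E.DualHomD

/-!
# P195: `Hom(PP n, v)` for an arbitrary target `v`
-/

noncomputable section

namespace P195S.Du

open CategoryTheory P195A P195A.RS P195E P195E.FOb P195D

variable {k : Type} [Field k]

/-- the exponents -/
abbrev ev1 (m : ℤ) : Ix m → ℕ × ℕ := fun p => p.1

theorem ixOf (m : ℤ) : IxOf (Ix m) (ev1 m) m where
  inj := Subtype.val_injective
  deg p := p.2
  sur p hp := ⟨⟨p, hp⟩, rfl⟩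

theorem ex_eq (m : ℤ) (c : Ix m → Wo k) : ex m c = emb k (ev1 m) c := by
  rw [emb_def, ex, LinearMap.sum_apply]
  rfl

theorem exS_eq (m a b : ℤ) (u : (OS k m a b).I → Wo k) :
    exS k m a b u = emb k (ev1 m) (fun s => u (s, ())) := ex_eq m _

theorem exP1_fst (n : ℤ) (u : (P1 k n).I → Wo k) :
    (exP1 k n u).1 = fun a => emb k (ev1 (n - 1)) (fun s => u (Sum.inl (s, a))) :=
  funext fun _ => ex_eq (n - 1) _

theorem exP1_snd (n : ℤ) (u : (P1 k n).I → Wo k) :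
    (exP1 k n u).2 = fun a => emb k (ev1 (n + 1)) (fun s => u (Sum.inr (s, a))) :=
  funext fun _ => ex_eq (n + 1) _

theorem exP2_fst (n : ℤ) (u : (P2 k n).I → Wo k) :
    (exP2 k n u).1 = fun a => emb k (ev1 (n - 1)) (fun s => u (Sum.inl ((s, a), ()))) :=
  funext fun _ => ex_eq (n - 1) _

theorem exP2_snd (n : ℤ) (u : (P2 k n).I → Wo k) :
    (exP2 k n u).2 = fun a => emb k (ev1 (n + 1)) (fun s => u (Sum.inr ((s, a), ()))) :=
  funext fun _ => ex_eq (n + 1) _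

variable [CharZero k] {v : FOb k}

/-- dual coordinates of `x : O(a,b) ⊗ Sym^m → v` -/
def dS {m a b : ℤ} (x : OS k m a b ⟶ v) : Vy (v.I → Wo k) := cO (v := v) (ev1 m) x

/-- dual coordinates of `x : P1 n → v` -/
def dG1 {n : ℤ} (x : P1 k n ⟶ v) : Fin 2 → Vy (v.I → Wo k) := cG (v := v) (ev1 (n - 1)) x

def dH1 {n : ℤ} (x : P1 k n ⟶ v) : Fin 2 → Vy (v.I → Wo k) := cH (v := v) (ev1 (n + 1)) x

/-- dual coordinates of `x : P2 n → v` -/
def dG2 {n : ℤ} (x : P2 k n ⟶ v) : Fin 2 → Vy (v.I → Wo k) := cG2 (v := v) (ev1 (n - 1)) x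

def dH2 {n : ℤ} (x : P2 k n ⟶ v) : Fin 2 → Vy (v.I → Wo k) := cH2 (v := v) (ev1 (n + 1)) x

theorem act_dS {m a b : ℤ} (x : OS k m a b ⟶ v) (u : (OS k m a b).I → Wo k) :
    act x.1 u = prI (exS k m a b u) (dS x) := by
  rw [exS_eq]
  exact act_cO (ixOf m) x u

theorem act_d1 {n : ℤ} (x : P1 k n ⟶ v) (u : (P1 k n).I → Wo k) :
    act x.1 u = prS (exP1 k n u).1 (exP1 k n u).2 (dG1 x) (dH1 x) := by
  rw [exP1_fst, exP1_snd]
  exact act_cGH (ixOf (n - 1)) (ixOf (n + 1)) x u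

theorem act_d2 {n : ℤ} (x : P2 k n ⟶ v) (u : (P2 k n).I → Wo k) :
    act x.1 u = prS (exP2 k n u).1 (exP2 k n u).2 (dG2 x) (dH2 x) := by
  rw [exP2_fst, exP2_snd]
  exact act_cGH2 (ixOf (n - 1)) (ixOf (n + 1)) x u

/-! ### the differentials in coordinates -/

theorem exS_wl1 (n : ℕ) (u : (P1 k n).I → Wo k) :
    exS k n 0 2 (wl1 k n u) = (primal k).dl1 (exP1 k n u).1 (exP1 k n u).2 := by
  have h1 := exP1_HH k (n := (n : ℤ)) u
  refine exS_reS k (v := (primal k).dl1 (exP1 k n u).1 (exP1 k n u).2) ?_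
  have e1 := HH_al (S := primal k) (HH_chi1 (S := primal k) (fun a => (h1 a).1)
    (fun a => (h1 a).2))
  have e2 := HH_be (S := primal k) (HH_chi2 (S := primal k) (fun a => (h1 a).1)
    (fun a => (h1 a).2))
  rw [show (n : ℤ) - 1 + 1 = n by ring] at e1
  rw [show (n : ℤ) + 1 - 1 = n by ring] at e2
  exact Submodule.add_mem _ e1 e2

theorem exP1_wl2 (n : ℕ) (u : (P2 k n).I → Wo k) :
    exP1 k n (wl2 k n u) = ((primal k).dl2a n (exP2 k n u).1 (exP2 k n u).2,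
      (primal k).dl2b n (exP2 k n u).1 (exP2 k n u).2) := by
  have h1 := exP2_HH k (n := (n : ℤ)) u
  refine exP1_reP1 k (q := ((primal k).dl2a n (exP2 k n u).1 (exP2 k n u).2,
      (primal k).dl2b n (exP2 k n u).1 (exP2 k n u).2)) (fun a => ?_) (fun a => ?_)
  · exact Submodule.sub_mem _ (HH_lf _ (HH_chi1 (S := primal k) (fun a => (h1 a).1)
      (fun a => (h1 a).2))) (Submodule.smul_mem _ _ (h1 a).1)
  · exact Submodule.sub_mem _ (HH_lf _ (HH_chi2 (S := primal k) (fun a => (h1 a).1)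
      (fun a => (h1 a).2))) (Submodule.smul_mem _ _ (h1 a).2)

theorem exP2_wl3 (n : ℕ) (u : (OS k n 0 0).I → Wo k) :
    exP2 k n (wl3 k n u) = ((primal k).dl3a (exS k n 0 0 u), (primal k).dl3b (exS k n 0 0 u)) := by
  have h1 := exS_HH k (m := (n : ℤ)) (a := 0) (b := 0) u
  refine exP2_reP2 k (q := ((primal k).dl3a (exS k n 0 0 u), (primal k).dl3b (exS k n 0 0 u)))
    (fun a => ?_) (fun a => ?_)
  · exact HH_lf _ (HH_be (S := primal k) h1)
  · exact HH_lf _ (Submodule.neg_mem _ (HH_al (S := primal k) h1))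

theorem exS_cl3 (n : ℕ) (u : (OS k ((n + 1 : ℕ) : ℤ) 0 0).I → Wo k) :
    exS k n 0 0 (cl3 k n u) =
      ((n : k) + 2) • (primal k).g0 (exS k ((n + 1 : ℕ) : ℤ) 0 0 u) := by
  have h1 := exS_HH k (m := ((n + 1 : ℕ) : ℤ)) (a := 0) (b := 0) u
  refine exS_reS k (v := ((n : k) + 2) • (primal k).g0 (exS k ((n + 1 : ℕ) : ℤ) 0 0 u)) ?_
  have e1 := HH_g0 (S := primal k) h1
  rw [show ((n + 1 : ℕ) : ℤ) - 1 = n by push_cast; ring] at e1
  exact Submodule.smul_mem _ _ e1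

/-- the dual system -/
abbrev Sd (k : Type) [Field k] [CharZero k] (v : FOb k) : RS k (v.I → Wo k) (v.I → (Rx k →ₗ[k] k)) :=
  (dual k).pi v.I

theorem act_m1 (n : ℕ) (x : OS k n 0 2 ⟶ v) (u : (P1 k n).I → Wo k) :
    act (m1 k n ≫ x).1 u = prS (exP1 k n u).1 (exP1 k n u).2
      (-(Sd k v).la1 ((Sd k v).be (dS x)) (-(Sd k v).al (dS x)))
      (-(Sd k v).la2 ((Sd k v).be (dS x)) (-(Sd k v).al (dS x))) := by
  have e : act (m1 k n).1 u = wl1 k n u := act_mkHom _ _ u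
  rw [act_comp, e, act_dS, exS_wl1, prI_dl1]
  simp only [prS, Pi.neg_apply, map_neg]
  abel

theorem act_m2 (n : ℕ) (x : P1 k n ⟶ v) (u : (P2 k n).I → Wo k) :
    act (m2 k n ≫ x).1 u = prS (exP2 k n u).1 (exP2 k n u).2
      ((Sd k v).la1 ((Sd k v).ka1 (dG1 x)) ((Sd k v).ka2 (dH1 x)) - ((n : k) + 1) • dG1 x)
      ((Sd k v).la2 ((Sd k v).ka1 (dG1 x)) ((Sd k v).ka2 (dH1 x)) - ((n : k) + 1) • dH1 x) := by
  have e : act (m2 k n).1 u = wl2 k n u := act_mkHom _ _ u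
  rw [act_comp, e, act_d1, exP1_wl2, prS_dl2]

theorem act_m3 (n : ℕ) (x : P2 k n ⟶ v) (u : (OS k n 0 0).I → Wo k) :
    act (m3 k n ≫ x).1 u = prI (exS k n 0 0 u)
      (-((Sd k v).al ((Sd k v).ka1 (dG2 x)) + (Sd k v).be ((Sd k v).ka2 (dH2 x)))) := by
  have e : act (m3 k n).1 u = wl3 k n u := act_mkHom _ _ u
  rw [act_comp, e, act_d2, exP2_wl3, prS_dl3, map_neg]

theorem act_Phi {E F : FOb k} (x : E ⟶ F) (u : E.I → Wo k) :
    act (E := Phi.obj E) (F := Phi.obj F) (Phi.map x).1 u = act x.1 u := rfl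

theorem act_cl3 (n : ℕ) (x : OS k n 0 0 ⟶ v) (u : (OS k ((n + 1 : ℕ) : ℤ) 0 0).I → Wo k) :
    act x.1 (cl3 k n u) = prI (exS k ((n + 1 : ℕ) : ℤ) 0 0 u)
      (((n : k) + 2) • (Sd k v).rho (dS x)) := by
  rw [act_dS, exS_cl3, map_smul, LinearMap.smul_apply, prI_g0, map_smul]

theorem act_e3 (n : ℕ) (x : OS k n 0 0 ⟶ v) (u : (OS k ((n + 1 : ℕ) : ℤ) 0 0).I → Wo k) :
    act (e3 k n ≫ Phi.map x).1 u = prI (exS k ((n + 1 : ℕ) : ℤ) 0 0 u)
      (((n : k) + 2) • (Sd k v).rho (dS x)) :=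
  (act_comp (e3 k n) (Phi.map x) u).trans
    ((congrArg (act (E := Phi.obj (OS k n 0 0)) (F := Phi.obj v) (Phi.map x).1)
      (act_mkHom (F := Phi.obj (OS k n 0 0)) (cl3 k n) (cl3_mem k n) u)).trans
      ((act_Phi x (cl3 k n u)).trans (act_cl3 n x u)))

end P195S.Du

end
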