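import Vale.Agent.P195S.DualGen

/-!
# P195: exactness of `Hom(PP n, v)` for an arbitrary target `v`
-/

noncomputable section

namespace P195S.Du

open CategoryTheory P195A P195A.RS P195E P195E.FOb P195D

variable {k : Type} [Field k] [CharZero k] {v : FOb k}

theorem dS_mem {m a b : ℤ} (x : OS k m a b ⟶ v) : dS x ∈ VVf (v.filt a b) m :=
  cO_mem (ixOf m) x

theorem dS_zero {m a b : ℤ} : dS (0 : OS k m a b ⟶ v) = 0 := by
  have h : (fun x : Ix m => ((pf (ev1 m x) : k))⁻¹ • (0 : Ix m → v.I → Wo k) x) = 0 := by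
    funext x
    exact smul_zero _
  show emb k (ev1 m) (fun x : Ix m => ((pf (ev1 m x) : k))⁻¹ • (0 : Ix m → v.I → Wo k) x) = 0
  rw [h, map_zero]

theorem dS_inj {m a b : ℤ} {x y : OS k m a b ⟶ v} (h : dS x = dS y) : x = y :=
  cO_inj (ixOf m) h

theorem exists_dS {m a b : ℤ} {z : Vy (v.I → Wo k)} (hz : z ∈ VVf (v.filt a b) m) :
    ∃ x : OS k m a b ⟶ v, dS x = z := exists_cO (ixOf m) hz

theorem dG1_mem {n : ℤ} (x : P1 k n ⟶ v) (a : Fin 2) : dG1 x a ∈ VVf (v.filt 0 1) (n - 1) :=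
  cG_mem (ixOf (n - 1)) x a

theorem dH1_mem {n : ℤ} (x : P1 k n ⟶ v) (a : Fin 2) : dH1 x a ∈ VVf (v.filt 0 1) (n + 1) :=
  cH_mem (ixOf (n + 1)) x a

theorem ka1_dG1 {n : ℤ} (x : P1 k n ⟶ v) :
    (Sd k v).ka1 (dG1 x) ∈ VVf (v.filt (-1) 2) (n - 1) := ka1_mem (ixOf (n - 1)) x

theorem ka2_dH1 {n : ℤ} (x : P1 k n ⟶ v) :
    (Sd k v).ka2 (dH1 x) ∈ VVf (v.filt 1 1) (n + 1) := ka2_mem (ixOf (n + 1)) x

theorem d1_inj {n : ℤ} {x y : P1 k n ⟶ v} (h1 : dG1 x = dG1 y) (h2 : dH1 x = dH1 y) : x = y :=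
  cGH_inj (ixOf (n - 1)) (ixOf (n + 1)) h1 h2

theorem exists_d1 {n : ℤ} {G H : Fin 2 → Vy (v.I → Wo k)}
    (hG : ∀ a, G a ∈ VVf (v.filt 0 1) (n - 1)) (hH : ∀ a, H a ∈ VVf (v.filt 0 1) (n + 1))
    (hG' : (Sd k v).ka1 G ∈ VVf (v.filt (-1) 2) (n - 1))
    (hH' : (Sd k v).ka2 H ∈ VVf (v.filt 1 1) (n + 1)) :
    ∃ x : P1 k n ⟶ v, dG1 x = G ∧ dH1 x = H :=
  exists_cGH (ixOf (n - 1)) (ixOf (n + 1)) hG hH hG' hH'

theorem dG2_mem {n : ℤ} (x : P2 k n ⟶ v) (a : Fin 2) : dG2 x a ∈ VVf (v.filt 0 1) (n - 1) :=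
  cG2_mem (ixOf (n - 1)) x a

theorem dH2_mem {n : ℤ} (x : P2 k n ⟶ v) (a : Fin 2) : dH2 x a ∈ VVf (v.filt 0 1) (n + 1) :=
  cH2_mem (ixOf (n + 1)) x a

theorem d2_inj {n : ℤ} {x y : P2 k n ⟶ v} (h1 : dG2 x = dG2 y) (h2 : dH2 x = dH2 y) : x = y :=
  cGH2_inj (ixOf (n - 1)) (ixOf (n + 1)) h1 h2

theorem exists_d2 {n : ℤ} {G H : Fin 2 → Vy (v.I → Wo k)}
    (hG : ∀ a, G a ∈ VVf (v.filt 0 1) (n - 1)) (hH : ∀ a, H a ∈ VVf (v.filt 0 1) (n + 1)) :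
    ∃ x : P2 k n ⟶ v, dG2 x = G ∧ dH2 x = H :=
  exists_cGH2 (ixOf (n - 1)) (ixOf (n + 1)) hG hH

/-! ### reading off coordinates from the action -/

/-- morphisms out of `P1` are determined by the pairing -/
theorem d1_ext {n : ℤ} {x : P1 k n ⟶ v} {G H : Fin 2 → Vy (v.I → Wo k)} {Q : Submodule k (v.I → Wo k)}
    (hG : ∀ a, G a ∈ VVf Q (n - 1)) (hH : ∀ a, H a ∈ VVf Q (n + 1))
    (h : ∀ u, act x.1 u = prS (exP1 k n u).1 (exP1 k n u).2 G H) : dG1 x = G ∧ dH1 x = H := by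
  refine prS_nondeg (ixOf (n - 1)) (ixOf (n + 1)) (fun a => VVf_mono le_top (dG1_mem x a))
    (fun a => VVf_mono le_top (dH1_mem x a)) (fun a => VVf_mono le_top (hG a))
    (fun a => VVf_mono le_top (hH a)) fun q t => ?_
  obtain ⟨u, hu⟩ : ∃ u : (P1 k n).I → Wo k,
      u = (Sum.elim (fun p => q p.2 p.1) (fun p => t p.2 p.1) :
        (Ix (n - 1) × Fin 2) ⊕ (Ix (n + 1) × Fin 2) → Wo k) := ⟨_, rfl⟩
  have h1 := (act_d1 x u).symm.trans (h u)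
  rw [exP1_fst, exP1_snd, hu] at h1
  exact h1

theorem d2_ext {n : ℤ} {x : P2 k n ⟶ v} {G H : Fin 2 → Vy (v.I → Wo k)} {Q : Submodule k (v.I → Wo k)}
    (hG : ∀ a, G a ∈ VVf Q (n - 1)) (hH : ∀ a, H a ∈ VVf Q (n + 1))
    (h : ∀ u, act x.1 u = prS (exP2 k n u).1 (exP2 k n u).2 G H) : dG2 x = G ∧ dH2 x = H := by
  refine prS_nondeg (ixOf (n - 1)) (ixOf (n + 1)) (fun a => VVf_mono le_top (dG2_mem x a))
    (fun a => VVf_mono le_top (dH2_mem x a)) (fun a => VVf_mono le_top (hG a))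
    (fun a => VVf_mono le_top (hH a)) fun q t => ?_
  obtain ⟨u, hu⟩ : ∃ u : (P2 k n).I → Wo k,
      u = (Sum.elim (fun p => q p.1.2 p.1.1) (fun p => t p.1.2 p.1.1) :
        ((Ix (n - 1) × Fin 2) × Unit) ⊕ ((Ix (n + 1) × Fin 2) × Unit) → Wo k) := ⟨_, rfl⟩
  have h1 := (act_d2 x u).symm.trans (h u)
  rw [exP2_fst, exP2_snd, hu] at h1
  exact h1

theorem dS_ext {m a b : ℤ} {x : OS k m a b ⟶ v} {z : Vy (v.I → Wo k)} {Q : Submodule k (v.I → Wo k)}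
    (hz : z ∈ VVf Q m) (h : ∀ u, act x.1 u = prI (exS k m a b u) z) : dS x = z := by
  refine eq_of_prI (ixOf m) (VVf_mono le_top (dS_mem x)) (VVf_mono le_top hz) fun u => ?_
  have h1 := h (fun p => u p.1)
  rw [act_dS, exS_eq] at h1
  exact h1

/-! ### degrees of the dual operators -/

section deg
variable {U T : Type} [AddCommGroup U] [Module k U] [AddCommGroup T] [Module k T] {S : RS k U T}

theorem HT_al {m : ℤ} {z : Vy U} (hz : z ∈ VVf (⊤ : Submodule k U) m) :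
    S.al z ∈ VVf (⊤ : Submodule k U) (m + 1) :=
  Submodule.sub_mem _ (VVf_lf (fun _ _ => Submodule.mem_top) (VVf_y1 hz))
    (VVf_lf (fun _ _ => Submodule.mem_top) (VVf_y0 hz))

theorem HT_be {m : ℤ} {z : Vy U} (hz : z ∈ VVf (⊤ : Submodule k U) m) :
    S.be z ∈ VVf (⊤ : Submodule k U) (m - 1) :=
  Submodule.sub_mem _ (VVf_lf (fun _ _ => Submodule.mem_top) (VVf_q0 hz))
    (VVf_lf (fun _ _ => Submodule.mem_top) (VVf_q1 hz))

theorem HT_rho {m : ℤ} {z : Vy U} (hz : z ∈ VVf (⊤ : Submodule k U) m) :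
    S.rho z ∈ VVf (⊤ : Submodule k U) (m + 1) :=
  Submodule.add_mem _ (VVf_lf (fun _ _ => Submodule.mem_top) (VVf_y0 hz))
    (VVf_lf (fun _ _ => Submodule.mem_top) (VVf_y1 hz))

theorem HT_ka1 {m : ℤ} {G : Fin 2 → Vy U} (hz : ∀ a, G a ∈ VVf (⊤ : Submodule k U) m) :
    S.ka1 G ∈ VVf (⊤ : Submodule k U) m :=
  Submodule.add_mem _ (VVf_lf (fun _ _ => Submodule.mem_top) (hz 0))
    (VVf_lf (fun _ _ => Submodule.mem_top) (hz 1))

theorem HT_ka2 {m : ℤ} {G : Fin 2 → Vy U} (hz : ∀ a, G a ∈ VVf (⊤ : Submodule k U) m) :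
    S.ka2 G ∈ VVf (⊤ : Submodule k U) m :=
  Submodule.add_mem _ (VVf_lf (fun _ _ => Submodule.mem_top) (hz 0))
    (VVf_lf (fun _ _ => Submodule.mem_top) (hz 1))

theorem HT_tv {n : ℤ} {u w : Vy U} (hu : u ∈ VVf (⊤ : Submodule k U) (n - 1))
    (hw : w ∈ VVf (⊤ : Submodule k U) (n + 1)) : S.tv u w ∈ VVf (⊤ : Submodule k U) n := by
  have e1 := HT_al (S := S) hu
  have e2 := HT_be (S := S) hw
  rw [show n - 1 + 1 = n by ring] at e1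
  rw [show n + 1 - 1 = n by ring] at e2
  exact Submodule.add_mem _ e1 e2

theorem HT_la1 {n : ℤ} {u w : Vy U} (hu : u ∈ VVf (⊤ : Submodule k U) (n - 1))
    (hw : w ∈ VVf (⊤ : Submodule k U) (n + 1)) (a : Fin 2) :
    S.la1 u w a ∈ VVf (⊤ : Submodule k U) (n - 1) := by
  fin_cases a
  · exact Submodule.add_mem _ (VVf_lf (fun _ _ => Submodule.mem_top) hu) (VVf_q1 (HT_tv hu hw))
  · exact Submodule.sub_mem _ (VVf_lf (fun _ _ => Submodule.mem_top) hu) (VVf_q0 (HT_tv hu hw))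

theorem HT_la2 {n : ℤ} {u w : Vy U} (hu : u ∈ VVf (⊤ : Submodule k U) (n - 1))
    (hw : w ∈ VVf (⊤ : Submodule k U) (n + 1)) (a : Fin 2) :
    S.la2 u w a ∈ VVf (⊤ : Submodule k U) (n + 1) := by
  fin_cases a
  · exact Submodule.add_mem _ (VVf_lf (fun _ _ => Submodule.mem_top) hw) (VVf_y1 (HT_tv hu hw))
  · exact Submodule.sub_mem _ (VVf_lf (fun _ _ => Submodule.mem_top) hw) (VVf_y0 (HT_tv hu hw))

end deg

/-! ### the four spots -/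

theorem m1_coord (n : ℕ) (x : OS k n 0 2 ⟶ v) :
    dG1 (m1 k n ≫ x) = -(Sd k v).la1 ((Sd k v).be (dS x)) (-(Sd k v).al (dS x)) ∧
    dH1 (m1 k n ≫ x) = -(Sd k v).la2 ((Sd k v).be (dS x)) (-(Sd k v).al (dS x)) := by
  have hz : dS x ∈ VVf (⊤ : Submodule k (v.I → Wo k)) n := VVf_mono le_top (dS_mem x)
  exact d1_ext (fun a => Submodule.neg_mem _ (HT_la1 (HT_be hz)
    (Submodule.neg_mem _ (HT_al hz)) a)) (fun a => Submodule.neg_mem _ (HT_la2 (HT_be hz)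
    (Submodule.neg_mem _ (HT_al hz)) a)) (act_m1 n x)

theorem m2_coord (n : ℕ) (x : P1 k n ⟶ v) :
    dG2 (m2 k n ≫ x) =
      (Sd k v).la1 ((Sd k v).ka1 (dG1 x)) ((Sd k v).ka2 (dH1 x)) - ((n : k) + 1) • dG1 x ∧
    dH2 (m2 k n ≫ x) =
      (Sd k v).la2 ((Sd k v).ka1 (dG1 x)) ((Sd k v).ka2 (dH1 x)) - ((n : k) + 1) • dH1 x := by
  have hG : ∀ a, dG1 x a ∈ VVf (⊤ : Submodule k (v.I → Wo k)) ((n : ℤ) - 1) := fun a =>
    VVf_mono le_top (dG1_mem x a)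
  have hH : ∀ a, dH1 x a ∈ VVf (⊤ : Submodule k (v.I → Wo k)) ((n : ℤ) + 1) := fun a =>
    VVf_mono le_top (dH1_mem x a)
  exact d2_ext (fun a => Submodule.sub_mem _ (HT_la1 (HT_ka1 hG) (HT_ka2 hH) a)
      (Submodule.smul_mem _ _ (hG a)))
    (fun a => Submodule.sub_mem _ (HT_la2 (HT_ka1 hG) (HT_ka2 hH) a)
      (Submodule.smul_mem _ _ (hH a))) (act_m2 n x)

theorem m3_coord (n : ℕ) (x : P2 k n ⟶ v) : dS (m3 k n ≫ x) =
    -((Sd k v).al ((Sd k v).ka1 (dG2 x)) + (Sd k v).be ((Sd k v).ka2 (dH2 x))) := by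
  have hG : ∀ a, dG2 x a ∈ VVf (⊤ : Submodule k (v.I → Wo k)) ((n : ℤ) - 1) := fun a =>
    VVf_mono le_top (dG2_mem x a)
  have hH : ∀ a, dH2 x a ∈ VVf (⊤ : Submodule k (v.I → Wo k)) ((n : ℤ) + 1) := fun a =>
    VVf_mono le_top (dH2_mem x a)
  exact dS_ext (Submodule.neg_mem _ (HT_tv (HT_ka1 hG) (HT_ka2 hH))) (act_m3 n x)

theorem p5_gen (n : ℕ) (hx : FamEx (Sd k v) v.filt n) (x : OS k n 0 2 ⟶ v)
    (h : m1 k n ≫ x = 0) : x = 0 := by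
  obtain ⟨h1, h2⟩ := m1_coord n x
  have h3 : dH1 (0 : P1 k n ⟶ v) = 0 := by
    refine (d1_ext (x := (0 : P1 k n ⟶ v)) (G := 0) (H := 0) (Q := ⊤)
      (fun a => Submodule.zero_mem _) (fun a => Submodule.zero_mem _) fun u => ?_).2
    rw [act_zero_hom]
    simp [prS]
  rw [h, h3] at h2
  have h4 : dS x = 0 := pd0 n hx (dS_mem x) (neg_eq_zero.1 h2.symm)
  exact dS_inj (h4.trans dS_zero.symm)

theorem p51_gen (n : ℕ) (hx : FamEx (Sd k v) v.filt n) (x : P1 k n ⟶ v)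
    (h : m2 k n ≫ x = 0) : ∃ y, m1 k n ≫ y = x := by
  obtain ⟨h1, h2⟩ := m2_coord n x
  have h3 := d2_ext (x := (0 : P2 k n ⟶ v)) (G := 0) (H := 0) (Q := ⊤)
      (fun a => Submodule.zero_mem _) (fun a => Submodule.zero_mem _) (fun u => by
        rw [act_zero_hom]
        simp [prS])
  rw [h, h3.1] at h1
  rw [h, h3.2] at h2
  have hc : (((n : ℤ) + 1 : ℤ) : k) = (n : k) + 1 := by push_cast; rfl
  obtain ⟨z, hz, h4, h5⟩ := pd1 n hx (ka1_dG1 x) (ka2_dH1 x)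
    (by rw [hc]; exact sub_eq_zero.1 h1.symm) (by rw [hc]; exact sub_eq_zero.1 h2.symm)
  obtain ⟨y, hy⟩ := exists_dS (a := 0) (b := 2) (Submodule.neg_mem _ hz)
  refine ⟨y, ?_⟩
  obtain ⟨h6, h7⟩ := m1_coord n y
  have e1 : (Sd k v).la1 ((Sd k v).be (-z)) (-(Sd k v).al (-z)) =
      -(Sd k v).la1 ((Sd k v).be z) (-(Sd k v).al z) := by
    have := la1_smul (S := Sd k v) ((Sd k v).be z) (-(Sd k v).al z) (-1)
    rw [neg_one_smul, neg_one_smul, neg_one_smul] at this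
    rw [map_neg, map_neg]
    exact this
  have e2 : (Sd k v).la2 ((Sd k v).be (-z)) (-(Sd k v).al (-z)) =
      -(Sd k v).la2 ((Sd k v).be z) (-(Sd k v).al z) := by
    have := la2_smul (S := Sd k v) ((Sd k v).be z) (-(Sd k v).al z) (-1)
    rw [neg_one_smul, neg_one_smul, neg_one_smul] at this
    rw [map_neg, map_neg]
    exact this
  rw [hy, e1, neg_neg] at h6
  rw [hy, e2, neg_neg] at h7
  exact d1_inj (h6.trans h4.symm) (h7.trans h5.symm)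

theorem p52_gen (n : ℕ) (hx : FamEx (Sd k v) v.filt n) (x : P2 k n ⟶ v)
    (h : m3 k n ≫ x = 0) : ∃ y, m2 k n ≫ y = x := by
  have h1 := m3_coord n x
  rw [h, dS_zero] at h1
  obtain ⟨g, g', hg, hg', h2, h3, h4, h5⟩ := pd2 n (fam_filt v) hx (dG2_mem x) (dH2_mem x)
    (neg_eq_zero.1 h1.symm)
  obtain ⟨y, hy1, hy2⟩ := exists_d1 hg hg' h2 h3
  have hc : (((n : ℤ) + 1 : ℤ) : k) = (n : k) + 1 := by push_cast; rfl
  obtain ⟨h6, h7⟩ := m2_coord n y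
  rw [hy1, hy2, ← hc] at h6 h7
  exact ⟨y, d2_inj (h6.trans h4.symm) (h7.trans h5.symm)⟩

end P195S.Du

end
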