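import Vale.Agent.P195S.DualP

/-!
# P195: comparison on `H^3` of `Hom(PP n, v)` for an arbitrary target `v`
-/

noncomputable section

namespace P195S.Du

open CategoryTheory P195A P195A.RS P195E P195E.FOb P195D

variable {k : Type} [Field k] [CharZero k] {v : FOb k}

theorem dS_add {m a b : ℤ} (x y : OS k m a b ⟶ v) : dS (x + y) = dS x + dS y := by
  refine dS_ext (Submodule.add_mem _ (dS_mem x) (dS_mem y)) fun u => ?_
  rw [act_add_hom, act_dS, act_dS, map_add]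

theorem e3_coord (n : ℕ) (x : OS k n 0 0 ⟶ v) :
    dS (v := Phi.obj v) (e3 k n ≫ Phi.map x) = ((n : k) + 2) • (Sd k v).rho (dS x) := by
  refine dS_ext (v := Phi.obj v) (Q := ⊤) ?_ (act_e3 n x)
  have hz : dS x ∈ VVf (⊤ : Submodule k (v.I → Wo k)) n := VVf_mono le_top (dS_mem x)
  have h1 := HT_rho (S := Sd k v) hz
  rw [show (n : ℤ) + 1 = ((n + 1 : ℕ) : ℤ) by push_cast; ring] at h1
  exact Submodule.smul_mem _ _ h1

/-- the image of `m3` contains everything coming from `RR` -/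
theorem exists_m3 (n : ℕ) (hG : FamGen (Sd k v) v.filt) {u w : Vy (v.I → Wo k)}
    (hu : u ∈ VVf (v.filt (-1) 1) ((n : ℤ) - 1)) (hw : w ∈ VVf (v.filt 1 0) ((n : ℤ) + 1)) :
    ∃ t : P2 k n ⟶ v, dS (m3 k n ≫ t) = (Sd k v).al u + (Sd k v).be w := by
  obtain ⟨g, h, hg, hh, h1⟩ := pd3 n (fam_filt v) hG hu hw
  obtain ⟨t, ht1, ht2⟩ := exists_d2 (fun a => Submodule.neg_mem _ (hg a))
    (fun a => Submodule.neg_mem _ (hh a))
  refine ⟨t, ?_⟩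
  have e1 : dG2 t = (-1 : k) • g := by rw [neg_one_smul]; exact ht1
  have e2 : dH2 t = (-1 : k) • h := by rw [neg_one_smul]; exact ht2
  have f1 : (Sd k v).ka1 ((-1 : k) • g) = -(Sd k v).ka1 g := by
    have := ka1_lin (S := Sd k v) g 0 (-1) 0
    simpa using this
  have f2 : (Sd k v).ka2 ((-1 : k) • h) = -(Sd k v).ka2 h := by
    have := ka2_lin (S := Sd k v) h 0 (-1) 0
    simpa using this
  rw [m3_coord, e1, e2, f1, f2, map_neg, map_neg, ← neg_add, neg_neg, h1]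

theorem scal_neg {U T : Type} [AddCommGroup U] [Module k U] [AddCommGroup T] [Module k T]
    (S : RS k U T) (c : k) (A B : Vy U) :
    c • (-(S.al A + S.be B)) = S.al (-c • A) + S.be (-c • B) := by
  rw [map_smul, map_smul, ← smul_add, smul_neg, neg_smul]

theorem p7_gen (n : ℕ) (hG : FamGen (Sd k v) v.filt)
    (hI : ∀ (n : ℕ) (z u w : Vy (v.I → Wo k)), z ∈ VVf (v.filt 0 0) (n : ℤ) →
      (Sd k v).rho z = (Sd k v).al u + (Sd k v).be w →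
      ∃ u' ∈ VVf (v.filt (-1) 1) ((n : ℤ) - 1), ∃ v' ∈ VVf (v.filt 1 0) ((n : ℤ) + 1),
        z = (Sd k v).al u' + (Sd k v).be v')
    (x : OS k n 0 0 ⟶ v) (z : P2 k ((n + 1 : ℕ) : ℤ) ⟶ Phi.obj v)
    (h : e3 k n ≫ Phi.map x = m3 k (n + 1) ≫ z) : ∃ t, x = m3 k n ≫ t := by
  have h1 := e3_coord n x
  rw [h] at h1
  have h2 := m3_coord (v := Phi.obj v) (n + 1) z
  rw [h1] at h2
  have hc : ((n : k) + 2) ≠ 0 := by
    have h3 : ((n + 2 : ℕ) : k) ≠ 0 := Nat.cast_ne_zero.2 (by omega)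
    push_cast at h3
    exact h3
  have h4 : (Sd k v).rho (dS x) =
      (Sd k v).al (-((n : k) + 2)⁻¹ • (Sd k v).ka1 (dG2 (v := Phi.obj v) z)) +
        (Sd k v).be (-((n : k) + 2)⁻¹ • (Sd k v).ka2 (dH2 (v := Phi.obj v) z)) := by
    exact ((eq_inv_smul_iff₀ hc).2 h2).trans (scal_neg (Sd k v) ((n : k) + 2)⁻¹ _ _)
  obtain ⟨u', hu', v', hv', h6⟩ := hI n (dS x) _ _ (dS_mem x) h4
  obtain ⟨t, ht⟩ := exists_m3 n hG hu' hv'
  exact ⟨t, dS_inj (h6.trans ht.symm)⟩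

theorem p8_gen (n : ℕ) (hG : FamGen (Sd k (Phi.obj v)) (Phi.obj v).filt)
    (hI : ∀ (n : ℕ) (z' : Vy (v.I → Wo k)), z' ∈ VVf ((Phi.obj v).filt 0 0) ((n : ℤ) + 1) →
      ∃ z ∈ VVf (v.filt 0 0) (n : ℤ), ∃ u ∈ VVf ((Phi.obj v).filt (-1) 1) (n : ℤ),
        ∃ w ∈ VVf ((Phi.obj v).filt 1 0) ((n : ℤ) + 2),
        z' = (Sd k v).rho z + ((Sd k v).al u + (Sd k v).be w))
    (x : OS k ((n + 1 : ℕ) : ℤ) 0 0 ⟶ Phi.obj v) :
    ∃ (y : OS k n 0 0 ⟶ v) (t : P2 k ((n + 1 : ℕ) : ℤ) ⟶ Phi.obj v),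
      x = e3 k n ≫ Phi.map y + m3 k (n + 1) ≫ t := by
  have h1 : dS x ∈ VVf ((Phi.obj v).filt 0 0) ((n : ℤ) + 1) :=
    (congrArg (fun m : ℤ => dS x ∈ VVf ((Phi.obj v).filt 0 0) m)
      (show ((n + 1 : ℕ) : ℤ) = (n : ℤ) + 1 by push_cast; ring)).mp (dS_mem x)
  obtain ⟨z, hz, u, hu, w, hw, h2⟩ := hI n _ h1
  have hc : ((n : k) + 2) ≠ 0 := by
    have h3 : ((n + 2 : ℕ) : k) ≠ 0 := Nat.cast_ne_zero.2 (by omega)
    push_cast at h3
    exact h3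
  obtain ⟨y, hy⟩ := exists_dS (a := 0) (b := 0) (Submodule.smul_mem _ ((n : k) + 2)⁻¹ hz)
  have hu' : u ∈ VVf ((Phi.obj v).filt (-1) 1) (((n + 1 : ℕ) : ℤ) - 1) := by
    rw [show ((n + 1 : ℕ) : ℤ) - 1 = (n : ℤ) by push_cast; ring]
    exact hu
  have hw' : w ∈ VVf ((Phi.obj v).filt 1 0) (((n + 1 : ℕ) : ℤ) + 1) := by
    rw [show ((n + 1 : ℕ) : ℤ) + 1 = (n : ℤ) + 2 by push_cast; ring]
    exact hw
  obtain ⟨t, ht⟩ := exists_m3 (v := Phi.obj v) (n + 1) hG hu' hw'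
  refine ⟨y, t, dS_inj ?_⟩
  refine Eq.trans ?_ (dS_add (v := Phi.obj v) _ _).symm
  have h3 := e3_coord n y
  rw [hy, map_smul, smul_inv_smul₀ hc] at h3
  exact h2.trans (congrArg₂ (· + ·) h3.symm ht.symm)

end P195S.Du

end
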