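import Vale.Agent.P195S.Model

/-!
# P195: `PP(n)` is a complex
-/

noncomputable section

namespace P195S

open CategoryTheory P195A P195A.RS P195E P195E.FOb P195D

variable (k : Type) [Field k] [CharZero k]

theorem act_m3 (n : ℕ) (u : (OS k n 0 0).I → Wo k) :
    act (m3 k n).1 u = reP2 k n (L3 k (exS k n 0 0 u)) := act_mkHom _ _ _

theorem act_m2 (n : ℕ) (u : (P2 k n).I → Wo k) :
    act (m2 k n).1 u = reP1 k n (L2 k n (exP2 k n u)) := act_mkHom _ _ _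

theorem act_m1 (n : ℕ) (u : (P1 k n).I → Wo k) :
    act (m1 k n).1 u = reS k n 0 2 (L1 k (exP1 k n u)) := act_mkHom _ _ _

theorem L3_HH {n : ℤ} {r : Vy (Wo k)} (hr : r ∈ HH k (Wo k) n) (a : Fin 2) :
    (L3 k r).1 a ∈ HH k (Wo k) (n - 1) ∧ (L3 k r).2 a ∈ HH k (Wo k) (n + 1) :=
  ⟨HH_lf _ (HH_be hr), HH_lf _ (Submodule.neg_mem _ (HH_al hr))⟩

theorem L2_HH {n : ℕ} {q : QV k} (h1 : ∀ a, q.1 a ∈ HH k (Wo k) ((n : ℤ) - 1))
    (h2 : ∀ a, q.2 a ∈ HH k (Wo k) ((n : ℤ) + 1)) (a : Fin 2) :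
    (L2 k n q).1 a ∈ HH k (Wo k) ((n : ℤ) - 1) ∧ (L2 k n q).2 a ∈ HH k (Wo k) ((n : ℤ) + 1) :=
  ⟨Submodule.sub_mem _ (HH_lf _ (HH_chi1 h1 h2)) (Submodule.smul_mem _ _ (h1 a)),
    Submodule.sub_mem _ (HH_lf _ (HH_chi2 h1 h2)) (Submodule.smul_mem _ _ (h2 a))⟩

theorem m3_m2 (n : ℕ) : m3 k n ≫ m2 k n = 0 := by
  apply hom_ext_act
  intro u
  rw [act_comp, act_zero_hom, act_m3, act_m2]
  have hr := exS_HH k (m := (n : ℤ)) (a := 0) (b := 0) u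
  rw [exP2_reP2 k (fun a => (L3_HH k hr a).1) (fun a => (L3_HH k hr a).2)]
  have h : L2 k n (L3 k (exS k n 0 0 u)) = 0 := Prod.ext (dl2a_dl3 hr) (dl2b_dl3 hr)
  rw [h, map_zero]

theorem m2_m1 (n : ℕ) : m2 k n ≫ m1 k n = 0 := by
  apply hom_ext_act
  intro u
  rw [act_comp, act_zero_hom, act_m2, act_m1]
  have h1 := fun a => (exP2_HH k (n := (n : ℤ)) u a).1
  have h2 := fun a => (exP2_HH k (n := (n : ℤ)) u a).2
  rw [exP1_reP1 k (fun a => (L2_HH k h1 h2 a).1) (fun a => (L2_HH k h1 h2 a).2)]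
  have h : L1 k (L2 k n (exP2 k n u)) = 0 := dl1_dl2 h1 h2
  rw [h, map_zero]

theorem K_dd (n i : ℕ) : dPP k n (i + 1) ≫ dPP k n i = 0 := by
  match i with
  | 0 => exact m2_m1 k n
  | 1 => exact m3_m2 k n
  | 2 => exact Limits.zero_comp
  | i + 3 => exact Limits.zero_comp

end P195S

end
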