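import Vale.Agent.P195S.DualQ
import Vale.Agent.P195R.Tgt

/-!
# P195: the targets `T v`
-/

noncomputable section

namespace P195S.Du

open CategoryTheory P195A P195A.RS P195E P195E.FOb P195D

variable (k : Type) [Field k] [CharZero k]

theorem tgt_TY (v : Option (Fin 5)) : Vale.Agent.P195R.Tgt (TY k v) := by
  rcases v with _ | i
  · exact Vale.Agent.P195R.tgt_O (by norm_num) (by norm_num) (by norm_num) (by norm_num)
  · fin_cases i
    · exact Vale.Agent.P195R.tgt_O (a := 0) (b := 0) (by norm_num) (by norm_num) (by norm_num)
        (by norm_num)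
    · exact Vale.Agent.P195R.tgt_O (a := 0) (b := 1) (by norm_num) (by norm_num) (by norm_num)
        (by norm_num)
    · exact Vale.Agent.P195R.tgt_FF
    · exact Vale.Agent.P195R.tgt_KK
    · exact Vale.Agent.P195R.tgt_O (a := 0) (b := 2) (by norm_num) (by norm_num) (by norm_num)
        (by norm_num)

end P195S.Du

end
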