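import Vale.Agent.P195S.Cx
import Vale.Agent.P195E.FilV

/-!
# P195: the maps of PP(n), QQ respect the filtrations: coordinates
-/

noncomputable section

namespace P195S

open CategoryTheory P195A P195A.RS P195E P195E.FOb P195D

section base

variable {k : Type} [Field k]

theorem ex_same {m : ℤ} (c : Ix m → Wo k) (i : Ix m) : ex m c i.1 = c i := by
  unfold ex
  rw [LinearMap.sum_apply, Finsupp.finsetSum_apply, Finset.sum_eq_single i]
  · simp only [LinearMap.comp_apply, LinearMap.proj_apply, Finsupp.lsingle_apply,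
      Finsupp.single_eq_same]
  · intro j _ hj
    simp only [LinearMap.comp_apply, LinearMap.proj_apply, Finsupp.lsingle_apply]
    exact Finsupp.single_eq_of_ne fun h => hj (Subtype.ext h.symm)
  · intro h
    exact absurd (Finset.mem_univ _) h

theorem ex_ne {m : ℤ} (c : Ix m → Wo k) (p : ℕ × ℕ) (h : (p.1 : ℤ) + p.2 ≠ m) :
    ex m c p = 0 := by
  unfold ex
  rw [LinearMap.sum_apply, Finsupp.finsetSum_apply]
  refine Finset.sum_eq_zero fun j _ => ?_
  simp only [LinearMap.comp_apply, LinearMap.proj_apply, Finsupp.lsingle_apply]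
  refine Finsupp.single_eq_of_ne fun h' => h ?_
  rw [h']
  exact j.2

theorem re_at {m : ℤ} (v : Vy (Wo k)) (i : Ix m) : re m v i = v i.1 := rfl

theorem re_ex {m : ℤ} (c : Ix m → Wo k) : re m (ex m c) = c := by
  funext i
  rw [re_at, ex_same]

theorem ex_re {m : ℤ} {v : Vy (Wo k)} (h : ∀ p : ℕ × ℕ, (p.1 : ℤ) + p.2 ≠ m → v p = 0) :
    ex m (re m v) = v := by
  ext1 p
  by_cases hp : (p.1 : ℤ) + p.2 = m
  · exact ex_same (re m v) ⟨p, hp⟩
  · rw [ex_ne _ p hp, h p hp]

theorem HH_supp {m : ℤ} {v : Vy (Wo k)} (hv : v ∈ HH k (Wo k) m) (p : ℕ × ℕ)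
    (hp : (p.1 : ℤ) + p.2 ≠ m) : v p = 0 :=
  HH_map (Q := (⊥ : Submodule k (Wo k))) (Finsupp.lapply p) (fun i j u hij => by
    rw [Finsupp.lapply_apply, Finsupp.single_apply, if_neg]
    · exact Submodule.zero_mem _
    · intro h
      refine hp ?_
      rw [← h]
      exact hij) hv

theorem ex_reH {m : ℤ} {v : Vy (Wo k)} (hv : v ∈ HH k (Wo k) m) : ex m (re m v) = v :=
  ex_re (HH_supp hv)

theorem ex_HH {m : ℤ} (c : Ix m → Wo k) : ex m c ∈ HH k (Wo k) m := by
  unfold ex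
  rw [LinearMap.sum_apply]
  refine Submodule.sum_mem _ fun i _ => ?_
  exact HH_single _ i.2

theorem ex_VV [CharZero k] {m w d : ℤ} (c : Ix m → Wo k) :
    ex m c ∈ (primal k).VV m w d ↔ ∀ i, c i ∈ Dg k w d := by
  rw [mem_VV_iff]
  constructor
  · intro h i
    have h1 := (h i.1.1 i.1.2).1
    rw [← ex_same c i]
    exact h1
  · intro h i j
    by_cases hp : (i : ℤ) + j = m
    · refine ⟨?_, fun h' => absurd hp h'⟩
      have h1 := ex_same c ⟨(i, j), hp⟩
      rw [h1]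
      exact h _
    · rw [ex_ne c (i, j) hp]
      exact ⟨Submodule.zero_mem _, fun _ => rfl⟩

end base

variable (k : Type) [Field k] [CharZero k]

theorem mem_OS {m a b w d : ℤ} {u : (OS k m a b).I → Wo k} :
    u ∈ (OS k m a b).filt w d ↔ exS k m a b u ∈ (primal k).VV m (a - w) (b - d) := by
  refine Iff.trans (cop_mem_iff (m := Ix m) (E := O k a b)) ?_
  refine Iff.trans ?_ (ex_VV (k := k) (fun i => u (i, ()))).symm
  exact forall_congr' fun i => O_mem_iff

/-! ### extension and restriction are inverse -/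

theorem exS_reS {m a b : ℤ} {v : Vy (Wo k)} (hv : v ∈ HH k (Wo k) m) :
    exS k m a b (reS k m a b v) = v := ex_reH hv

theorem reS_exS {m a b : ℤ} (u : (OS k m a b).I → Wo k) : reS k m a b (exS k m a b u) = u := by
  funext i
  exact congrFun (re_ex (k := k) (m := m) fun i => u (i, ())) i.1

theorem exP2_reP2 {n : ℤ} {q : QV k} (h1 : ∀ a, q.1 a ∈ HH k (Wo k) (n - 1))
    (h2 : ∀ a, q.2 a ∈ HH k (Wo k) (n + 1)) : exP2 k n (reP2 k n q) = q := by
  refine Prod.ext ?_ ?_
  · funext a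
    exact ex_reH (h1 a)
  · funext a
    exact ex_reH (h2 a)

theorem reP2_exP2 {n : ℤ} (u : (P2 k n).I → Wo k) : reP2 k n (exP2 k n u) = u := by
  funext i
  obtain ⟨⟨i, a⟩, b⟩ | ⟨⟨i, a⟩, b⟩ := i
  · exact congrFun (re_ex (k := k) (m := n - 1) fun i => u (Sum.inl ((i, a), ()))) i
  · exact congrFun (re_ex (k := k) (m := n + 1) fun i => u (Sum.inr ((i, a), ()))) i

theorem exP1_reP1 {n : ℤ} {q : QV k} (h1 : ∀ a, q.1 a ∈ HH k (Wo k) (n - 1))
    (h2 : ∀ a, q.2 a ∈ HH k (Wo k) (n + 1)) : exP1 k n (reP1 k n q) = q := by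
  refine Prod.ext ?_ ?_
  · funext a
    exact ex_reH (h1 a)
  · funext a
    exact ex_reH (h2 a)

theorem reP1_exP1 {n : ℤ} (u : (P1 k n).I → Wo k) : reP1 k n (exP1 k n u) = u := by
  funext i
  obtain ⟨i, a⟩ | ⟨i, a⟩ := i
  · exact congrFun (re_ex (k := k) (m := n - 1) fun i => u (Sum.inl (i, a))) i
  · exact congrFun (re_ex (k := k) (m := n + 1) fun i => u (Sum.inr (i, a))) i

theorem exS_HH {m a b : ℤ} (u : (OS k m a b).I → Wo k) : exS k m a b u ∈ HH k (Wo k) m :=
  ex_HH _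

theorem exP2_HH {n : ℤ} (u : (P2 k n).I → Wo k) (a : Fin 2) :
    (exP2 k n u).1 a ∈ HH k (Wo k) (n - 1) ∧ (exP2 k n u).2 a ∈ HH k (Wo k) (n + 1) :=
  ⟨ex_HH _, ex_HH _⟩

theorem exP1_HH {n : ℤ} (u : (P1 k n).I → Wo k) (a : Fin 2) :
    (exP1 k n u).1 a ∈ HH k (Wo k) (n - 1) ∧ (exP1 k n u).2 a ∈ HH k (Wo k) (n + 1) :=
  ⟨ex_HH _, ex_HH _⟩

theorem mem_P2 {n w d : ℤ} {u : (P2 k n).I → Wo k} :
    u ∈ (P2 k n).filt w d ↔ (∀ a, (exP2 k n u).1 a ∈ (primal k).VV (n - 1) (-w) (1 - d)) ∧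
      ∀ a, (exP2 k n u).2 a ∈ (primal k).VV (n + 1) (-w) (1 - d) := by
  have e : (-w : ℤ) = 0 - w := by ring
  rw [e]
  have h1 : (∀ a, (exP2 k n u).1 a ∈ (primal k).VV (n - 1) (0 - w) (1 - d)) ↔
      ∀ s : Ix (n - 1) × Fin 2, (fun i => u (Sum.inl (s, i))) ∈ (O k 0 1).filt w d := by
    constructor
    · rintro h ⟨i, a⟩
      exact O_mem_iff.2 ((ex_VV (k := k) (fun i => u (Sum.inl ((i, a), ())))).1 (h a) i)
    · intro h a
      exact (ex_VV (k := k) (fun i => u (Sum.inl ((i, a), ())))).2 fun i =>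
        O_mem_iff.1 (h (i, a))
  have h2 : (∀ a, (exP2 k n u).2 a ∈ (primal k).VV (n + 1) (0 - w) (1 - d)) ↔
      ∀ s : Ix (n + 1) × Fin 2, (fun i => u (Sum.inr (s, i))) ∈ (O k 0 1).filt w d := by
    constructor
    · rintro h ⟨i, a⟩
      exact O_mem_iff.2 ((ex_VV (k := k) (fun i => u (Sum.inr ((i, a), ())))).1 (h a) i)
    · intro h a
      exact (ex_VV (k := k) (fun i => u (Sum.inr ((i, a), ())))).2 fun i =>
        O_mem_iff.1 (h (i, a))
  rw [h1, h2]
  exact Iff.rfl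

/-- coefficients of polynomials in `F` -/
theorem mem_copF {m w d : ℤ} {u : Ix m × Fin 2 → Wo k} :
    (∀ s : Ix m, (fun i => u (s, i)) ∈ (FF k 0 0).filt w d) ↔
      ∃ g : Fin 2 → Vy (Wo k), ∃ r : Vy (Wo k), (∀ a, g a ∈ (primal k).VV m (-w) (1 - d)) ∧
        r ∈ (primal k).VV m (-1 - w) (2 - d) ∧ exP m u = g + (primal k).psi1 r := by
  constructor
  · intro h
    obtain ⟨g, r, hr, hg, e⟩ := F_split (k := k) (m := m) (a := w) (b := d) (g := exP m u)
      (fun i j => by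
        by_cases hp : (i : ℤ) + j = m
        · have h1 := h ⟨(i, j), hp⟩
          have h2 : (fun c : Fin 2 => exP m u c (i, j)) = fun c => u (⟨(i, j), hp⟩, c) := by
            funext c
            exact ex_same (fun i => u (i, c)) ⟨(i, j), hp⟩
          rw [h2]
          exact h1
        · have h2 : (fun c : Fin 2 => exP m u c (i, j)) = 0 := by
            funext c
            exact ex_ne (fun i => u (i, c)) (i, j) hp
          rw [h2]
          exact Submodule.zero_mem _)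
      (fun c i j hp => ex_ne (fun i => u (i, c)) (i, j) hp)
    refine ⟨g, r, hg, ?_, ?_⟩
    · rw [show (-1 : ℤ) - w = -w - 1 by ring]
      exact hr
    · funext c
      exact e c
  · rintro ⟨g, r, hg, hr, e⟩ s
    have hr' : r ∈ (primal k).VV m (-w - 1) (2 - d) := by
      rw [show -w - 1 = (-1 : ℤ) - w by ring]
      exact hr
    have h1 := F_join (k := k) (m := m) (a := w) (b := d) hr' hg s.1.1 s.1.2
    have h2 : (fun c : Fin 2 => (g c + lf ((primal k).X c) r) (s.1.1, s.1.2)) =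
        fun c => u (s, c) := by
      funext c
      have h3 : exP m u c = g c + lf ((primal k).X c) r := congrFun e c
      rw [← h3]
      exact ex_same (fun i => u (i, c)) s
    rw [h2] at h1
    exact h1

/-- coefficients of polynomials in `K` -/
theorem mem_copK {m w d : ℤ} {u : Ix m × Fin 2 → Wo k} :
    (∀ s : Ix m, (fun i => u (s, i)) ∈ (KK k 0 0).filt w d) ↔
      ∃ g : Fin 2 → Vy (Wo k), ∃ r : Vy (Wo k), (∀ a, g a ∈ (primal k).VV m (-w) (1 - d)) ∧
        r ∈ (primal k).VV m (1 - w) (1 - d) ∧ exP m u = g + (primal k).psi2 r := by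
  constructor
  · intro h
    obtain ⟨g, r, hr, hg, e⟩ := K_split (k := k) (m := m) (a := w) (b := d) (g := exP m u)
      (fun i j => by
        by_cases hp : (i : ℤ) + j = m
        · have h1 := h ⟨(i, j), hp⟩
          have h2 : (fun c : Fin 2 => exP m u c (i, j)) = fun c => u (⟨(i, j), hp⟩, c) := by
            funext c
            exact ex_same (fun i => u (i, c)) ⟨(i, j), hp⟩
          rw [h2]
          exact h1
        · have h2 : (fun c : Fin 2 => exP m u c (i, j)) = 0 := by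
            funext c
            exact ex_ne (fun i => u (i, c)) (i, j) hp
          rw [h2]
          exact Submodule.zero_mem _)
      (fun c i j hp => ex_ne (fun i => u (i, c)) (i, j) hp)
    refine ⟨g, r, hg, ?_, ?_⟩
    · rw [show (1 : ℤ) - w = -w + 1 by ring]
      exact hr
    · funext c
      exact e c
  · rintro ⟨g, r, hg, hr, e⟩ s
    have hr' : r ∈ (primal k).VV m (-w + 1) (1 - d) := by
      rw [show -w + 1 = (1 : ℤ) - w by ring]
      exact hr
    have h1 := K_join (k := k) (m := m) (a := w) (b := d) hr' hg s.1.1 s.1.2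
    have h2 : (fun c : Fin 2 => (g c + lf ((primal k).D c) r) (s.1.1, s.1.2)) =
        fun c => u (s, c) := by
      funext c
      have h3 : exP m u c = g c + lf ((primal k).D c) r := congrFun e c
      rw [← h3]
      exact ex_same (fun i => u (i, c)) s
    rw [h2] at h1
    exact h1

theorem mem_P1 {n w d : ℤ} {u : (P1 k n).I → Wo k} :
    u ∈ (P1 k n).filt w d ↔ ∃ g h : Fin 2 → Vy (Wo k), ∃ r s : Vy (Wo k),
      (∀ a, g a ∈ (primal k).VV (n - 1) (-w) (1 - d)) ∧
      (∀ a, h a ∈ (primal k).VV (n + 1) (-w) (1 - d)) ∧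
      r ∈ (primal k).VV (n - 1) (-1 - w) (2 - d) ∧ s ∈ (primal k).VV (n + 1) (1 - w) (1 - d) ∧
      exP1 k n u = (g + (primal k).psi1 r, h + (primal k).psi2 s) := by
  have h0 : u ∈ (P1 k n).filt w d ↔
      (∀ s : Ix (n - 1), (fun i => u (Sum.inl (s, i))) ∈ (FF k 0 0).filt w d) ∧
      (∀ s : Ix (n + 1), (fun i => u (Sum.inr (s, i))) ∈ (KK k 0 0).filt w d) := Iff.rfl
  rw [h0]
  have h1 := mem_copF k (m := n - 1) (w := w) (d := d)
    (u := fun t : Ix (n - 1) × Fin 2 => u (Sum.inl t))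
  have h2 := mem_copK k (m := n + 1) (w := w) (d := d)
    (u := fun t : Ix (n + 1) × Fin 2 => u (Sum.inr t))
  constructor
  · rintro ⟨a1, a2⟩
    obtain ⟨g, r, hg, hr, e⟩ := h1.1 a1
    obtain ⟨h, s, hh, hs, e'⟩ := h2.1 a2
    exact ⟨g, h, r, s, hg, hh, hr, hs, Prod.ext e e'⟩
  · rintro ⟨g, h, r, s, hg, hh, hr, hs, e⟩
    exact ⟨h1.2 ⟨g, r, hg, hr, congrArg Prod.fst e⟩, h2.2 ⟨h, s, hh, hs, congrArg Prod.snd e⟩⟩

end P195S

end
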