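import Vale.Agent.P195S.MemA
import Vale.Agent.P195M.Memb

/-!
# P195: the maps of `PP(n)`, `QQ` respect the filtrations
-/

noncomputable section

namespace P195S

open CategoryTheory P195A P195A.RS P195E P195E.FOb P195D

variable (k : Type) [Field k] [CharZero k]

/-! ### the maps -/

theorem P1_PF {n : ℤ} {a b : ℤ} {u : (P1 k n).I → Wo k} (hu : u ∈ (P1 k n).filt a b) :
    (primal k).PF (n - 1) (-a) (2 - b) (exP1 k n u).1 ∧
      (primal k).PK (n + 1) (-a) (2 - b) (exP1 k n u).2 := by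
  obtain ⟨g, h, r, s, hg, hh, hr, hs, e⟩ := (mem_P1 k).1 hu
  rw [e]
  exact ⟨⟨g, r, fun i => VV_cst (hg i) rfl rfl (by ring), VV_cst hr rfl (by ring) rfl, rfl⟩,
    ⟨h, s, fun i => VV_cst (hh i) rfl rfl (by ring), VV_cst hs rfl (by ring) (by ring), rfl⟩⟩

theorem P1_of_PF {n : ℤ} {a b : ℤ} {q : QV k} (h1 : (primal k).PF (n - 1) (-a) (2 - b) q.1)
    (h2 : (primal k).PK (n + 1) (-a) (2 - b) q.2) : reP1 k n q ∈ (P1 k n).filt a b := by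
  rw [mem_P1, exP1_reP1 k h1.HH h2.HH]
  obtain ⟨g, r, hg, hr, e1⟩ := h1
  obtain ⟨h, s, hh, hs, e2⟩ := h2
  exact ⟨g, h, r, s, fun i => VV_cst (hg i) rfl rfl (by ring),
    fun i => VV_cst (hh i) rfl rfl (by ring), VV_cst hr rfl (by ring) rfl,
    VV_cst hs rfl (by ring) (by ring), Prod.ext e1 e2⟩

theorem P2_OQ {n : ℤ} {a b : ℤ} {u : (P2 k n).I → Wo k} (hu : u ∈ (P2 k n).filt a b) :
    (primal k).OQ n (-a) (2 - b) (exP2 k n u).1 (exP2 k n u).2 := by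
  obtain ⟨h1, h2⟩ := (mem_P2 k).1 hu
  exact ⟨fun i => VV_cst (h1 i) rfl rfl (by ring), fun i => VV_cst (h2 i) rfl rfl (by ring)⟩

theorem P2_of_OQ {n : ℤ} {a b : ℤ} {q : QV k} (h : (primal k).OQ n (-a) (2 - b) q.1 q.2) :
    reP2 k n q ∈ (P2 k n).filt a b := by
  rw [mem_P2, exP2_reP2 k (fun i => VV_HH (h.1 i)) (fun i => VV_HH (h.2 i))]
  exact ⟨fun i => VV_cst (h.1 i) rfl rfl (by ring), fun i => VV_cst (h.2 i) rfl rfl (by ring)⟩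

theorem OS_of_VV {m c e a b : ℤ} {v : Vy (Wo k)} (h : v ∈ (primal k).VV m (c - a) (e - b)) :
    reS k m c e v ∈ (OS k m c e).filt a b := by
  rw [mem_OS, exS_reS k (VV_HH h)]
  exact h

theorem wl3_mem (n : ℕ) (a b : ℤ) (u : (OS k n 0 0).I → Wo k) (hu : u ∈ (OS k n 0 0).filt a b) :
    wl3 k n u ∈ (P2 k n).filt a b := by
  have h := (mem_OS k).1 hu
  have h' : exS k n 0 0 u ∈ (primal k).VV n (-a) (2 - b - 2) :=
    VV_cst h rfl (by ring) (by ring)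
  exact P2_of_OQ k (dl3_memb h')

theorem wl2_mem (n : ℕ) (a b : ℤ) (u : (P2 k n).I → Wo k) (hu : u ∈ (P2 k n).filt a b) :
    wl2 k n u ∈ (P1 k n).filt a b :=
  P1_of_PF k (q := L2 k n (exP2 k n u)) (dl2a_memb (P2_OQ k hu)) (dl2b_memb (P2_OQ k hu))

theorem wl1_mem (n : ℕ) (a b : ℤ) (u : (P1 k n).I → Wo k) (hu : u ∈ (P1 k n).filt a b) :
    wl1 k n u ∈ (OS k n 0 2).filt a b := by
  obtain ⟨h1, h2⟩ := P1_PF k hu
  exact OS_of_VV k (VV_cst (dl1_memb h1 h2) rfl (by ring) (by ring))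

theorem cl3_mem (n : ℕ) (a b : ℤ) (u : (OS k ((n + 1 : ℕ) : ℤ) 0 0).I → Wo k)
    (hu : u ∈ (OS k ((n + 1 : ℕ) : ℤ) 0 0).filt a b) :
    cl3 k n u ∈ (OS k n 0 0).filt (a - 1) (b - 1) := by
  have h := (mem_OS k).1 hu
  have h' : exS k ((n + 1 : ℕ) : ℤ) 0 0 u ∈ (primal k).VV ((n : ℤ) + 1) (-a) (2 - b - 2) :=
    VV_cst h (by push_cast; ring) (by ring) (by ring)
  exact OS_of_VV k (Submodule.smul_mem _ _ (VV_cst (cc3_memb h') rfl (by ring) (by ring)))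

theorem cl2_mem (n : ℕ) (a b : ℤ) (u : (P2 k ((n + 1 : ℕ) : ℤ)).I → Wo k)
    (hu : u ∈ (P2 k ((n + 1 : ℕ) : ℤ)).filt a b) :
    cl2 k n u ∈ (P2 k n).filt (a - 1) (b - 1) := by
  have h := P2_OQ k hu
  have h' : (primal k).OQ ((n : ℤ) + 1) (-a) (2 - b) (exP2 k ((n + 1 : ℕ) : ℤ) u).1
      (exP2 k ((n + 1 : ℕ) : ℤ) u).2 :=
    ⟨fun i => VV_cst (h.1 i) (by push_cast; ring) rfl rfl,
      fun i => VV_cst (h.2 i) (by push_cast; ring) rfl rfl⟩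
  have h2 := cc2_memb h'
  exact P2_of_OQ k (q := M2 k n (exP2 k ((n + 1 : ℕ) : ℤ) u))
    ⟨fun i => VV_cst (h2.1 i) rfl (by ring) (by ring),
      fun i => VV_cst (h2.2 i) rfl (by ring) (by ring)⟩

theorem PF_cst {S : RS k (Wo k) (Rx k)} {m m' w w' d d' : ℤ} {q : Fin 2 → Vy (Wo k)}
    (h : S.PF m w d q) (hm : m = m') (hw : w = w') (hd : d = d') : S.PF m' w' d' q := by
  subst hm hw hd
  exact h

theorem PK_cst {S : RS k (Wo k) (Rx k)} {m m' w w' d d' : ℤ} {q : Fin 2 → Vy (Wo k)}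
    (h : S.PK m w d q) (hm : m = m') (hw : w = w') (hd : d = d') : S.PK m' w' d' q := by
  subst hm hw hd
  exact h

theorem cl1_mem (n : ℕ) (a b : ℤ) (u : (P1 k ((n + 1 : ℕ) : ℤ)).I → Wo k)
    (hu : u ∈ (P1 k ((n + 1 : ℕ) : ℤ)).filt a b) :
    cl1 k n u ∈ (P1 k n).filt (a - 1) (b - 1) := by
  obtain ⟨h1, h2⟩ := P1_PF k hu
  have h1' := PF_cst k (m' := (n : ℤ)) h1 (by push_cast; ring) rfl rfl
  have h2' := PK_cst k (m' := (n : ℤ) + 2) h2 (by push_cast; ring) rfl rfl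
  exact P1_of_PF k (q := M1 k n (exP1 k ((n + 1 : ℕ) : ℤ) u))
    (PF_cst k (cc1a_memb h1' (exP1 k ((n + 1 : ℕ) : ℤ) u).2) rfl (by ring) (by ring))
    (PK_cst k (cc1b_memb h1' h2') rfl (by ring) (by ring))

theorem cl0_mem (n : ℕ) (a b : ℤ) (u : (OS k ((n + 1 : ℕ) : ℤ) 0 2).I → Wo k)
    (hu : u ∈ (OS k ((n + 1 : ℕ) : ℤ) 0 2).filt a b) :
    cl0 k n u ∈ (OS k n 0 2).filt (a - 1) (b - 1) := by
  have h := (mem_OS k).1 hu
  have h' : exS k ((n + 1 : ℕ) : ℤ) 0 2 u ∈ (primal k).VV ((n : ℤ) + 1) (-a) (2 - b) :=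
    VV_cst h (by push_cast; ring) (by ring) (by ring)
  exact OS_of_VV k (Submodule.smul_mem _ _ (VV_cst (cc0_memb h') rfl (by ring) (by ring)))

end P195S

end
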