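import Vale.Agent.P195S.Cx
import Vale.Agent.P195E.QQMor

/-!
# P195: the maps of `QQ` and `c_(-1)` respect the filtrations
-/

noncomputable section

namespace P195S

open CategoryTheory P195A P195A.RS P195E P195E.FOb P195D

section

variable {k : Type} [Field k]

/-- the exponent of an index -/
def vx {m : ℤ} (i : Ix m) : ℕ × ℕ := Subtype.val i

theorem ex_app {m : ℤ} (u : Ix m → Wo k) (p : ℕ × ℕ) (h : (p.1 : ℤ) + p.2 = m) :
    ex m u p = u ⟨p, h⟩ := by
  have h1 : ex m u = ∑ i : Ix m, Finsupp.single (vx i) (u i) := by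
    unfold ex
    rw [LinearMap.sum_apply]
    rfl
  rw [h1, Finsupp.finsetSum_apply]
  refine (Finset.sum_eq_single (⟨p, h⟩ : Ix m) ?_ ?_).trans ?_
  · intro i _ hi
    refine Finsupp.single_eq_of_ne ?_
    intro h2
    exact hi (Subtype.ext h2.symm)
  · intro h2
    exact absurd (@Finset.mem_univ (Ix m) _ ⟨p, h⟩) h2
  · exact Finsupp.single_eq_same

variable [CharZero k]

theorem g0_00 (v : Vy (Wo k)) : (primal k).g0 v (0, 0) = v (1, 0) * xo k 0 + v (0, 1) * xo k 1 := by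
  induction v using Finsupp.induction_linear with
  | zero =>
    rw [map_zero]
    simp
  | add v w hv hw =>
    rw [map_add, Finsupp.add_apply, hv, hw, Finsupp.add_apply, Finsupp.add_apply, add_mul, add_mul]
    abel
  | single p u =>
    obtain ⟨i, j⟩ := p
    rw [g0_apply, q0_single, q1_single, map_smul, map_smul, lf_single, lf_single]
    rw [Finsupp.add_apply, Finsupp.smul_apply, Finsupp.smul_apply]
    have e0 : (i : k) • (Finsupp.single (i - 1, j) ((primal k).X 0 u) : Vy (Wo k)) (0, 0)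
        = (Finsupp.single (i, j) u : Vy (Wo k)) (1, 0) * xo k 0 := by
      rcases i with _ | _ | i
      · have h0 : (Finsupp.single (0, j) u : Vy (Wo k)) (1, 0) = 0 :=
          Finsupp.single_eq_of_ne (by simp)
        rw [h0]
        simp
      · rcases j with _ | j
        · simp
        · rw [Finsupp.single_eq_of_ne (by simp), Finsupp.single_eq_of_ne (by simp)]
          simp
      · rw [Finsupp.single_eq_of_ne (by simp), Finsupp.single_eq_of_ne (by simp)]
        simp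
    have e1 : (j : k) • (Finsupp.single (i, j - 1) ((primal k).X 1 u) : Vy (Wo k)) (0, 0)
        = (Finsupp.single (i, j) u : Vy (Wo k)) (0, 1) * xo k 1 := by
      rcases j with _ | _ | j
      · have h0 : (Finsupp.single (i, 0) u : Vy (Wo k)) (0, 1) = 0 :=
          Finsupp.single_eq_of_ne (by simp)
        rw [h0]
        simp
      · rcases i with _ | i
        · simp
        · rw [Finsupp.single_eq_of_ne (by simp), Finsupp.single_eq_of_ne (by simp)]
          simp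
      · rw [Finsupp.single_eq_of_ne (by simp), Finsupp.single_eq_of_ne (by simp)]
        simp
    rw [e0, e1]

/-! ### filtrations of the terms, in coordinates -/

theorem OS_coe {m a b w d : ℤ} {u : (OS k m a b).I → Wo k} (hu : u ∈ (OS k m a b).filt w d)
    (p : ℕ × ℕ) (h : (p.1 : ℤ) + p.2 = m) : exS k m a b u p ∈ Dg k (a - w) (b - d) := by
  have h1 : exS k m a b u p = u (⟨p, h⟩, ()) := ex_app _ p h
  rw [h1]
  exact O_mem_iff.1 (hu ⟨p, h⟩)

theorem P2_coe {n w d : ℤ} {u : (P2 k n).I → Wo k} (hu : u ∈ (P2 k n).filt w d) (a : Fin 2)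
    (p : ℕ × ℕ) (h : (p.1 : ℤ) + p.2 = n + 1) :
    (exP2 k n u).2 a p ∈ Dg k (0 - w) (1 - d) := by
  have h1 : (exP2 k n u).2 a p = u (Sum.inr ((⟨p, h⟩, a), ())) := ex_app _ p h
  rw [h1]
  exact O_mem_iff.1 (hu.2 (⟨p, h⟩, a))

theorem P1_coe {n w d : ℤ} {u : (P1 k n).I → Wo k} (hu : u ∈ (P1 k n).filt w d)
    (p : ℕ × ℕ) (h : (p.1 : ℤ) + p.2 = n + 1) :
    (fun a => (exP1 k n u).2 a p) ∈ (FOb.KK k 0 0).filt w d := by
  have h1 : (fun a => (exP1 k n u).2 a p) = fun a : Fin 2 => u (Sum.inr (⟨p, h⟩, a)) := by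
    funext a
    exact ex_app _ p h
  rw [h1]
  exact hu.2 ⟨p, h⟩

variable (k)

omit [CharZero k] in
theorem ql3_mem (a b : ℤ) (u : (O k (-1) 2).I → Wo k) (hu : u ∈ (O k (-1) 2).filt a b) :
    ql3 k u ∈ (FOb.FF k 0 0).filt a b := by
  have h := (qA k).2 a b u hu
  have h1 := qA_act (k := k) u
  rw [h1] at h
  exact h

omit [CharZero k] in
theorem ql2_mem (a b : ℤ) (u : (FOb.FF k 0 0).I → Wo k) (hu : u ∈ (FOb.FF k 0 0).filt a b) :
    ql2 k u ∈ (FOb.KK k 0 0).filt a b := by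
  have h := (qB k).2 a b u hu
  have h1 := qB_act (k := k) u
  rw [h1] at h
  exact h

omit [CharZero k] in
theorem ql1_mem (a b : ℤ) (u : (FOb.KK k 0 0).I → Wo k) (hu : u ∈ (FOb.KK k 0 0).filt a b) :
    ql1 k u ∈ (O k (-1) 2).filt a b := by
  have h := (qC k).2 a b u hu
  have h1 := qC_act (k := k) u
  rw [h1] at h
  have h2 : ql1 k u = fun _ => -qc k u := by
    funext i
    show u (1 : Fin 2) * po k 0 - u (0 : Fin 2) * po k 1
      = -(u (0 : Fin 2) * po k 1 - u (1 : Fin 2) * po k 0)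
    rw [neg_sub]
  rw [h2]
  exact h

theorem bl3_mem (a b : ℤ) (u : (OS k (0 : ℕ) 0 0).I → Wo k)
    (hu : u ∈ (OS k (0 : ℕ) 0 0).filt a b) : bl3 k u ∈ (O k (-1) 2).filt (a - 1) (b - 1) := by
  apply O_mem_iff.2
  exact Dg_mono (by omega) (Dg_cast (OS_coe hu (0, 0) (by norm_num)) (by ring) rfl)

theorem bl0_mem (a b : ℤ) (u : (OS k (0 : ℕ) 0 2).I → Wo k)
    (hu : u ∈ (OS k (0 : ℕ) 0 2).filt a b) : bl0 k u ∈ (O k (-1) 2).filt (a - 1) (b - 1) := by
  apply O_mem_iff.2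
  exact Dg_mono (by omega) (Dg_cast (OS_coe hu (0, 0) (by norm_num)) (by ring) rfl)

theorem bl2_mem (a b : ℤ) (u : (P2 k (0 : ℕ)).I → Wo k)
    (hu : u ∈ (P2 k (0 : ℕ)).filt a b) : bl2 k u ∈ (FOb.FF k 0 0).filt (a - 1) (b - 1) := by
  have key : ∀ c : Fin 2, (primal k).g0 ((exP2 k (0 : ℕ) u).2 c) (0, 0) ∈ Dg k (1 - a) (1 - b) := by
    intro c
    rw [g0_00]
    refine Submodule.add_mem _ ?_ ?_
    · exact Dg_cast (Dg_mul (P2_coe hu c (1, 0) (by norm_num)) (xo_mem_Dg 0)) (by ring) (by ring)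
    · exact Dg_cast (Dg_mul (P2_coe hu c (0, 1) (by norm_num)) (xo_mem_Dg 1)) (by ring) (by ring)
  refine FF_mem_iff.2 ⟨-((primal k).g0 ((exP2 k (0 : ℕ) u).2 1) (0, 0)),
    (primal k).g0 ((exP2 k (0 : ℕ) u).2 0) (0, 0), 0, ?_, ?_, Submodule.zero_mem _, ?_, ?_⟩
  · exact Submodule.neg_mem _ (Dg_mono (by omega) (Dg_cast (key 1) (by ring) rfl))
  · exact Dg_mono (by omega) (Dg_cast (key 0) (by ring) rfl)
  · rw [zero_mul, add_zero]
    rfl
  · rw [zero_mul, add_zero]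
    rfl

omit [CharZero k] in
theorem KK_mul_x {w d : ℤ} {u : Fin 2 → Wo k} (hu : u ∈ (FOb.KK k 0 0).filt w d) (c : Fin 2) :
    ∃ (A : Fin 2 → Wo k) (C : Wo k), (∀ l, A l ∈ Dg k (1 - w) (2 - d)) ∧ C ∈ Dg k (2 - w) (2 - d) ∧
      ∀ l, u l * xo k c = A l + C * po k l := by
  obtain ⟨A, C, hA, hC, h⟩ := KK_mem.1 hu
  refine ⟨fun l => A l * xo k c + if l = c then C else 0, C * xo k c, fun l => ?_, ?_, fun l => ?_⟩
  · refine Submodule.add_mem _ ?_ ?_
    · exact Dg_mono (by omega) (Dg_cast (Dg_mul (hA l) (xo_mem_Dg c)) (by ring)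
        (show _ = -d + 1 by ring))
    · split_ifs
      · exact Dg_mono (by omega) (Dg_cast hC (by ring) (show _ = -d + 1 by ring))
      · exact Submodule.zero_mem _
  · exact Dg_mono (by omega) (Dg_cast (Dg_mul hC (xo_mem_Dg c)) (by ring)
      (show _ = -d + 1 by ring))
  · have h1 : po k l * xo k c = xo k c * po k l + if l = c then 1 else 0 := po_mul_xo l c
    show u l * xo k c = A l * xo k c + (if l = c then C else 0) + C * xo k c * po k l
    rw [h l, add_mul, mul_assoc C, mul_assoc C, h1, mul_add]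
    split_ifs
    · rw [mul_one]
      abel
    · rw [mul_zero]
      abel

theorem bl1_mem (a b : ℤ) (u : (P1 k (0 : ℕ)).I → Wo k)
    (hu : u ∈ (P1 k (0 : ℕ)).filt a b) : bl1 k u ∈ (FOb.KK k 0 0).filt (a - 1) (b - 1) := by
  obtain ⟨A, C, hA, hC, h⟩ := KK_mul_x k (P1_coe hu (1, 0) (by norm_num)) 0
  obtain ⟨A', C', hA', hC', h'⟩ := KK_mul_x k (P1_coe hu (0, 1) (by norm_num)) 1
  have e : ∀ l : Fin 2, bl1 k u l = -(A l + A' l) + -(C + C') * po k l := by
    intro l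
    show -((primal k).g0 ((exP1 k (0 : ℕ) u).2 l) (0, 0)) = _
    rw [g0_00, h l, h' l, wo_neg_mul, add_mul]
    abel
  refine KK_mem_iff.2 ⟨-(A 0 + A' 0), -(A 1 + A' 1), -(C + C'), ?_, ?_, ?_, e 0, e 1⟩
  · exact Submodule.neg_mem _ (Dg_cast (Submodule.add_mem _ (hA 0) (hA' 0)) (by ring) (by ring))
  · exact Submodule.neg_mem _ (Dg_cast (Submodule.add_mem _ (hA 1) (hA' 1)) (by ring) (by ring))
  · exact Submodule.neg_mem _ (Dg_cast (Submodule.add_mem _ hC hC') (by ring) (by ring))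

end

end P195S

end
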