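import Vale.Agent.P195S.Mem

/-!
# P195: the complexes `PP(n)`, `QQ` and the comparison maps
-/

noncomputable section

namespace P195S

open CategoryTheory P195A P195A.RS P195E P195E.FOb P195D

variable (k : Type) [Field k] [CharZero k]

/-- the differentials of `PP(n)` -/
def m3 (n : ℕ) : OS k n 0 0 ⟶ P2 k n := mkHom (wl3 k n) (wl3_mem k n)

def m2 (n : ℕ) : P2 k n ⟶ P1 k n := mkHom (wl2 k n) (wl2_mem k n)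

def m1 (n : ℕ) : P1 k n ⟶ OS k n 0 2 := mkHom (wl1 k n) (wl1_mem k n)

/-- the maps `PP(n+1) → Φ PP(n)` -/
def e3 (n : ℕ) : OS k ((n + 1 : ℕ) : ℤ) 0 0 ⟶ Phi.obj (OS k n 0 0) :=
  mkHom (F := Phi.obj (OS k n 0 0)) (cl3 k n) (cl3_mem k n)

def e2 (n : ℕ) : P2 k ((n + 1 : ℕ) : ℤ) ⟶ Phi.obj (P2 k n) :=
  mkHom (F := Phi.obj (P2 k n)) (cl2 k n) (cl2_mem k n)

def e1 (n : ℕ) : P1 k ((n + 1 : ℕ) : ℤ) ⟶ Phi.obj (P1 k n) :=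
  mkHom (F := Phi.obj (P1 k n)) (cl1 k n) (cl1_mem k n)

def e0 (n : ℕ) : OS k ((n + 1 : ℕ) : ℤ) 0 2 ⟶ Phi.obj (OS k n 0 2) :=
  mkHom (F := Phi.obj (OS k n 0 2)) (cl0 k n) (cl0_mem k n)

/-- the differentials of `QQ` -/
def n3 : O k (-1) 2 ⟶ FF k 0 0 := mkHom (ql3 k) (ql3_mem k)

def n2 : FF k 0 0 ⟶ KK k 0 0 := mkHom (ql2 k) (ql2_mem k)

def n1 : KK k 0 0 ⟶ O k (-1) 2 := mkHom (ql1 k) (ql1_mem k)

/-- the maps `PP(0) → Φ QQ` -/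
def f3 : OS k (0 : ℕ) 0 0 ⟶ Phi.obj (O k (-1) 2) :=
  mkHom (F := Phi.obj (O k (-1) 2)) (bl3 k) (bl3_mem k)

def f2 : P2 k (0 : ℕ) ⟶ Phi.obj (FF k 0 0) :=
  mkHom (F := Phi.obj (FF k 0 0)) (bl2 k) (bl2_mem k)

def f1 : P1 k (0 : ℕ) ⟶ Phi.obj (KK k 0 0) :=
  mkHom (F := Phi.obj (KK k 0 0)) (bl1 k) (bl1_mem k)

def f0 : OS k (0 : ℕ) 0 2 ⟶ Phi.obj (O k (-1) 2) :=
  mkHom (F := Phi.obj (O k (-1) 2)) (bl0 k) (bl0_mem k)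

/-- differentials of `PP(n)` -/
def dPP (n : ℕ) : ∀ i, PPo k n (i + 1) ⟶ PPo k n i
  | 0 => m1 k n
  | 1 => m2 k n
  | 2 => m3 k n
  | _ + 3 => 0

/-- comparison maps -/
def cPP (n : ℕ) : ∀ i, PPo k (n + 1) i ⟶ Phi.obj (PPo k n i)
  | 0 => e0 k n
  | 1 => e1 k n
  | 2 => e2 k n
  | 3 => e3 k n
  | _ + 4 => 0

/-- differentials of `QQ` -/
def dQQ : ∀ i, QQo k (i + 1) ⟶ QQo k i
  | 0 => n1 k
  | 1 => n2 k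
  | 2 => n3 k
  | _ + 3 => 0

/-- comparison `PP(0) → Φ QQ` -/
def cQQ : ∀ i, PPo k 0 i ⟶ Phi.obj (QQo k i)
  | 0 => f0 k
  | 1 => f1 k
  | 2 => f2 k
  | 3 => f3 k
  | _ + 4 => 0

/-- the columns -/
def KC : Cols (Phi (k := k)) where
  PP := PPo k
  d := dPP k
  c := cPP k

/-- the start -/
def SC : Start (KC k) where
  Q := QQo k
  dQ := dQQ k
  c0 := cQQ k

end P195S

end
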