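import Vale.Agent.P195S.Model
import Vale.Agent.P195S.KDD
import Vale.Agent.P195S.KAdd
import Vale.Agent.P195E.LBCat
import Vale.Agent.P195E.FilV

/-!
# P195: `PP(n)` is exact at line bundles of weight `≤ 1`
-/

noncomputable section

namespace P195S

open CategoryTheory P195A P195A.RS P195E P195E.FOb P195D

variable (k : Type) [Field k] [CharZero k]

/-! ### actions of the differentials -/

theorem act_m3q (n : ℕ) (u : (OS k n 0 0).I → Wo k) : act (m3 k n).1 u = wl3 k n u :=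
  act_mkHom _ _ u

theorem act_m2q (n : ℕ) (u : (P2 k n).I → Wo k) : act (m2 k n).1 u = wl2 k n u :=
  act_mkHom _ _ u

theorem act_m1q (n : ℕ) (u : (P1 k n).I → Wo k) : act (m1 k n).1 u = wl1 k n u :=
  act_mkHom _ _ u

theorem act_e0 (n : ℕ) (u : (OS k ((n + 1 : ℕ) : ℤ) 0 2).I → Wo k) :
    act (F := Phi.obj (OS k n 0 2)) (e0 k n).1 u = cl0 k n u :=
  act_mkHom (F := Phi.obj (OS k n 0 2)) _ _ u

/-! ### homogeneity -/

theorem L3_HHq {n : ℕ} {z : Vy (Wo k)} (hz : z ∈ HH k (Wo k) (n : ℤ)) :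
    (∀ a, (L3 k z).1 a ∈ HH k (Wo k) ((n : ℤ) - 1)) ∧
      ∀ a, (L3 k z).2 a ∈ HH k (Wo k) ((n : ℤ) + 1) :=
  ⟨fun _ => HH_lf _ (HH_be (S := primal k) hz),
    fun _ => HH_lf _ (Submodule.neg_mem _ (HH_al (S := primal k) hz))⟩

theorem L2_HHq {n : ℕ} {q : QV k} (h1 : ∀ a, q.1 a ∈ HH k (Wo k) ((n : ℤ) - 1))
    (h2 : ∀ a, q.2 a ∈ HH k (Wo k) ((n : ℤ) + 1)) :
    (∀ a, (L2 k n q).1 a ∈ HH k (Wo k) ((n : ℤ) - 1)) ∧
      ∀ a, (L2 k n q).2 a ∈ HH k (Wo k) ((n : ℤ) + 1) :=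
  ⟨fun a => Submodule.sub_mem _ (HH_lf _ (HH_chi1 (S := primal k) h1 h2)) (Submodule.smul_mem _ _ (h1 a)),
    fun a => Submodule.sub_mem _ (HH_lf _ (HH_chi2 (S := primal k) h1 h2)) (Submodule.smul_mem _ _ (h2 a))⟩

theorem L1_HHq {n : ℕ} {q : QV k} (h1 : ∀ a, q.1 a ∈ HH k (Wo k) ((n : ℤ) - 1))
    (h2 : ∀ a, q.2 a ∈ HH k (Wo k) ((n : ℤ) + 1)) : L1 k q ∈ HH k (Wo k) (n : ℤ) := by
  have h3 := HH_al (S := primal k) (HH_chi1 (S := primal k) h1 h2)
  have h4 := HH_be (S := primal k) (HH_chi2 (S := primal k) h1 h2)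
  rw [sub_add_cancel] at h3
  rw [add_sub_cancel_right] at h4
  exact Submodule.add_mem _ h3 h4

theorem exP2_wl3 (n : ℕ) (u : (OS k n 0 0).I → Wo k) :
    exP2 k n (wl3 k n u) = L3 k (exS k n 0 0 u) := by
  have h := L3_HHq k (exS_HH k u)
  exact exP2_reP2 k h.1 h.2

theorem exP1_wl2 (n : ℕ) (u : (P2 k n).I → Wo k) :
    exP1 k n (wl2 k n u) = L2 k n (exP2 k n u) := by
  have h := L2_HHq k (fun a => (exP2_HH k u a).1) (fun a => (exP2_HH k u a).2)
  exact exP1_reP1 k h.1 h.2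

theorem exS_wl1 (n : ℕ) (u : (P1 k n).I → Wo k) :
    exS k n 0 2 (wl1 k n u) = L1 k (exP1 k n u) :=
  exS_reS k (L1_HHq k (fun a => (exP1_HH k u a).1) (fun a => (exP1_HH k u a).2))

/-! ### the augmentation -/

theorem aev_smulW (S : Wo k) (v : Vy (Wo k)) : aev k (S • v) = S (aev k v) := by
  have h : S • v = lf (LinearMap.mulLeft k S) v := by
    ext1 p
    rw [RS.lf_apply]
    rfl
  rw [h, aev_mulLeft]

/-- the augmentation of `PP(n)` -/
def augS (n : ℕ) : Aug (OS k n 0 2) where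
  h := aev k ∘ₗ (exS k n 0 2).restrictScalars k
  lin S u := by
    show aev k (exS k n 0 2 (S • u)) = S (aev k (exS k n 0 2 u))
    rw [map_smul, aev_smulW]

theorem augS_apply (n : ℕ) (u : (OS k n 0 2).I → Wo k) :
    (augS k n).h u = (primal k).A ((primal k).ev (exS k n 0 2 u)) := rfl

omit [CharZero k] in
theorem cast_nat_int (n : ℕ) : (((n : ℤ) + 1 : ℤ) : k) = (n : k) + 1 := by
  push_cast
  rfl

theorem PP_hd (n : ℕ) (u : (P1 k n).I → Wo k) : (augS k n).h (act (m1 k n).1 u) = 0 := by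
  rw [act_m1q, augS_apply, exS_wl1]
  show (primal k).A ((primal k).ev ((primal k).al _ + (primal k).be _)) = 0
  rw [map_add, map_add, ev_al, map_zero, zero_add, A_be]

theorem PP_e3 (n : ℕ) (a b : ℤ) : InjAt (m3 k n) a b := by
  intro u hu h
  rw [act_m3q] at h
  have h1 := exP2_wl3 k n u
  rw [h, map_zero] at h1
  have h2 : ∀ c, lf ((primal k).D c) ((primal k).al (exS k n 0 0 u)) = 0 := by
    intro c
    have h3 : (0 : Vy (Wo k)) = lf ((primal k).D c) (-(primal k).al (exS k n 0 0 u)) :=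
      congrFun (congrArg Prod.snd h1) c
    rw [map_neg] at h3
    exact neg_eq_zero.1 h3.symm
  have h4 := pp3 ((mem_OS k).1 hu) h2
  rw [← reS_exS k u, h4, map_zero]

theorem PP_e2 (n : ℕ) (a b : ℤ) : ExAt (m3 k n) (m2 k n) a b := by
  intro u hu h
  rw [act_m2q] at h
  have h1 := exP1_wl2 k n u
  rw [h, map_zero] at h1
  obtain ⟨hu1, hu2⟩ := (mem_P2 k).1 hu
  have hq : (primal k).OQ n (-a) (2 - b) (exP2 k n u).1 (exP2 k n u).2 := by
    constructor
    · intro c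
      exact VV_cast (hu1 c) rfl (by ring)
    · intro c
      exact VV_cast (hu2 c) rfl (by ring)
  obtain ⟨z, hz, h5, h6⟩ := pp2 n hq (fun c => by
      have h3 : (0 : Vy (Wo k)) = lf ((primal k).X c)
          ((primal k).chi1 (exP2 k n u).1 (exP2 k n u).2) - ((n : k) + 1) • (exP2 k n u).1 c :=
        congrFun (congrArg Prod.fst h1) c
      rw [cast_nat_int]
      exact sub_eq_zero.1 h3.symm) (fun c => by
      have h3 : (0 : Vy (Wo k)) = lf ((primal k).D c)
          ((primal k).chi2 (exP2 k n u).1 (exP2 k n u).2) - ((n : k) + 1) • (exP2 k n u).2 c :=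
        congrFun (congrArg Prod.snd h1) c
      rw [cast_nat_int]
      exact sub_eq_zero.1 h3.symm)
  have hz' := exS_reS k (a := 0) (b := 0) (VV_HH hz)
  refine ⟨reS k n 0 0 z, ?_, ?_⟩
  · refine (mem_OS k).2 ?_
    rw [hz']
    exact VV_cast hz (by ring) (by ring)
  · rw [act_m3q, ← reP2_exP2 k (wl3 k n (reS k n 0 0 z)), exP2_wl3, hz']
    have h7 : L3 k z = exP2 k n u := by
      apply Prod.ext
      · funext c
        exact (h5 c).symm
      · funext c
        exact (h6 c).symm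
    rw [h7, reP2_exP2]

theorem PP_e1 (n : ℕ) (a b : ℤ) (ha : a ≤ 1) : ExAt (m2 k n) (m1 k n) a b := by
  intro u hu h
  rw [act_m1q] at h
  have h1 := exS_wl1 k n u
  rw [h, map_zero] at h1
  obtain ⟨g, t, r, s, hg, ht, hr, hs, h2⟩ := (mem_P1 k).1 hu
  have hq : (primal k).OQ n (-a) (2 - b) g t := by
    constructor
    · intro c
      exact VV_cast (hg c) rfl (by ring)
    · intro c
      exact VV_cast (ht c) rfl (by ring)
  obtain ⟨g', t', hq', h5, h6⟩ := pp1 n (w := -a) (d := 2 - b) (by omega) hq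
    (VV_cast hr (by ring) rfl) (VV_cast hs (by ring) (by ring)) (by
      rw [h2] at h1
      exact h1.symm)
  have hq1 : ∀ c, g' c ∈ HH k (Wo k) ((n : ℤ) - 1) := fun c => VV_HH (hq'.1 c)
  have hq2 : ∀ c, t' c ∈ HH k (Wo k) ((n : ℤ) + 1) := fun c => VV_HH (hq'.2 c)
  have hx := exP2_reP2 k (q := (g', t')) hq1 hq2
  refine ⟨reP2 k n (g', t'), ?_, ?_⟩
  · refine (mem_P2 k).2 ?_
    rw [hx]
    exact ⟨fun c => VV_cast (hq'.1 c) rfl (by ring), fun c => VV_cast (hq'.2 c) rfl (by ring)⟩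
  · rw [act_m2q, ← reP1_exP1 k (wl2 k n (reP2 k n (g', t'))), exP1_wl2, hx]
    have h7 : L2 k n (g', t') = exP1 k n u := by
      rw [h2]
      apply Prod.ext
      · funext c
        have := h5 c
        rw [cast_nat_int] at this
        exact this.symm
      · funext c
        have := h6 c
        rw [cast_nat_int] at this
        exact this.symm
    rw [h7, reP1_exP1]

theorem PP_e0 (n : ℕ) (a b : ℤ) (ha : a ≤ 1) : ExAug (m1 k n) (augS k n) a b := by
  intro u hu h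
  rw [augS_apply] at h
  have hu' := (mem_OS k).1 hu
  obtain ⟨r, hr, s, hs, h5⟩ := pp0 n (w := -a) (d := 2 - b) (by omega)
    (VV_cast hu' (by ring) (by ring)) h
  have hq1 : ∀ c, (primal k).psi1 r c ∈ HH k (Wo k) ((n : ℤ) - 1) :=
    fun c => HH_lf _ (VV_HH hr)
  have hq2 : ∀ c, (primal k).psi2 s c ∈ HH k (Wo k) ((n : ℤ) + 1) :=
    fun c => HH_lf _ (VV_HH hs)
  have hx := exP1_reP1 k (q := ((primal k).psi1 r, (primal k).psi2 s)) hq1 hq2
  refine ⟨reP1 k n ((primal k).psi1 r, (primal k).psi2 s), ?_, ?_⟩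
  · refine (mem_P1 k).2 ⟨0, 0, r, s, fun c => Submodule.zero_mem _,
      fun c => Submodule.zero_mem _, VV_cast hr (by ring) rfl,
      VV_cast hs (by ring) (by ring), ?_⟩
    rw [hx, zero_add, zero_add]
  · rw [act_m1q, ← reS_exS k (wl1 k n _), exS_wl1, hx]
    have h7 : L1 k ((primal k).psi1 r, (primal k).psi2 s) = exS k n 0 2 u := h5.symm
    rw [h7, reS_exS]

/-- the augmentation of `PP(n)` -/
def augP (n : ℕ) : Aug (PPo k n 0) := augS k n

/-- `PP(n)` is exact at line bundles -/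
theorem LB_PP (n : ℕ) : LB (PPo k n) (dPP k n) (augP k n) 1 where
  dd := K_dd k n
  z := K_zero k n
  hd := PP_hd k n
  e3 a b _ := PP_e3 k n a b
  e2 a b _ := PP_e2 k n a b
  e1 a b ha := PP_e1 k n a b ha
  e0 a b ha := PP_e0 k n a b ha

end P195S

end
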