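import Vale.Agent.P195A.PPx
import Vale.Agent.P195M.Ident
import Vale.Agent.P195A.Inst
import Vale.Agent.P195E.Tools

/-!
# P195: raw operators of the complexes `PP(n)`, as left `Wo`-linear maps
-/

noncomputable section

namespace P195S

open CategoryTheory P195A P195A.RS P195E P195E.FOb

section lin

variable {k : Type} [Field k]

theorem smulW_apply (r : Wo k) (v : Vy (Wo k)) (p : ℕ × ℕ) : (r • v) p = r * v p := rfl

theorem lf_smulW (s r : Wo k) (v : Vy (Wo k)) :
    lf (LinearMap.mulRight k s) (r • v) = r • lf (LinearMap.mulRight k s) v := by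
  ext1 p
  rw [smulW_apply, lf_apply, lf_apply, smulW_apply]
  exact mul_assoc _ _ _

theorem single_smulW (r u : Wo k) (p : ℕ × ℕ) :
    r • (Finsupp.single p u : Vy (Wo k)) = Finsupp.single p (r * u) := by
  rw [Finsupp.smul_single]
  rfl

/-- two additive maps commuting with the left action agree -/
theorem op_smulW {f : Vy (Wo k) →ₗ[k] Vy (Wo k)}
    (h : ∀ (r u : Wo k) (p : ℕ × ℕ), f (Finsupp.single p (r * u)) = r • f (Finsupp.single p u))
    (r : Wo k) (v : Vy (Wo k)) : f (r • v) = r • f v := by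
  induction v using Finsupp.induction_linear with
  | zero => rw [smul_zero, map_zero, smul_zero]
  | add v w hv hw => rw [smul_add, map_add, hv, hw, map_add, smul_add]
  | single p u => rw [single_smulW, h]

theorem smulW_comm (c : k) (r : Wo k) (v : Vy (Wo k)) : r • (c • v) = c • (r • v) := by
  ext1 p
  show r * (c • v p) = c • (r * v p)
  rw [mul_smul_comm]

theorem y0_smulW (r : Wo k) (v : Vy (Wo k)) : y0 k (Wo k) (r • v) = r • y0 k (Wo k) v :=
  op_smulW (fun r u p => by
    obtain ⟨i, j⟩ := p
    rw [y0_single, y0_single, single_smulW]) r v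

theorem y1_smulW (r : Wo k) (v : Vy (Wo k)) : y1 k (Wo k) (r • v) = r • y1 k (Wo k) v :=
  op_smulW (fun r u p => by
    obtain ⟨i, j⟩ := p
    rw [y1_single, y1_single, single_smulW]) r v

theorem q0_smulW (r : Wo k) (v : Vy (Wo k)) : q0 k (Wo k) (r • v) = r • q0 k (Wo k) v :=
  op_smulW (fun r u p => by
    obtain ⟨i, j⟩ := p
    rw [q0_single, q0_single, smulW_comm, single_smulW]) r v

theorem q1_smulW (r : Wo k) (v : Vy (Wo k)) : q1 k (Wo k) (r • v) = r • q1 k (Wo k) v :=
  op_smulW (fun r u p => by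
    obtain ⟨i, j⟩ := p
    rw [q1_single, q1_single, smulW_comm, single_smulW]) r v

variable [CharZero k]

theorem X_smulW (a : Fin 2) (r : Wo k) (v : Vy (Wo k)) :
    lf ((primal k).X a) (r • v) = r • lf ((primal k).X a) v := lf_smulW _ r v

theorem D_smulW (a : Fin 2) (r : Wo k) (v : Vy (Wo k)) :
    lf ((primal k).D a) (r • v) = r • lf ((primal k).D a) v := lf_smulW _ r v

theorem al_smulW (r : Wo k) (v : Vy (Wo k)) : (primal k).al (r • v) = r • (primal k).al v := by
  rw [al_apply, al_apply, y0_smulW, y1_smulW, X_smulW, X_smulW, smul_sub]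

theorem be_smulW (r : Wo k) (v : Vy (Wo k)) : (primal k).be (r • v) = r • (primal k).be v := by
  rw [be_apply, be_apply, q0_smulW, q1_smulW, D_smulW, D_smulW, smul_sub]

theorem g0_smulW (r : Wo k) (v : Vy (Wo k)) : (primal k).g0 (r • v) = r • (primal k).g0 v := by
  rw [g0_apply, g0_apply, q0_smulW, q1_smulW, X_smulW, X_smulW, smul_add]

theorem sv_smulW (r : Wo k) (g h : Fin 2 → Vy (Wo k)) :
    sv (k := k) (r • g) (r • h) = r • sv (k := k) g h := by
  simp only [sv, Pi.smul_apply, y0_smulW, y1_smulW, q0_smulW, q1_smulW, smul_sub, smul_add]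

theorem chi1_smulW (r : Wo k) (g h : Fin 2 → Vy (Wo k)) :
    (primal k).chi1 (r • g) (r • h) = r • (primal k).chi1 g h := by
  simp only [chi1, sv_smulW, Pi.smul_apply, D_smulW, be_smulW, smul_sub, smul_add]

theorem chi2_smulW (r : Wo k) (g h : Fin 2 → Vy (Wo k)) :
    (primal k).chi2 (r • g) (r • h) = r • (primal k).chi2 g h := by
  simp only [chi2, sv_smulW, Pi.smul_apply, X_smulW, al_smulW, smul_add]

theorem sv_addW (g h g' h' : Fin 2 → Vy (Wo k)) :
    sv (k := k) (g + g') (h + h') = sv (k := k) g h + sv (k := k) g' h' := by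
  simp only [sv, Pi.add_apply, map_add]
  abel

theorem chi1_addW (g h g' h' : Fin 2 → Vy (Wo k)) :
    (primal k).chi1 (g + g') (h + h') = (primal k).chi1 g h + (primal k).chi1 g' h' := by
  rw [chi1, sv_addW]
  simp only [chi1, Pi.add_apply, map_add]
  abel

theorem chi2_addW (g h g' h' : Fin 2 → Vy (Wo k)) :
    (primal k).chi2 (g + g') (h + h') = (primal k).chi2 g h + (primal k).chi2 g' h' := by
  rw [chi2, sv_addW]
  simp only [chi2, Pi.add_apply, map_add]
  abel

theorem tt_addW (g g' : Fin 2 → Vy (Wo k)) :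
    (primal k).tt (g + g') = (primal k).tt g + (primal k).tt g' := by
  simp only [RS.tt, Pi.add_apply, map_add]
  abel

theorem tt_smulW (r : Wo k) (g : Fin 2 → Vy (Wo k)) :
    (primal k).tt (r • g) = r • (primal k).tt g := by
  simp only [RS.tt, Pi.smul_apply, X_smulW, smul_sub]

theorem dv_addW (g g' : Fin 2 → Vy (Wo k)) : dv k (g + g') = dv k g + dv k g' := by
  simp only [dv, Pi.add_apply, map_add]
  abel

theorem dv_smulW (r : Wo k) (g : Fin 2 → Vy (Wo k)) : dv k (r • g) = r • dv k g := by
  simp only [dv, Pi.smul_apply, q0_smulW, q1_smulW, smul_add]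

theorem qq_smulW (a : Fin 2) (r : Wo k) (v : Vy (Wo k)) : qq k a (r • v) = r • qq k a v := by
  fin_cases a
  · exact q0_smulW r v
  · exact q1_smulW r v

theorem psi1_smulW (r : Wo k) (v : Vy (Wo k)) :
    (primal k).psi1 (r • v) = r • (primal k).psi1 v := by
  funext a
  exact X_smulW a r v

theorem psi2_smulW (r : Wo k) (v : Vy (Wo k)) :
    (primal k).psi2 (r • v) = r • (primal k).psi2 v := by
  funext a
  exact D_smulW a r v

theorem gg_smulW (r : Wo k) (v : Fin 2 → Vy (Wo k)) :
    (primal k).gg (r • v) = r • (primal k).gg v := by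
  funext a
  exact g0_smulW r (v a)

theorem smulW_commP (c : k) (r : Wo k) (v : Fin 2 → Vy (Wo k)) : r • (c • v) = c • (r • v) := by
  funext a
  exact smulW_comm c r (v a)

variable (k)

/-- pairs of pairs -/
abbrev QV : Type := (Fin 2 → Vy (Wo k)) × (Fin 2 → Vy (Wo k))

/-- left linear versions -/
def L3 : Vy (Wo k) →ₗ[Wo k] QV k where
  toFun z := ((primal k).dl3a z, (primal k).dl3b z)
  map_add' z z' := by
    apply Prod.ext
    · simp only [dl3a, map_add, Prod.mk_add_mk]
    · simp only [dl3b, map_add, map_neg, neg_add_rev, Prod.mk_add_mk]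
      abel
  map_smul' r z := by
    apply Prod.ext
    · simp only [dl3a, be_smulW, psi1_smulW, RingHom.id_apply, Prod.smul_mk]
    · simp only [dl3b, al_smulW, map_neg, psi2_smulW, RingHom.id_apply, Prod.smul_mk, smul_neg]

def L2 (n : ℕ) : QV k →ₗ[Wo k] QV k where
  toFun q := ((primal k).dl2a n q.1 q.2, (primal k).dl2b n q.1 q.2)
  map_add' z z' := by
    apply Prod.ext
    · simp only [dl2a, Prod.fst_add, Prod.snd_add, chi1_addW, map_add, smul_add]
      abel
    · simp only [dl2b, Prod.fst_add, Prod.snd_add, chi2_addW, map_add, smul_add]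
      abel
  map_smul' r z := by
    apply Prod.ext
    · simp only [dl2a, Prod.smul_fst, Prod.smul_snd, chi1_smulW, psi1_smulW, RingHom.id_apply,
        smul_sub, smulW_commP]
    · simp only [dl2b, Prod.smul_fst, Prod.smul_snd, chi2_smulW, psi2_smulW, RingHom.id_apply,
        smul_sub, smulW_commP]

def L1 : QV k →ₗ[Wo k] Vy (Wo k) where
  toFun q := (primal k).dl1 q.1 q.2
  map_add' z z' := by
    simp only [dl1, Prod.fst_add, Prod.snd_add, chi1_addW, chi2_addW, map_add]
    abel
  map_smul' r z := by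
    simp only [dl1, Prod.smul_fst, Prod.smul_snd, chi1_smulW, chi2_smulW, al_smulW, be_smulW,
      RingHom.id_apply, smul_add]

def M3 (n : ℕ) : Vy (Wo k) →ₗ[Wo k] Vy (Wo k) where
  toFun z := ((n : k) + 2) • (primal k).g0 z
  map_add' z z' := by simp only [map_add, smul_add]
  map_smul' r z := by simp only [g0_smulW, RingHom.id_apply, smulW_comm]

def M2 (n : ℕ) : QV k →ₗ[Wo k] QV k where
  toFun q := ((primal k).cc2a n q.1 q.2, (primal k).cc2b n q.1 q.2)
  map_add' z z' := by
    apply Prod.ext
    · simp only [cc2a, Prod.fst_add, map_add, smul_add]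
    · funext a
      simp only [cc2b, Prod.fst_add, Prod.snd_add, chi2_addW, map_add, Pi.add_apply, Pi.sub_apply,
        Pi.smul_apply, smul_add]
      abel
  map_smul' r z := by
    apply Prod.ext
    · simp only [cc2a, Prod.smul_fst, gg_smulW, RingHom.id_apply, smulW_commP]
    · funext a
      simp only [cc2b, Prod.smul_fst, Prod.smul_snd, chi2_smulW, gg_smulW, qq_smulW,
        RingHom.id_apply, Pi.smul_apply, Pi.sub_apply, smul_sub, smulW_comm]

def M1 (n : ℕ) : QV k →ₗ[Wo k] QV k where
  toFun q := ((primal k).cc1a n q.1 q.2, (primal k).cc1b n q.1 q.2)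
  map_add' z z' := by
    apply Prod.ext
    · simp only [cc1a, Prod.fst_add, tt_addW, dv_addW, map_add, map_sub, smul_add]
      abel
    · simp only [cc1b, Prod.fst_add, Prod.snd_add, tt_addW, map_add, smul_add]
      abel
  map_smul' r z := by
    apply Prod.ext
    · simp only [cc1a, Prod.smul_fst, tt_smulW, gg_smulW, be_smulW, dv_smulW,
        RingHom.id_apply, smul_add, smulW_commP, map_sub, psi1_smulW,
        smul_sub]
    · simp only [cc1b, Prod.smul_fst, Prod.smul_snd, tt_smulW, gg_smulW, al_smulW, psi2_smulW,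
        RingHom.id_apply, smul_add, smulW_commP]

def M0 (n : ℕ) : Vy (Wo k) →ₗ[Wo k] Vy (Wo k) where
  toFun z := ((n : k) + 1) • (primal k).g0 z
  map_add' z z' := by simp only [map_add, smul_add]
  map_smul' r z := by simp only [g0_smulW, RingHom.id_apply, smulW_comm]

/-- `QQ`: third differential, `r ↦ (r x_0, r x_1)` -/
def N3 : Wo k →ₗ[Wo k] (Fin 2 → Wo k) where
  toFun r := fun a => r * xo k a
  map_add' r s := by funext a; exact add_mul _ _ _
  map_smul' r s := by funext a; exact mul_assoc _ _ _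

/-- second differential, `g ↦ (g_0 x_1 - g_1 x_0) (∂_0, ∂_1)` -/
def N2 : (Fin 2 → Wo k) →ₗ[Wo k] (Fin 2 → Wo k) where
  toFun g := fun a => (g 0 * xo k 1 - g 1 * xo k 0) * po k a
  map_add' g h := by
    funext a
    simp only [Pi.add_apply, add_mul, sub_mul]
    abel
  map_smul' r g := by
    funext a
    simp only [Pi.smul_apply, smul_eq_mul, RingHom.id_apply, mul_sub, sub_mul, mul_assoc]

/-- first differential, `g ↦ - g_0 ∂_1 + g_1 ∂_0` -/
def N1 : (Fin 2 → Wo k) →ₗ[Wo k] Wo k where
  toFun g := g 1 * po k 0 - g 0 * po k 1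
  map_add' g h := by
    simp only [Pi.add_apply, add_mul]
    abel
  map_smul' r g := by
    simp only [Pi.smul_apply, smul_eq_mul, RingHom.id_apply, mul_sub, mul_assoc]

/-- comparison `PP(0) → Φ QQ` in degree 2, `(g, h) ↦ (-ε h_1, ε h_0)` -/
def B2 : QV k →ₗ[Wo k] (Fin 2 → Wo k) where
  toFun q := ![-((primal k).g0 (q.2 1) (0, 0)), (primal k).g0 (q.2 0) (0, 0)]
  map_add' g h := by
    funext a
    fin_cases a
    · simp only [Prod.snd_add, Pi.add_apply, map_add, Finsupp.add_apply, neg_add_rev,
        Fin.zero_eta, Matrix.cons_val_zero]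
      abel
    · simp only [Prod.snd_add, Pi.add_apply, map_add, Finsupp.add_apply,
        Fin.mk_one, Matrix.cons_val_one, Matrix.cons_val_zero]
  map_smul' r g := by
    funext a
    fin_cases a
    · simp only [Prod.smul_snd, Pi.smul_apply, g0_smulW, smulW_apply, smul_eq_mul,
        RingHom.id_apply, Fin.zero_eta, Matrix.cons_val_zero]
      exact (mul_neg r ((primal k).g0 (g.2 1) (0, 0))).symm
    · simp only [Prod.smul_snd, Pi.smul_apply, g0_smulW, smulW_apply, smul_eq_mul,
        RingHom.id_apply, Fin.mk_one, Matrix.cons_val_one, Matrix.cons_val_zero]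

/-- degree 1, `(g, h) ↦ (-ε h_0, -ε h_1)` -/
def B1 : QV k →ₗ[Wo k] (Fin 2 → Wo k) where
  toFun q := fun a => -((primal k).g0 (q.2 a) (0, 0))
  map_add' g h := by
    funext a
    simp only [Prod.snd_add, Pi.add_apply, map_add, Finsupp.add_apply, neg_add_rev]
    abel
  map_smul' r g := by
    funext a
    simp only [Prod.smul_snd, Pi.smul_apply, g0_smulW, smulW_apply, smul_eq_mul,
      RingHom.id_apply]
    exact (mul_neg r ((primal k).g0 (g.2 a) (0, 0))).symm

end lin

end P195S

end
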